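import Mathlib

/-! Row 332: continuity of the matrix functional calculus in the matrix (product topology). -/

set_option autoImplicit false

namespace Crest.Agent.R332

open Matrix

theorem continuousOn_cfc_aux {n : Type} [Fintype n] [DecidableEq n] {X : Type*}
    [TopologicalSpace X] {A : X → Matrix n n ℂ} {t : Set X}
    {s : Set ℝ} (hs : IsOpen s) {f : ℝ → ℝ} (hf : ContinuousOn f s) (hA : ContinuousOn A t)
    (hh : ∀ x ∈ t, (A x).IsHermitian) (hsp : ∀ x ∈ t, spectrum ℝ (A x) ⊆ s) :
    ContinuousOn (fun x => cfc f (A x)) t := by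
  open scoped Matrix.Norms.L2Operator in
  let _ : NormedAlgebra ℝ (Matrix n n ℂ) :=
    { (inferInstance : Algebra ℝ (Matrix n n ℂ)) with
      norm_smul_le := fun r x => by
        have := norm_smul_le (r : ℂ) x
        rwa [Complex.coe_smul, Complex.norm_real] at this }
  open scoped Matrix.Norms.L2Operator in
  have : CompleteSpace (Matrix n n ℂ) := FiniteDimensional.complete ℂ _
  open scoped Matrix.Norms.L2Operator in
  refine ContinuousOn.cfc_of_mem_nhdsSet (s := s) f ?_ hA (fun x hx => hh x hx) hf
  exact hs.mem_nhdsSet.2 (Set.iUnion₂_subset hsp)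

end Crest.Agent.R332
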