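import Mathlib
import Crest.Agent.Lib.QEnt.Basic

/-!
Row 332 (matrix Lieb-Thirring): basic API for finite complex matrices.

Conventions used in every file of `R332`:
* index types live in `Type`; `‖·‖` on matrices is the Frobenius (Hilbert-Schmidt) norm
  (`open scoped Matrix.Norms.Frobenius`); scalars act through the REAL smul `c • A`;
* `tr A` is the real part of the trace; `cfc f A` is Mathlib's real functional calculus;
* `Op A c` says that the operator norm of `A` is at most `c`;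
* the Loewner order is written `(B - A).PosSemidef`.
-/

set_option autoImplicit false
set_option linter.unusedSectionVars false

namespace Crest.Agent.R332

open Matrix Crest.Agent.Lib.QEnt
open scoped ComplexOrder Matrix.Norms.Frobenius

variable {k l m n : Type} [Fintype k] [Fintype l] [Fintype m] [Fintype n]

theorem le_of_sq_le' {a b : ℝ} (h : a ^ 2 ≤ b ^ 2) (hb : 0 ≤ b) : a ≤ b :=
  (abs_le_of_sq_le_sq' h hb).2

/-! ### trace -/

/-- Real part of the trace. -/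
noncomputable def tr (A : Matrix n n ℂ) : ℝ := A.trace.re

@[simp] theorem tr_add (A B : Matrix n n ℂ) : tr (A + B) = tr A + tr B := by simp [tr]
@[simp] theorem tr_sub (A B : Matrix n n ℂ) : tr (A - B) = tr A - tr B := by simp [tr]
@[simp] theorem tr_neg (A : Matrix n n ℂ) : tr (-A) = - tr A := by simp [tr]
@[simp] theorem tr_zero : tr (0 : Matrix n n ℂ) = 0 := by simp [tr]
@[simp] theorem tr_smul (c : ℝ) (A : Matrix n n ℂ) : tr (c • A) = c * tr A := by simp [tr]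
@[simp] theorem tr_one [DecidableEq n] : tr (1 : Matrix n n ℂ) = Fintype.card n := by simp [tr]
@[simp] theorem tr_conjTranspose (A : Matrix n n ℂ) : tr Aᴴ = tr A := by
  simp [tr, trace_conjTranspose]

theorem tr_sum {ι : Type*} (s : Finset ι) (A : ι → Matrix n n ℂ) :
    tr (∑ i ∈ s, A i) = ∑ i ∈ s, tr (A i) := by simp [tr, trace_sum]

theorem tr_mul_comm (A : Matrix m n ℂ) (B : Matrix n m ℂ) : tr (A * B) = tr (B * A) := by
  simp only [tr, trace_mul_comm A B]

theorem tr_mul_cycle (A : Matrix m n ℂ) (B : Matrix n k ℂ) (C : Matrix k m ℂ) :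
    tr (A * B * C) = tr (C * A * B) := by
  rw [tr_mul_comm, Matrix.mul_assoc]

theorem tr_eq_sum (A : Matrix n n ℂ) : tr A = ∑ i, (A i i).re := by
  simp [tr, Matrix.trace, Complex.re_sum]

theorem tr_diagonal [DecidableEq n] (d : n → ℝ) :
    tr (diagonal fun i => (d i : ℂ)) = ∑ i, d i := by
  simp [tr_eq_sum]

/-- `tr` as a continuous real-linear map. -/
noncomputable def trL (n : Type) [Fintype n] : Matrix n n ℂ →L[ℝ] ℝ :=
  LinearMap.toContinuousLinearMap
    { toFun := tr, map_add' := tr_add, map_smul' := fun c A => by simp }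

@[simp] theorem trL_apply (A : Matrix n n ℂ) : trL n A = tr A := rfl

theorem continuous_tr : Continuous (tr : Matrix n n ℂ → ℝ) := (trL n).continuous

@[fun_prop] theorem Continuous.tr' {X : Type*} [TopologicalSpace X] {A : X → Matrix n n ℂ}
    (h : Continuous A) : Continuous fun x => tr (A x) := continuous_tr.comp h

@[fun_prop] theorem ContinuousOn.tr' {X : Type*} [TopologicalSpace X] {A : X → Matrix n n ℂ}
    {s : Set X} (h : ContinuousOn A s) : ContinuousOn (fun x => tr (A x)) s :=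
  continuous_tr.comp_continuousOn h

/-! ### Frobenius norm -/

theorem norm_sq_eq (A : Matrix m n ℂ) : ‖A‖ ^ 2 = ∑ i, ∑ j, Complex.normSq (A i j) := by
  rw [frobenius_norm_def, ← Real.sqrt_eq_rpow, Real.sq_sqrt (by positivity)]
  simp [Complex.normSq_eq_norm_sq]

theorem tr_ct_mul_self (A : Matrix m n ℂ) : tr (Aᴴ * A) = ‖A‖ ^ 2 := by
  rw [norm_sq_eq, tr_eq_sum, Finset.sum_comm]
  refine Finset.sum_congr rfl fun i _ => ?_
  rw [Matrix.mul_apply, Complex.re_sum]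
  refine Finset.sum_congr rfl fun j _ => ?_
  simp [Complex.normSq_apply]

theorem tr_mul_ct_self (A : Matrix m n ℂ) : tr (A * Aᴴ) = ‖A‖ ^ 2 := by
  rw [tr_mul_comm, tr_ct_mul_self]

theorem tr_mul_self_herm {A : Matrix n n ℂ} (hA : A.IsHermitian) : tr (A * A) = ‖A‖ ^ 2 := by
  rw [← tr_ct_mul_self, hA.eq]

theorem norm_ct (A : Matrix m n ℂ) : ‖Aᴴ‖ = ‖A‖ := frobenius_norm_conjTranspose A

theorem norm_mul_le' (A : Matrix m n ℂ) (B : Matrix n k ℂ) : ‖A * B‖ ≤ ‖A‖ * ‖B‖ :=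
  frobenius_norm_mul A B

theorem norm_entry_le (A : Matrix m n ℂ) (i : m) (j : n) : ‖A i j‖ ≤ ‖A‖ := by
  refine le_of_sq_le' ?_ (norm_nonneg _)
  rw [norm_sq_eq, ← Complex.normSq_eq_norm_sq]
  calc Complex.normSq (A i j) ≤ ∑ j, Complex.normSq (A i j) :=
        Finset.single_le_sum (f := fun j => Complex.normSq (A i j))
          (fun _ _ => Complex.normSq_nonneg _) (Finset.mem_univ j)
    _ ≤ _ := Finset.single_le_sum (f := fun i => ∑ j, Complex.normSq (A i j))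
          (fun _ _ => Finset.sum_nonneg fun _ _ => Complex.normSq_nonneg _) (Finset.mem_univ i)

theorem norm_add_sq_eq (A B : Matrix m n ℂ) :
    ‖A + B‖ ^ 2 = ‖A‖ ^ 2 + 2 * tr (Aᴴ * B) + ‖B‖ ^ 2 := by
  have h : tr (Bᴴ * A) = tr (Aᴴ * B) := by
    rw [← tr_conjTranspose]; simp
  simp only [← tr_ct_mul_self, conjTranspose_add, Matrix.add_mul, Matrix.mul_add, tr_add, h]
  ring

theorem norm_sub_sq_eq (A B : Matrix m n ℂ) :
    ‖A - B‖ ^ 2 = ‖A‖ ^ 2 - 2 * tr (Aᴴ * B) + ‖B‖ ^ 2 := by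
  rw [sub_eq_add_neg, norm_add_sq_eq, norm_neg]; simp; ring

/-- Cauchy-Schwarz for the complex trace. -/
theorem norm_trace_mul_le (A : Matrix m n ℂ) (B : Matrix n m ℂ) :
    ‖(A * B).trace‖ ≤ ‖A‖ * ‖B‖ := by
  have h1 : (A * B).trace = ∑ p : m × n, A p.1 p.2 * B p.2 p.1 := by
    simp [Matrix.trace, Matrix.mul_apply, Fintype.sum_prod_type]
  have h2 : ‖A‖ ^ 2 = ∑ p : m × n, ‖A p.1 p.2‖ ^ 2 := by
    simp [norm_sq_eq, Fintype.sum_prod_type, Complex.normSq_eq_norm_sq]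
  have h3 : ‖B‖ ^ 2 = ∑ p : m × n, ‖B p.2 p.1‖ ^ 2 := by
    rw [norm_sq_eq, Finset.sum_comm]
    simp [Fintype.sum_prod_type, Complex.normSq_eq_norm_sq]
  have h4 : ‖(A * B).trace‖ ≤ ∑ p : m × n, ‖A p.1 p.2‖ * ‖B p.2 p.1‖ := by
    rw [h1]
    exact (norm_sum_le _ _).trans (by simp)
  refine h4.trans (le_of_sq_le' ?_ (by positivity))
  rw [mul_pow, h2, h3]
  exact Finset.sum_mul_sq_le_sq_mul_sq _ _ _

theorem abs_tr_mul_le (A : Matrix m n ℂ) (B : Matrix n m ℂ) : |tr (A * B)| ≤ ‖A‖ * ‖B‖ :=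
  (Complex.abs_re_le_norm _).trans (norm_trace_mul_le A B)

theorem tr_mul_le (A : Matrix m n ℂ) (B : Matrix n m ℂ) : tr (A * B) ≤ ‖A‖ * ‖B‖ :=
  (le_abs_self _).trans (abs_tr_mul_le A B)

/-- An isometry on the left does not change the Frobenius norm. -/
theorem norm_iso_mul [DecidableEq n] {U : Matrix m n ℂ} (hU : Uᴴ * U = 1) (A : Matrix n k ℂ) :
    ‖U * A‖ = ‖A‖ := by
  rw [← sq_eq_sq₀ (norm_nonneg _) (norm_nonneg _), ← tr_ct_mul_self, ← tr_ct_mul_self,
    conjTranspose_mul]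
  rw [Matrix.mul_assoc, ← Matrix.mul_assoc Uᴴ, hU, Matrix.one_mul]

theorem norm_mul_coiso [DecidableEq m] {U : Matrix m n ℂ} (hU : U * Uᴴ = 1) (A : Matrix k m ℂ) :
    ‖A * U‖ = ‖A‖ := by
  rw [← norm_ct, conjTranspose_mul, norm_iso_mul (by simpa using hU), norm_ct]

theorem norm_conj_uni [DecidableEq n] {U : Matrix n n ℂ} (hU : Uᴴ * U = 1) (A : Matrix n n ℂ) :
    ‖Uᴴ * A * U‖ = ‖A‖ := by
  rw [norm_mul_coiso (uni_comm hU), norm_iso_mul (by simpa using uni_comm hU)]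

theorem tr_conj_uni [DecidableEq n] {U : Matrix n n ℂ} (hU : Uᴴ * U = 1) (A : Matrix n n ℂ) :
    tr (Uᴴ * A * U) = tr A := by
  rw [tr_mul_cycle, uni_comm hU, Matrix.one_mul]

/-! ### positivity -/

theorem tr_nonneg {A : Matrix n n ℂ} (hA : A.PosSemidef) : 0 ≤ tr A :=
  (Complex.nonneg_iff.1 hA.trace_nonneg).1

theorem psd_smul {A : Matrix n n ℂ} (hA : A.PosSemidef) {c : ℝ} (hc : 0 ≤ c) :
    (c • A).PosSemidef := hA.smul hc

theorem herm_smul {A : Matrix n n ℂ} (hA : A.IsHermitian) (c : ℝ) : (c • A).IsHermitian := by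
  unfold IsHermitian
  rw [conjTranspose_smul, hA.eq, star_trivial]

theorem herm_smul_one [DecidableEq n] (c : ℝ) : (c • (1 : Matrix n n ℂ)).IsHermitian :=
  herm_smul isHermitian_one c

theorem psd_smul_one [DecidableEq n] {c : ℝ} (hc : 0 ≤ c) :
    (c • (1 : Matrix n n ℂ)).PosSemidef := psd_smul PosSemidef.one hc

theorem psd_mul_self {A : Matrix n n ℂ} (hA : A.IsHermitian) : (A * A).PosSemidef := by
  have := posSemidef_conjTranspose_mul_self A
  rwa [hA.eq] at this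

/-! ### functional calculus -/

variable [DecidableEq n]

theorem diag_mul_diag (a b : n → ℝ) :
    (diagonal fun i => (a i : ℂ)) * (diagonal fun i => (b i : ℂ)) =
      diagonal fun i => ((a i * b i : ℝ) : ℂ) := by
  simp [diagonal_mul_diagonal]

/-- Intertwining in diagonal form. -/
theorem diag_intertwine [DecidableEq m] {A U : Matrix m m ℂ} {a : m → ℝ} {B V : Matrix n n ℂ}
    {b : n → ℝ} (hA : IsDiag A U a) (hB : IsDiag B V b) {X : Matrix m n ℂ} (h : A * X = X * B)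
    (f : ℝ → ℝ) :
    U * diagonal (fun i => (f (a i) : ℂ)) * Uᴴ * X =
      X * (V * diagonal (fun i => (f (b i) : ℂ)) * Vᴴ) := by
  have h1 : diagonal (fun i => (a i : ℂ)) * (Uᴴ * X * V) =
      (Uᴴ * X * V) * diagonal (fun i => (b i : ℂ)) := by
    rw [← hA.conj, ← hB.conj]
    calc Uᴴ * A * U * (Uᴴ * X * V) = Uᴴ * A * (U * Uᴴ) * X * V := by simp only [Matrix.mul_assoc]
      _ = Uᴴ * (A * X) * V := by rw [hA.uni']; simp only [Matrix.mul_one, Matrix.mul_assoc]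
      _ = Uᴴ * X * (V * Vᴴ) * B * V := by
          rw [h, hB.uni']; simp only [Matrix.mul_one, Matrix.mul_assoc]
      _ = _ := by simp only [Matrix.mul_assoc]
  have h2 : diagonal (fun i => (f (a i) : ℂ)) * (Uᴴ * X * V) =
      (Uᴴ * X * V) * diagonal (fun i => (f (b i) : ℂ)) := by
    ext i j
    have := congrFun (congrFun h1 i) j
    rw [diagonal_mul, mul_diagonal] at this ⊢
    by_cases hz : (Uᴴ * X * V) i j = 0
    · simp [hz]
    · have : a i = b j := by
        rw [mul_comm] at this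
        exact_mod_cast mul_left_cancel₀ hz this
      rw [this, mul_comm]
  calc U * diagonal (fun i => (f (a i) : ℂ)) * Uᴴ * X
      = U * diagonal (fun i => (f (a i) : ℂ)) * Uᴴ * X * (V * Vᴴ) := by
        rw [hB.uni', Matrix.mul_one]
    _ = U * (diagonal (fun i => (f (a i) : ℂ)) * (Uᴴ * X * V)) * Vᴴ := by
        simp only [Matrix.mul_assoc]
    _ = (U * Uᴴ) * X * (V * diagonal (fun i => (f (b i) : ℂ)) * Vᴴ) := by
        rw [h2]; simp only [Matrix.mul_assoc]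
    _ = _ := by rw [hA.uni', Matrix.one_mul]

theorem cfc_eq_eig {A : Matrix n n ℂ} (hA : A.IsHermitian) (f : ℝ → ℝ) :
    cfc f A = (hA.eigenvectorUnitary : Matrix n n ℂ) *
      diagonal (fun i => (f (hA.eigenvalues i) : ℂ)) * (hA.eigenvectorUnitary : Matrix n n ℂ)ᴴ := by
  rw [hA.cfc_eq, IsHermitian.cfc, Unitary.conjStarAlgAut_apply]
  simp [star_eq_conjTranspose, Function.comp_def]

/-- The functional calculus is computed in any diagonalising basis. -/
theorem isDiag_cfc {A U : Matrix n n ℂ} {a : n → ℝ} (h : IsDiag A U a) (f : ℝ → ℝ) :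
    IsDiag (cfc f A) U (fun i => f (a i)) := by
  refine ⟨h.uni, ?_⟩
  have := diag_intertwine (isDiag_eigenvalues h.isHermitian) h (X := 1) (by simp) f
  rw [Matrix.mul_one, Matrix.one_mul] at this
  rw [cfc_eq_eig h.isHermitian, this]

/-- `A X = X B` implies `f(A) X = X f(B)` (rectangular `X`). -/
theorem cfc_intertwine [DecidableEq m] {A : Matrix m m ℂ} {B : Matrix n n ℂ} (hA : A.IsHermitian)
    (hB : B.IsHermitian) {X : Matrix m n ℂ} (h : A * X = X * B) (f : ℝ → ℝ) :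
    cfc f A * X = X * cfc f B := by
  obtain ⟨U, a, ha⟩ := exists_isDiag hA
  obtain ⟨V, b, hb⟩ := exists_isDiag hB
  rw [(isDiag_cfc ha f).eq, (isDiag_cfc hb f).eq]
  exact diag_intertwine ha hb h f

theorem cfc_comm {A X : Matrix n n ℂ} (hA : A.IsHermitian) (h : A * X = X * A) (f : ℝ → ℝ) :
    cfc f A * X = X * cfc f A := cfc_intertwine hA hA h f

theorem herm_cfc (f : ℝ → ℝ) (A : Matrix n n ℂ) : (cfc f A).IsHermitian :=
  (cfc_predicate f A : IsSelfAdjoint _)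

theorem isDiag_eq_of {A B U : Matrix n n ℂ} {a b : n → ℝ} (hA : IsDiag A U a) (hB : IsDiag B U b)
    (h : ∀ i, a i = b i) : A = B := by
  rw [hA.eq, hB.eq, funext h]

theorem isDiag_mul {A B U : Matrix n n ℂ} {a b : n → ℝ} (hA : IsDiag A U a) (hB : IsDiag B U b) :
    IsDiag (A * B) U (fun i => a i * b i) := by
  refine ⟨hA.uni, ?_⟩
  rw [← diag_mul_diag]
  conv_lhs => rw [hA.eq, hB.eq]
  calc U * diagonal (fun i => (a i : ℂ)) * Uᴴ * (U * diagonal (fun i => (b i : ℂ)) * Uᴴ)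
      = U * diagonal (fun i => (a i : ℂ)) * (Uᴴ * U) * diagonal (fun i => (b i : ℂ)) * Uᴴ := by
        simp only [Matrix.mul_assoc]
    _ = _ := by rw [hA.uni]; simp only [Matrix.mul_one, Matrix.mul_assoc]

theorem isDiag_add {A B U : Matrix n n ℂ} {a b : n → ℝ} (hA : IsDiag A U a) (hB : IsDiag B U b) :
    IsDiag (A + B) U (fun i => a i + b i) := by
  refine ⟨hA.uni, ?_⟩
  conv_lhs => rw [hA.eq, hB.eq]
  rw [← Matrix.add_mul, ← Matrix.mul_add, diagonal_add]
  simp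

theorem isDiag_smul {A U : Matrix n n ℂ} {a : n → ℝ} (hA : IsDiag A U a) (c : ℝ) :
    IsDiag (c • A) U (fun i => c * a i) := by
  have := hA.smul c
  rwa [Complex.coe_smul] at this

theorem isDiag_neg {A U : Matrix n n ℂ} {a : n → ℝ} (hA : IsDiag A U a) :
    IsDiag (-A) U (fun i => - a i) := by
  simpa using isDiag_smul hA (-1)

theorem isDiag_sub {A B U : Matrix n n ℂ} {a b : n → ℝ} (hA : IsDiag A U a) (hB : IsDiag B U b) :
    IsDiag (A - B) U (fun i => a i - b i) := by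
  simpa [sub_eq_add_neg] using isDiag_add hA (isDiag_neg hB)

theorem isDiag_one {U : Matrix n n ℂ} (hU : Uᴴ * U = 1) : IsDiag 1 U (fun _ => 1) :=
  ⟨hU, by simp [uni_comm hU]⟩

theorem isDiag_smul_one {U : Matrix n n ℂ} (hU : Uᴴ * U = 1) (c : ℝ) :
    IsDiag (c • (1 : Matrix n n ℂ)) U (fun _ => c) := by
  simpa using isDiag_smul (isDiag_one hU) c

theorem isDiag_diagonal (d : n → ℝ) : IsDiag (diagonal fun i => (d i : ℂ)) 1 d :=
  ⟨by simp, by simp⟩

theorem isDiag_psd {A U : Matrix n n ℂ} {a : n → ℝ} (hA : IsDiag A U a) (h : ∀ i, 0 ≤ a i) :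
    A.PosSemidef := by
  rw [hA.eq]
  refine PosSemidef.mul_mul_conjTranspose_same ?_ U
  rw [posSemidef_diagonal_iff]
  intro i
  exact_mod_cast h i

theorem isDiag_posDef {A U : Matrix n n ℂ} {a : n → ℝ} (hA : IsDiag A U a) (h : ∀ i, 0 < a i) :
    A.PosDef := by
  rw [(isDiag_psd hA fun i => (h i).le).posDef_iff_det_ne_zero, hA.det]
  exact_mod_cast (Finset.prod_pos fun i _ => h i).ne'

theorem isDiag_pos {A U : Matrix n n ℂ} {a : n → ℝ} (hA : IsDiag A U a) (h : A.PosDef) (i : n) :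
    0 < a i := by
  refine (hA.nonneg h.posSemidef i).lt_of_ne fun h0 => ?_
  have := (h.posSemidef.posDef_iff_det_ne_zero).1 h
  rw [hA.det] at this
  exact this (by rw [Finset.prod_eq_zero (Finset.mem_univ i) h0.symm]; simp)

/-- `c ≤ A` gives `c ≤` every eigenvalue. -/
theorem isDiag_ge {A U : Matrix n n ℂ} {a : n → ℝ} (hA : IsDiag A U a) {c : ℝ}
    (h : (A - c • (1 : Matrix n n ℂ)).PosSemidef) (i : n) : c ≤ a i := by
  have := (isDiag_sub hA (isDiag_smul_one hA.uni c)).nonneg h i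
  linarith

theorem isDiag_le {A U : Matrix n n ℂ} {a : n → ℝ} (hA : IsDiag A U a) {c : ℝ}
    (h : (c • (1 : Matrix n n ℂ) - A).PosSemidef) (i : n) : a i ≤ c := by
  have := (isDiag_sub (isDiag_smul_one hA.uni c) hA).nonneg h i
  linarith

theorem isDiag_tr {A U : Matrix n n ℂ} {a : n → ℝ} (hA : IsDiag A U a) : tr A = ∑ i, a i :=
  hA.trace_re

theorem isDiag_norm_sq {A U : Matrix n n ℂ} {a : n → ℝ} (hA : IsDiag A U a) :
    ‖A‖ ^ 2 = ∑ i, a i ^ 2 := by
  rw [← tr_mul_self_herm hA.isHermitian, isDiag_tr (isDiag_mul hA hA)]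
  simp [sq]

theorem tr_cfc {A U : Matrix n n ℂ} {a : n → ℝ} (hA : IsDiag A U a) (f : ℝ → ℝ) :
    tr (cfc f A) = ∑ i, f (a i) := isDiag_tr (isDiag_cfc hA f)

theorem cfc_mul_cfc {A : Matrix n n ℂ} (hA : A.IsHermitian) (f g : ℝ → ℝ) :
    cfc f A * cfc g A = cfc (fun t => f t * g t) A := by
  obtain ⟨U, a, ha⟩ := exists_isDiag hA
  exact isDiag_eq_of (isDiag_mul (isDiag_cfc ha f) (isDiag_cfc ha g)) (isDiag_cfc ha _)
    fun _ => rfl

theorem cfc_cfc {A : Matrix n n ℂ} (hA : A.IsHermitian) (f g : ℝ → ℝ) :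
    cfc f (cfc g A) = cfc (fun t => f (g t)) A := by
  obtain ⟨U, a, ha⟩ := exists_isDiag hA
  exact isDiag_eq_of (isDiag_cfc (isDiag_cfc ha g) f) (isDiag_cfc ha _) fun _ => rfl

theorem cfc_id_eq {A : Matrix n n ℂ} (hA : A.IsHermitian) : cfc (fun t : ℝ => t) A = A := by
  obtain ⟨U, a, ha⟩ := exists_isDiag hA
  exact isDiag_eq_of (isDiag_cfc ha _) ha fun _ => rfl

theorem psd_cfc {f : ℝ → ℝ} (hf : ∀ t, 0 ≤ f t) (A : Matrix n n ℂ) : (cfc f A).PosSemidef := by
  by_cases hA : A.IsHermitian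
  · obtain ⟨U, a, ha⟩ := exists_isDiag hA
    exact isDiag_psd (isDiag_cfc ha f) fun i => hf _
  · rw [cfc_apply_of_not_predicate A (show ¬ IsSelfAdjoint A from hA)]
    exact PosSemidef.zero

theorem psd_cfc_of_psd {f : ℝ → ℝ} (hf : ∀ t, 0 ≤ t → 0 ≤ f t) {A : Matrix n n ℂ}
    (hA : A.PosSemidef) : (cfc f A).PosSemidef := by
  obtain ⟨U, a, ha⟩ := exists_isDiag hA.1
  exact isDiag_psd (isDiag_cfc ha f) fun i => hf _ (ha.nonneg hA i)

/-- `tr (A M)` in an eigenbasis of `A`. -/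
theorem isDiag_tr_mul {A U : Matrix n n ℂ} {a : n → ℝ} (hA : IsDiag A U a) (M : Matrix n n ℂ) :
    tr (A * M) = ∑ i, a i * dg U M i := by
  conv_lhs => rw [hA.eq]
  rw [Matrix.mul_assoc, Matrix.mul_assoc, tr_mul_comm, Matrix.mul_assoc, tr_eq_sum]
  refine Finset.sum_congr rfl fun i _ => ?_
  rw [diagonal_mul, dg]
  simp

theorem tr_mul_nonneg {A B : Matrix n n ℂ} (hA : A.PosSemidef) (hB : B.PosSemidef) :
    0 ≤ tr (A * B) := by
  obtain ⟨U, a, ha⟩ := exists_isDiag hA.1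
  rw [isDiag_tr_mul ha]
  exact Finset.sum_nonneg fun i _ => mul_nonneg (ha.nonneg hA i) (dg_nonneg U hB i)

theorem tr_mul_mono {P A B : Matrix n n ℂ} (hP : P.PosSemidef) (h : (B - A).PosSemidef) :
    tr (P * A) ≤ tr (P * B) := by
  have := tr_mul_nonneg hP h
  rw [Matrix.mul_sub, tr_sub] at this
  linarith

theorem norm_le_tr {A : Matrix n n ℂ} (hA : A.PosSemidef) : ‖A‖ ≤ tr A := by
  obtain ⟨U, a, ha⟩ := exists_isDiag hA.1
  refine le_of_sq_le' ?_ (tr_nonneg hA)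
  rw [isDiag_norm_sq ha, isDiag_tr ha]
  exact Finset.sum_sq_le_sq_sum_of_nonneg fun i _ => ha.nonneg hA i

theorem eq_zero_of_psd_tr {A : Matrix n n ℂ} (hA : A.PosSemidef) (h : tr A ≤ 0) : A = 0 :=
  norm_le_zero_iff.1 ((norm_le_tr hA).trans h)

/-- The overlap weights of two orthonormal bases. -/
noncomputable def ov (U V : Matrix n n ℂ) (i j : n) : ℝ := Complex.normSq ((Uᴴ * V) i j)

theorem ov_nonneg (U V : Matrix n n ℂ) (i j : n) : 0 ≤ ov U V i j := Complex.normSq_nonneg _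

theorem uni_mul {U V : Matrix n n ℂ} (hU : Uᴴ * U = 1) (hV : Vᴴ * V = 1) :
    (Uᴴ * V)ᴴ * (Uᴴ * V) = 1 := by
  simp only [conjTranspose_mul, conjTranspose_conjTranspose]
  calc Vᴴ * U * (Uᴴ * V) = Vᴴ * (U * Uᴴ) * V := by simp only [Matrix.mul_assoc]
    _ = 1 := by rw [uni_comm hU, Matrix.mul_one, hV]

theorem sum_ov_left {U V : Matrix n n ℂ} (hU : Uᴴ * U = 1) (hV : Vᴴ * V = 1) (j : n) :
    ∑ i, ov U V i j = 1 := sum_normSq_col (uni_mul hU hV) j

theorem sum_ov_right {U V : Matrix n n ℂ} (hU : Uᴴ * U = 1) (hV : Vᴴ * V = 1) (i : n) :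
    ∑ j, ov U V i j = 1 := sum_normSq_row (uni_mul hU hV) i

/-- Pair-sum formula for the trace of a product of two Hermitian matrices. -/
theorem tr_mul_pair {A U B V : Matrix n n ℂ} {a b : n → ℝ} (hA : IsDiag A U a)
    (hB : IsDiag B V b) : tr (A * B) = ∑ i, ∑ j, ov U V i j * (a i * b j) := by
  rw [isDiag_tr_mul hA]
  refine Finset.sum_congr rfl fun i _ => ?_
  rw [hB.dg_eq, Finset.mul_sum]
  refine Finset.sum_congr rfl fun j _ => ?_
  have : (Vᴴ * U) j i = star ((Uᴴ * V) i j) := by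
    rw [← conjTranspose_apply, conjTranspose_mul, conjTranspose_conjTranspose]
  rw [this, ov]
  simp only [Complex.star_def, Complex.normSq_conj]
  ring

theorem tr_left_pair {A U V : Matrix n n ℂ} {a : n → ℝ} (hA : IsDiag A U a)
    (hV : Vᴴ * V = 1) : tr A = ∑ i, ∑ j, ov U V i j * a i := by
  rw [isDiag_tr hA]
  refine Finset.sum_congr rfl fun i _ => ?_
  rw [← Finset.sum_mul, sum_ov_right hA.uni hV, one_mul]

theorem tr_right_pair {U B V : Matrix n n ℂ} {b : n → ℝ} (hU : Uᴴ * U = 1)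
    (hB : IsDiag B V b) : tr B = ∑ i, ∑ j, ov U V i j * b j := by
  rw [isDiag_tr hB, Finset.sum_comm]
  refine Finset.sum_congr rfl fun j _ => ?_
  rw [← Finset.sum_mul, sum_ov_left hU hB.uni, one_mul]

theorem norm_sub_sq_pair {A U B V : Matrix n n ℂ} {a b : n → ℝ} (hA : IsDiag A U a)
    (hB : IsDiag B V b) : ‖A - B‖ ^ 2 = ∑ i, ∑ j, ov U V i j * (a i - b j) ^ 2 := by
  rw [norm_sub_sq_eq, hA.isHermitian.eq, ← tr_mul_self_herm hA.isHermitian,
    ← tr_mul_self_herm hB.isHermitian, tr_left_pair (isDiag_mul hA hA) hB.uni,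
    tr_right_pair hA.uni (isDiag_mul hB hB), tr_mul_pair hA hB]
  simp only [Finset.mul_sum, ← Finset.sum_sub_distrib, ← Finset.sum_add_distrib]
  refine Finset.sum_congr rfl fun i _ => Finset.sum_congr rfl fun j _ => ?_
  ring

/-- The pair-sum principle: a scalar inequality `f x + g y + p x * q y + c (u x - v y)^2 ≥ 0`
over pairs of eigenvalues gives the trace inequality. -/
theorem pair_nonneg {A U B V : Matrix n n ℂ} {a b : n → ℝ} (hA : IsDiag A U a)
    (hB : IsDiag B V b) (f g p q u v : ℝ → ℝ) (c : ℝ)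
    (h : ∀ i j, 0 ≤ f (a i) + g (b j) + p (a i) * q (b j) + c * (u (a i) - v (b j)) ^ 2) :
    0 ≤ tr (cfc f A) + tr (cfc g B) + tr (cfc p A * cfc q B) + c * ‖cfc u A - cfc v B‖ ^ 2 := by
  rw [tr_left_pair (isDiag_cfc hA f) hB.uni, tr_right_pair hA.uni (isDiag_cfc hB g),
    tr_mul_pair (isDiag_cfc hA p) (isDiag_cfc hB q),
    norm_sub_sq_pair (isDiag_cfc hA u) (isDiag_cfc hB v)]
  simp only [Finset.mul_sum, ← Finset.sum_add_distrib]
  refine Finset.sum_nonneg fun i _ => Finset.sum_nonneg fun j _ => ?_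
  have := mul_nonneg (ov_nonneg U V i j) (h i j)
  linarith

/-- Nonzero spectra of `ΦᴴΦ` and `ΦΦᴴ` agree: traces of `t * g t`. -/
theorem tr_cfc_mul_swap [DecidableEq m] (Φ : Matrix m n ℂ) (g : ℝ → ℝ) :
    tr (cfc (fun t => t * g t) (Φᴴ * Φ)) = tr (cfc (fun t => t * g t) (Φ * Φᴴ)) := by
  have h1 := (posSemidef_conjTranspose_mul_self Φ).1
  have h2 := (posSemidef_self_mul_conjTranspose Φ).1
  rw [← cfc_mul_cfc h1 (fun t => t) g, ← cfc_mul_cfc h2 (fun t => t) g, cfc_id_eq h1, cfc_id_eq h2]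
  have h3 := cfc_intertwine h2 h1 (X := Φ) (by simp only [Matrix.mul_assoc]) g
  rw [Matrix.mul_assoc, ← h3, tr_mul_comm, Matrix.mul_assoc, tr_mul_comm (Φ * Φᴴ)]

end Crest.Agent.R332
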