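import Crest.Agent.R332.Op
import Crest.Prelude.Def_LiebThirring

/-!
Row 332: shared definitions. Throughout `θ = γ - 1/2 ∈ (0,1)`, `r = θ⁻¹`, `p = 1 + θ`,
`p' = 1 + r`, `2γ = 2θ + 1`.
-/

set_option autoImplicit false
set_option linter.unusedSectionVars false

namespace Crest.Agent.R332

open Matrix Crest.Agent.Lib.QEnt
open scoped ComplexOrder Matrix.Norms.Frobenius

variable {m n : Type} [Fintype m] [Fintype n] [DecidableEq m] [DecidableEq n]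

/-- Real power of a (positive semidefinite) matrix. -/
noncomputable def pw (q : ℝ) (A : Matrix n n ℂ) : Matrix n n ℂ := cfc (fun t : ℝ => t ^ q) A

theorem tracePow_eq {m : ℕ} (A : Matrix (Fin m) (Fin m) ℂ) (q : ℝ) :
    Crest.MathPhysics.LiebThirring.tracePow A q = tr (pw q A) := rfl

theorem isDiag_pw {A U : Matrix n n ℂ} {a : n → ℝ} (h : IsDiag A U a) (q : ℝ) :
    IsDiag (pw q A) U (fun i => a i ^ q) := isDiag_cfc h _

theorem psd_pw {A : Matrix n n ℂ} (h : A.PosSemidef) (q : ℝ) : (pw q A).PosSemidef :=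
  psd_cfc_of_psd (fun _ ht => Real.rpow_nonneg ht q) h

theorem continuous_pw {X : Type*} [TopologicalSpace X] {A : X → Matrix n n ℂ} {q : ℝ} (hq : 0 ≤ q)
    (hA : Continuous A) (hh : ∀ x, (A x).IsHermitian) : Continuous fun x => pw q (A x) :=
  continuous_cfc' (Real.continuous_rpow_const hq) hA hh

/-- `∫_{-1}^1 (1 - t²)^θ dt`. -/
noncomputable def Bc (θ : ℝ) : ℝ := ∫ t in (-1 : ℝ)..1, (1 - t ^ 2) ^ θ

/-- `∫_0^∞ τ^(θ-1) log(1 + 1/τ) dτ`. -/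
noncomputable def c0 (θ : ℝ) : ℝ := ∫ τ in Set.Ioi (0 : ℝ), τ ^ (θ - 1) * Real.log (1 + τ⁻¹)

/-- `y log y`. -/
noncomputable def eta (y : ℝ) : ℝ := y * Real.log y

/-- `∫_0^u log (1 + d/τ) dd`. -/
noncomputable def phi (τ u : ℝ) : ℝ := (τ + u) * Real.log (1 + u / τ) - u

/-- `∫_{-κ}^{κ} log (1 + (κ² - s²)/τ) ds`. -/
noncomputable def hk (τ κ : ℝ) : ℝ :=
  2 * (eta (√(κ ^ 2 + τ) + κ) - eta (√(κ ^ 2 + τ) - κ)) - 2 * (2 + Real.log τ) * κ

/-- Resolvent `(a + s)⁻¹`. -/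
noncomputable def res (a : Matrix n n ℂ) (s : ℝ) : Matrix n n ℂ := cfc (fun u : ℝ => (u + s)⁻¹) a

/-- `E_τ = (K² + τ)^{1/2}`. -/
noncomputable def Et (K : Matrix n n ℂ) (τ : ℝ) : Matrix n n ℂ :=
  cfc (fun t : ℝ => √(t ^ 2 + τ)) K

/-- `Z_τ = log (E + S) + log (E - S) - log τ`. -/
noncomputable def Zt (K S : Matrix n n ℂ) (τ : ℝ) : Matrix n n ℂ :=
  cfc Real.log (Et K τ + S) + cfc Real.log (Et K τ - S) - Real.log τ • (1 : Matrix n n ℂ)

/-- `G(τ) = tr Z_τ (D + τ) - tr D`, `D = K² - S²`. -/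
noncomputable def Gt (K S : Matrix n n ℂ) (τ : ℝ) : ℝ :=
  tr (Zt K S τ * (K * K - S * S + τ • (1 : Matrix n n ℂ))) - tr (K * K - S * S)

/-- The gap in the three-matrix inequality. -/
noncomputable def gap3 (B a b : Matrix n n ℂ) : ℝ :=
  tr (cfc eta B) - tr B + tr (a * b) - tr (B * (cfc Real.log a + cfc Real.log b))

/-- The gap in Young's trace inequality `(1+r) tr(wρ) ≤ r tr w^p + tr ρ^{p'}`. -/
noncomputable def gY (θ : ℝ) (w ρ : Matrix n n ℂ) : ℝ :=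
  θ⁻¹ * tr (pw (1 + θ) w) + tr (pw (1 + θ⁻¹) ρ) - (1 + θ⁻¹) * tr (w * ρ)

/-- The standing hypothesis `K ≥ 0`, `-K ≤ S ≤ K`. -/
structure Sand (K S : Matrix n n ℂ) : Prop where
  psd : K.PosSemidef
  herm : S.IsHermitian
  up : (K - S).PosSemidef
  lo : (K + S).PosSemidef

/-! ### elementary facts on `Et` -/

theorem isDiag_Et {K U : Matrix n n ℂ} {κ : n → ℝ} (h : IsDiag K U κ) (τ : ℝ) :
    IsDiag (Et K τ) U (fun i => √(κ i ^ 2 + τ)) := isDiag_cfc h _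

theorem herm_Et (K : Matrix n n ℂ) (τ : ℝ) : (Et K τ).IsHermitian := herm_cfc _ _

theorem Et_mul_self {K : Matrix n n ℂ} (hK : K.IsHermitian) {τ : ℝ} (hτ : 0 ≤ τ) :
    Et K τ * Et K τ = K * K + τ • (1 : Matrix n n ℂ) := by
  obtain ⟨U, κ, h⟩ := exists_isDiag hK
  refine isDiag_eq_of (isDiag_mul (isDiag_Et h τ) (isDiag_Et h τ))
    (isDiag_add (isDiag_mul h h) (isDiag_smul_one h.uni τ)) fun i => ?_
  rw [Real.mul_self_sqrt (by positivity), sq]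

theorem sqrt_sub_ge {κ M τ : ℝ} (hκ : |κ| ≤ M) (hτ : 0 < τ) :
    τ / (2 * √(M ^ 2 + τ)) ≤ √(κ ^ 2 + τ) - κ := by
  have h1 : κ ^ 2 ≤ M ^ 2 := sq_le_sq' (abs_le.1 hκ).1 (abs_le.1 hκ).2
  have h2 : √(κ ^ 2 + τ) ≤ √(M ^ 2 + τ) := Real.sqrt_le_sqrt (by linarith)
  have h3 : |κ| < √(κ ^ 2 + τ) := Real.lt_sqrt_of_sq_lt (by rw [sq_abs]; linarith)
  have h4 : √(κ ^ 2 + τ) ^ 2 = κ ^ 2 + τ := Real.sq_sqrt (by positivity)
  have h5 := (abs_lt.1 h3).1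
  have h6 := (abs_lt.1 h3).2
  have h7 : 0 < √(M ^ 2 + τ) := Real.sqrt_pos.2 (by positivity)
  rw [div_le_iff₀ (by positivity)]
  nlinarith

/-- `E_τ - K ≥ τ / (2 √(M² + τ))`. -/
theorem Et_sub_ge {K : Matrix n n ℂ} (hK : K.IsHermitian) {M τ : ℝ} (hM : Op K M) (hτ : 0 < τ) :
    (Et K τ - K - (τ / (2 * √(M ^ 2 + τ))) • (1 : Matrix n n ℂ)).PosSemidef := by
  obtain ⟨U, κ, h⟩ := exists_isDiag hK
  refine isDiag_psd (isDiag_sub (isDiag_sub (isDiag_Et h τ) h) (isDiag_smul_one h.uni _))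
    fun i => ?_
  have := sqrt_sub_ge (hM.abs_eig_le h i) hτ
  linarith

theorem op_Et {K : Matrix n n ℂ} (hK : K.IsHermitian) {M τ : ℝ} (hM : Op K M) :
    Op (Et K τ) (√(M ^ 2 + τ)) := by
  obtain ⟨U, κ, h⟩ := exists_isDiag hK
  refine op_cfc h (Real.sqrt_nonneg _) fun i => ?_
  rw [abs_of_nonneg (Real.sqrt_nonneg _)]
  have := hM.abs_eig_le h i
  exact Real.sqrt_le_sqrt (by
    have := sq_le_sq' (abs_le.1 this).1 (abs_le.1 this).2
    linarith)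

theorem Sand.neg {K S : Matrix n n ℂ} (h : Sand K S) : Sand K (-S) :=
  ⟨h.psd, h.herm.neg, by simpa using h.lo, by simpa [sub_eq_add_neg] using h.up⟩

theorem Sand.op {K S : Matrix n n ℂ} (h : Sand K S) {M : ℝ} (hM : Op K M) : Op S M :=
  op_of_sandwich hM h.psd.1 h.herm h.up h.lo

/-- `a = E_τ + S ≥ τ / (2 √(M² + τ))` (apply to `-S` for `b = E_τ - S`). -/
theorem Sand.add_ge {K S : Matrix n n ℂ} (h : Sand K S) {M τ : ℝ} (hM : Op K M) (hτ : 0 < τ) :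
    (Et K τ + S - (τ / (2 * √(M ^ 2 + τ))) • (1 : Matrix n n ℂ)).PosSemidef := by
  have := (Et_sub_ge h.psd.1 hM hτ).add h.lo
  convert this using 1
  abel

theorem posDef_of_ge {A : Matrix n n ℂ} (hA : A.IsHermitian) {c : ℝ} (hc : 0 < c)
    (h : (A - c • (1 : Matrix n n ℂ)).PosSemidef) : A.PosDef := by
  obtain ⟨U, a, ha⟩ := exists_isDiag hA
  exact isDiag_posDef ha fun i => hc.trans_le (isDiag_ge ha h i)

theorem Sand.add_posDef {K S : Matrix n n ℂ} (h : Sand K S) {τ : ℝ} (hτ : 0 < τ) :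
    (Et K τ + S).PosDef :=
  posDef_of_ge ((herm_Et K τ).add h.herm) (by positivity) (h.add_ge (op_norm K) hτ)

theorem Sand.sub_posDef {K S : Matrix n n ℂ} (h : Sand K S) {τ : ℝ} (hτ : 0 < τ) :
    (Et K τ - S).PosDef := by
  simpa [sub_eq_add_neg] using h.neg.add_posDef hτ

theorem Sand.op_add {K S : Matrix n n ℂ} (h : Sand K S) {M τ : ℝ} (hM : Op K M) (hτ : 0 ≤ τ) :
    Op (Et K τ + S) (2 * √(M ^ 2 + τ)) := by
  refine ((op_Et h.psd.1 hM).add (h.op hM)).mono ?_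
  have : M ≤ √(M ^ 2 + τ) := Real.le_sqrt_of_sq_le (by linarith)
  linarith

theorem Sand.tr_D_nonneg {K S : Matrix n n ℂ} (h : Sand K S) : 0 ≤ tr (K * K - S * S) := by
  have := tr_mul_nonneg h.lo h.up
  simp only [Matrix.add_mul, Matrix.mul_sub, tr_add, tr_sub, tr_mul_comm S K] at this ⊢
  linarith

end Crest.Agent.R332
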