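import Crest.Agent.R332.Defs

/-!
Row 332: Golden-Thompson inequality, the exponential of a sum of almost commuting matrices and the
three-matrix inequality with a quantitative gap.
-/

set_option autoImplicit false
set_option linter.unusedSectionVars false

namespace Crest.Agent.R332

open Matrix Crest.Agent.Lib.QEnt Filter Topology MeasureTheory Set
open scoped ComplexOrder Matrix.Norms.Frobenius

variable {m n : Type} [Fintype m] [Fintype n] [DecidableEq m] [DecidableEq n]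

/-! ### trace inequalities for dyadic powers -/

theorem trace_pow_mul_comm (X Y : Matrix n n ℂ) (j : ℕ) :
    ((X * Y) ^ j).trace = ((Y * X) ^ j).trace := by
  cases j with
  | zero => simp
  | succ j =>
    rw [pow_succ, ← Matrix.mul_assoc, mul_pow_mul, Matrix.mul_assoc, trace_mul_comm,
      Matrix.mul_assoc, ← pow_succ]

theorem norm_sq_le_norm_trace (Z : Matrix n n ℂ) : ‖Z‖ ^ 2 ≤ ‖(Zᴴ * Z).trace‖ := by
  rw [← tr_ct_mul_self]
  exact (le_abs_self _).trans (Complex.abs_re_le_norm _)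

theorem dyadic_AB (k : ℕ) :
    (∀ Z : Matrix n n ℂ, ‖(Z ^ (2 ^ (k + 1))).trace‖ ≤ ‖((Zᴴ * Z) ^ (2 ^ k)).trace‖) ∧
    (∀ P Q : Matrix n n ℂ, P.IsHermitian → Q.IsHermitian → ‖((P * Q) ^ (2 ^ k)).trace‖ ≤
      √(‖(P ^ (2 ^ (k + 1))).trace‖ * ‖(Q ^ (2 ^ (k + 1))).trace‖)) := by
  induction k with
  | zero =>
    refine ⟨fun Z => ?_, fun P Q hP hQ => ?_⟩
    · simp only [zero_add, pow_one, pow_zero]
      rw [sq]
      refine (norm_trace_mul_le Z Z).trans ?_
      rw [← sq]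
      exact norm_sq_le_norm_trace Z
    · simp only [zero_add, pow_one, pow_zero]
      refine (norm_trace_mul_le P Q).trans (Real.le_sqrt_of_sq_le ?_)
      have h1 := norm_sq_le_norm_trace P
      have h2 := norm_sq_le_norm_trace Q
      rw [hP.eq, ← sq] at h1
      rw [hQ.eq, ← sq] at h2
      rw [mul_pow]
      exact mul_le_mul h1 h2 (by positivity) (norm_nonneg _)
  | succ k ih =>
    obtain ⟨hA, hB⟩ := ih
    refine ⟨fun Z => ?_, fun P Q hP hQ => ?_⟩
    · have h1 := hA (Z * Z)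
      have h2 := hB (Zᴴ * Z) (Z * Zᴴ) (isHermitian_conjTranspose_mul_self Z)
        (isHermitian_mul_conjTranspose_self Z)
      rw [trace_pow_mul_comm Z Zᴴ, Real.sqrt_mul_self (norm_nonneg _)] at h2
      have h3 : (Z * Z)ᴴ * (Z * Z) = Zᴴ * (Zᴴ * Z * Z) := by
        simp only [conjTranspose_mul, Matrix.mul_assoc]
      rw [h3, trace_pow_mul_comm Zᴴ, Matrix.mul_assoc (Zᴴ * Z), ← sq, ← pow_mul, ← pow_succ'] at h1
      exact h1.trans h2
    · have h1 := hA (P * Q)
      have h2 := hB (P * P) (Q * Q) (psd_mul_self hP).1 (psd_mul_self hQ).1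
      have h3 : (P * Q)ᴴ * (P * Q) = Q * (P * P * Q) := by
        simp only [conjTranspose_mul, hP.eq, hQ.eq, Matrix.mul_assoc]
      rw [h3, trace_pow_mul_comm Q, Matrix.mul_assoc (P * P)] at h1
      refine h1.trans (h2.trans (le_of_eq ?_))
      rw [← sq, ← sq, ← pow_mul, ← pow_mul, ← pow_succ']

theorem dyadic_C (k : ℕ) : ∀ P Q : Matrix n n ℂ, P.IsHermitian → Q.IsHermitian →
    ‖((P * Q) ^ (2 ^ k)).trace‖ ≤ ‖(P ^ (2 ^ k) * Q ^ (2 ^ k)).trace‖ := by
  induction k with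
  | zero => intro P Q _ _; simp
  | succ k ih =>
    intro P Q hP hQ
    have h1 := (dyadic_AB k).1 (P * Q)
    have h2 := ih (P * P) (Q * Q) (psd_mul_self hP).1 (psd_mul_self hQ).1
    have h3 : (P * Q)ᴴ * (P * Q) = Q * (P * P * Q) := by
      simp only [conjTranspose_mul, hP.eq, hQ.eq, Matrix.mul_assoc]
    rw [h3, trace_pow_mul_comm Q, Matrix.mul_assoc (P * P)] at h1
    refine h1.trans (h2.trans (le_of_eq ?_))
    rw [← sq, ← sq, ← pow_mul, ← pow_mul, ← pow_succ']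

theorem norm_trace_mul_psd {A B : Matrix n n ℂ} (hA : A.PosSemidef) (hB : B.PosSemidef) :
    ‖(A * B).trace‖ = tr (A * B) := by
  have h1 : star (A * B).trace = (A * B).trace := by
    rw [← trace_conjTranspose, conjTranspose_mul, hA.1.eq, hB.1.eq, trace_mul_comm]
  have h2 : (A * B).trace = (tr (A * B) : ℂ) := (Complex.conj_eq_iff_re.1 h1).symm
  rw [h2, Complex.norm_real, Real.norm_eq_abs, abs_of_nonneg (tr_mul_nonneg hA hB)]

/-! ### the one-parameter group `exp (s A)` -/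

/-- `exp (s A)`. -/
noncomputable def ex (s : ℝ) (A : Matrix n n ℂ) : Matrix n n ℂ :=
  cfc (fun u : ℝ => Real.exp (s * u)) A

theorem isDiag_ex {A U : Matrix n n ℂ} {a : n → ℝ} (h : IsDiag A U a) (s : ℝ) :
    IsDiag (ex s A) U (fun i => Real.exp (s * a i)) := isDiag_cfc h _

theorem psd_ex (s : ℝ) (A : Matrix n n ℂ) : (ex s A).PosSemidef :=
  psd_cfc (fun _ => (Real.exp_pos _).le) A

theorem ex_zero {A : Matrix n n ℂ} (hA : A.IsHermitian) : ex 0 A = 1 := by
  obtain ⟨U, a, ha⟩ := exists_isDiag hA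
  exact isDiag_eq_of (isDiag_ex ha 0) (isDiag_one ha.uni) fun i => by simp

theorem ex_one (A : Matrix n n ℂ) : ex 1 A = cfc Real.exp A := by
  simp [ex]

theorem ex_mul_ex {A : Matrix n n ℂ} (hA : A.IsHermitian) (s t : ℝ) :
    ex s A * ex t A = ex (s + t) A := by
  obtain ⟨U, a, ha⟩ := exists_isDiag hA
  exact isDiag_eq_of (isDiag_mul (isDiag_ex ha s) (isDiag_ex ha t)) (isDiag_ex ha _) fun i => by
    rw [← Real.exp_add, add_mul]

theorem ex_pow {A : Matrix n n ℂ} (hA : A.IsHermitian) (s : ℝ) (j : ℕ) :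
    ex s A ^ j = ex (j * s) A := by
  induction j with
  | zero => simp [ex_zero hA]
  | succ j ih => rw [pow_succ, ih, ex_mul_ex hA]; congr 1; push_cast; ring

theorem ex_comm {A : Matrix n n ℂ} (hA : A.IsHermitian) (s : ℝ) : ex s A * A = A * ex s A :=
  cfc_comm hA rfl _

theorem hasDerivAt_ex {A : Matrix n n ℂ} (hA : A.IsHermitian) {φ : ℝ → ℝ} {φ' x : ℝ}
    (hφ : HasDerivAt φ φ' x) :
    HasDerivAt (fun t => ex (φ t) A) (φ' • (ex (φ x) A * A)) x := by
  obtain ⟨U, a, ha⟩ := exists_isDiag hA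
  have h1 := hasDerivAt_cfc_fun ha (f := fun t u => Real.exp (φ t * u))
    (f' := fun u => φ' * (Real.exp (φ x * u) * u)) (x := x) fun i => by
      have := (hφ.mul_const (a i)).exp
      convert this using 1
      ring
  have h2 : cfc (fun u => φ' * (Real.exp (φ x * u) * u)) A = φ' • (ex (φ x) A * A) :=
    isDiag_eq_of (isDiag_cfc ha _) (isDiag_smul (isDiag_mul (isDiag_ex ha _) ha) _) fun _ => rfl
  rw [h2] at h1
  exact h1

theorem op_ex {A : Matrix n n ℂ} (hA : A.IsHermitian) {c s : ℝ} (h : Op A c) (hs : 0 ≤ s) :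
    Op (ex s A) (Real.exp (s * c)) := by
  obtain ⟨U, a, ha⟩ := exists_isDiag hA
  refine op_of_isDiag (isDiag_ex ha s) (Real.exp_pos _).le fun i => ?_
  rw [abs_of_pos (Real.exp_pos _)]
  exact Real.exp_le_exp.2 (mul_le_mul_of_nonneg_left (abs_le.1 (h.abs_eig_le ha i)).2 hs)

theorem isDiag_pow {A U : Matrix n n ℂ} {a : n → ℝ} (hA : IsDiag A U a) (j : ℕ) :
    IsDiag (A ^ j) U (fun i => a i ^ j) := by
  induction j with
  | zero => simpa using isDiag_one hA.uni
  | succ j ih => simpa [pow_succ] using isDiag_mul ih hA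

/-- The one-step inequality behind Golden-Thompson. -/
theorem gt_step {X Y : Matrix n n ℂ} (hX : X.IsHermitian) (hY : Y.IsHermitian) (k : ℕ) {t : ℝ}
    (ht : (2 ^ k : ℕ) * t = 1) :
    tr (ex (1 - t) (X + Y) * (ex (t / 2) X * ex t Y * ex (t / 2) X)) ≤
      (1 - t) * tr (cfc Real.exp (X + Y)) + t * tr (cfc Real.exp X * cfc Real.exp Y) := by
  have hN : (1 : ℝ) ≤ (2 ^ k : ℕ) := by exact_mod_cast Nat.one_le_two_pow
  have ht0 : 0 < t := by
    by_contra h
    push Not at h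
    nlinarith
  have ht1 : t ≤ 1 := by nlinarith
  set M := ex (t / 2) X * ex t Y * ex (t / 2) X with hM
  have hMp : M.PosSemidef := by
    have := (psd_ex t Y).mul_mul_conjTranspose_same (ex (t / 2) X)
    rwa [(psd_ex (t / 2) X).1.eq] at this
  obtain ⟨U, z, hz⟩ := exists_isDiag (hX.add hY)
  obtain ⟨V, μ, hμ⟩ := exists_isDiag hMp.1
  have h1 : tr (M ^ (2 ^ k)) ≤ tr (cfc Real.exp X * cfc Real.exp Y) := by
    have h2 : (M ^ (2 ^ k)).trace = ((ex t X * ex t Y) ^ (2 ^ k)).trace := by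
      rw [hM, trace_pow_mul_comm, ← Matrix.mul_assoc, ex_mul_ex hX, add_halves]
    have h3 := dyadic_C k (ex t X) (ex t Y) (psd_ex t X).1 (psd_ex t Y).1
    rw [ex_pow hX, ex_pow hY, ht, norm_trace_mul_psd (psd_ex 1 X) (psd_ex 1 Y), ex_one, ex_one,
      ← h2] at h3
    exact ((le_abs_self _).trans (Complex.abs_re_le_norm _)).trans h3
  refine le_trans ?_ (add_le_add le_rfl (mul_le_mul_of_nonneg_left h1 ht0.le))
  rw [tr_mul_pair (isDiag_ex hz _) hμ, tr_left_pair (isDiag_cfc hz Real.exp) hμ.uni,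
    tr_right_pair hz.uni (isDiag_pow hμ _)]
  simp only [Finset.mul_sum, ← Finset.sum_add_distrib]
  refine Finset.sum_le_sum fun i _ => Finset.sum_le_sum fun j _ => ?_
  have hμ0 := hμ.nonneg hMp j
  have h4 := Real.geom_mean_le_arith_mean2_weighted (w₁ := 1 - t) (w₂ := t) (p₁ := Real.exp (z i))
    (p₂ := μ j ^ (2 ^ k)) (by linarith) ht0.le (Real.exp_pos _).le (by positivity) (by ring)
  rw [← Real.exp_mul, ← Real.rpow_natCast, ← Real.rpow_mul hμ0, ht, Real.rpow_one,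
    Real.rpow_natCast, mul_comm (z i)] at h4
  have := mul_le_mul_of_nonneg_left h4 (ov_nonneg U V i j)
  linarith

theorem abs_exp_sub_le {u v M : ℝ} (hu : u ≤ M) (hv : v ≤ M) :
    |Real.exp u - Real.exp v| ≤ Real.exp M * |u - v| := by
  wlog h : u ≤ v generalizing u v
  · rw [abs_sub_comm, abs_sub_comm u]
    exact this hv hu (le_of_not_ge h)
  rw [abs_sub_comm, abs_sub_comm u, abs_of_nonneg (sub_nonneg.2 (Real.exp_le_exp.2 h)),
    abs_of_nonneg (sub_nonneg.2 h)]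
  have h1 : Real.exp u = Real.exp v * Real.exp (u - v) := by rw [← Real.exp_add]; congr 1; ring
  have h2 := Real.add_one_le_exp (u - v)
  have h3 := Real.exp_le_exp.2 hv
  have h4 := Real.exp_pos v
  rw [h1]
  nlinarith

theorem abs_log_sub_le {u v c : ℝ} (hc : 0 < c) (hu : c ≤ u) (hv : c ≤ v) :
    |Real.log u - Real.log v| ≤ c⁻¹ * |u - v| := by
  wlog h : v ≤ u generalizing u v
  · rw [abs_sub_comm, abs_sub_comm u]
    exact this hv hu (le_of_not_ge h)
  have hv0 : 0 < v := hc.trans_le hv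
  have hu0 : 0 < u := hc.trans_le hu
  rw [abs_of_nonneg (sub_nonneg.2 (Real.log_le_log hv0 h)), abs_of_nonneg (sub_nonneg.2 h),
    ← Real.log_div hu0.ne' hv0.ne']
  refine (Real.log_le_sub_one_of_pos (div_pos hu0 hv0)).trans ?_
  rw [div_sub_one hv0.ne', div_eq_inv_mul]
  exact mul_le_mul_of_nonneg_right (inv_anti₀ hc hv) (sub_nonneg.2 h)

theorem kl_sqrt {x y : ℝ} (hx : 0 < x) (hy : 0 < y) :
    (√x - √y) ^ 2 ≤ x * Real.log x - x * Real.log y - x + y := by
  have hs : 0 < √x := Real.sqrt_pos.2 hx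
  have ht : 0 < √y := Real.sqrt_pos.2 hy
  have h1 := Real.log_le_sub_one_of_pos (div_pos ht hs)
  rw [Real.log_div ht.ne' hs.ne', Real.log_sqrt hx.le, Real.log_sqrt hy.le] at h1
  have h2 := mul_le_mul_of_nonneg_left h1 hx.le
  have h3 : x * (√y / √x - 1) = √x * √y - x := by
    have : √x * √x = x := Real.mul_self_sqrt hx.le
    field_simp
    linear_combination (-√y) * this
  have h4 := Real.sq_sqrt hx.le
  have h5 := Real.sq_sqrt hy.le
  nlinarith

theorem kl_lower {x y L : ℝ} (hx : 0 < x) (hy : 0 < y) (hxL : x ≤ L) (hyL : y ≤ L) :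
    (x - y) ^ 2 ≤ 4 * L * (x * Real.log x - x * Real.log y - x + y) := by
  have h1 := kl_sqrt hx hy
  have h4 := Real.sq_sqrt hx.le
  have h5 := Real.sq_sqrt hy.le
  have h2 : (x - y) ^ 2 = (√x + √y) ^ 2 * (√x - √y) ^ 2 := by
    rw [← mul_pow]; congr 1; nlinarith
  have h3 : (√x + √y) ^ 2 ≤ 4 * L := by nlinarith [sq_nonneg (√x - √y)]
  rw [h2]
  exact mul_le_mul h3 h1 (sq_nonneg _) (by linarith)

theorem exp_log_eq {a : Matrix n n ℂ} (ha : a.PosDef) : cfc Real.exp (cfc Real.log a) = a := by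
  obtain ⟨U, α, h⟩ := exists_isDiag ha.1
  exact isDiag_eq_of (isDiag_cfc (isDiag_cfc h _) _) h fun i => Real.exp_log (isDiag_pos h ha i)

/-- Golden-Thompson.
Recipe. (1) By simultaneous induction on `k` (norms of COMPLEX traces, `norm_trace_mul_le` is
Cauchy-Schwarz): A_k : `‖trace (Z^(2^(k+1)))‖ ≤ ‖trace ((Zᴴ*Z)^(2^k))‖` for every square Z;
B_k : `‖trace ((P*Q)^(2^k))‖ ≤ √(‖trace (P^(2^(k+1)))‖ * ‖trace (Q^(2^(k+1)))‖)` for Hermitian P Q.
A_0, B_0 are Cauchy-Schwarz. A_(k+1): apply A_k to Z², cyclicity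
`trace ((X*Y)^j) = trace ((Y*X)^j)` turns `(ZᴴZᴴZZ)^j` into `((ZᴴZ)(ZZᴴ))^j`, then B_k.
B_(k+1): A_k for Z = P*Q, `(QPPQ)^j ~ (P²Q²)^j`, then B_k for P², Q².
(2) Hence `‖trace ((P*Q)^(2^k))‖ ≤ ‖trace (P^(2^k) * Q^(2^k))‖` by induction on k.
(3) With G = exp(X+Y), t = 2^(-k), M_t = exp(tX/2) exp(tY) exp(tX/2) (PSD), the scalar weighted
AM-GM `g^(1-t) μ ≤ (1-t) g + t μ^(1/t)` over pairs of eigenvalues (`pair_nonneg`/`tr_mul_pair`) and (2)
give `g(t) := tr (exp((1-t)(X+Y)) * M_t) ≤ (1-t) tr G + t tr (exp X * exp Y)`; g(0) = tr G and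
g'(0) = 0 (`hasDerivAt_cfc_fun`, `HasDerivAt.matmul`), so letting t = 2^(-k) → 0 in
`(g t - g 0)/t ≤ tr (exp X exp Y) - tr G` gives the claim. -/
theorem golden_thompson {X Y : Matrix n n ℂ} (hX : X.IsHermitian) (hY : Y.IsHermitian) :
    tr (cfc Real.exp (X + Y)) ≤ tr (cfc Real.exp X * cfc Real.exp Y) := by
  have hXY := hX.add hY
  set g : ℝ → ℝ := fun t => tr (ex (1 - t) (X + Y) * (ex (t / 2) X * ex t Y * ex (t / 2) X))
    with hg
  have hg0 : g 0 = tr (cfc Real.exp (X + Y)) := by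
    simp [hg, ex_zero hX, ex_zero hY, ex_one]
  have hd : HasDerivAt g 0 0 := by
    have d1 := hasDerivAt_ex hXY (φ := fun t => 1 - t) (x := 0) ((hasDerivAt_id' (0 : ℝ)).const_sub 1)
    have d2 := hasDerivAt_ex hX (φ := fun t => t / 2) (x := 0) ((hasDerivAt_id' (0 : ℝ)).div_const 2)
    have d3 := hasDerivAt_ex hY (φ := fun t => t) (x := 0) (hasDerivAt_id' (0 : ℝ))
    have d4 := HasDerivAt.tr' (HasDerivAt.matmul d1 (HasDerivAt.matmul (HasDerivAt.matmul d2 d3) d2))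
    convert d4 using 1
    simp only [zero_div, ex_zero hX, ex_zero hY, sub_zero, Matrix.one_mul, Matrix.mul_one,
      Matrix.mul_add, Matrix.mul_smul, tr_add, tr_smul]
    ring
  have hlim : Tendsto (fun k : ℕ => ((2 : ℝ) ^ k)⁻¹) atTop (𝓝[≠] 0) := by
    refine tendsto_nhdsWithin_iff.2 ⟨tendsto_inv_atTop_zero.comp
      (tendsto_pow_atTop_atTop_of_one_lt one_lt_two), Eventually.of_forall fun k => ?_⟩
    simp
  have h1 := (hasDerivAt_iff_tendsto_slope_zero.1 hd).comp hlim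
  have h2 : (0 : ℝ) ≤ tr (cfc Real.exp X * cfc Real.exp Y) - tr (cfc Real.exp (X + Y)) := by
    refine le_of_tendsto' h1 fun k => ?_
    have h3 := gt_step hX hY k (t := ((2 : ℝ) ^ k)⁻¹) (by push_cast; field_simp)
    have h4 : (0 : ℝ) < ((2 : ℝ) ^ k)⁻¹ := by positivity
    simp only [Function.comp_apply, zero_add, smul_eq_mul, hg0]
    rw [inv_mul_le_iff₀ h4]
    simp only [hg]
    linarith
  linarith

/-- Recipe: F(t) = exp((1-t)(X+Y)) exp(tX) exp(tY) (each factor is `cfc (fun u => exp (s*u)) _`) has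
F' = exp((1-t)(X+Y)) (exp(tX) Y - Y exp(tX)) exp(tY); `norm_cfc_comm_le` (Lipschitz constant
t e^(tc) ≤ e^(tc) on [-c,c]), `op_cfc`, `Op.sandwich` give ‖F'‖ ≤ e^(2c) ‖XY - YX‖ on [0,1]; mean value
inequality (`norm_image_sub_le_of_norm_deriv_le_segment_01'`). -/
theorem norm_exp_add_sub_le {X Y : Matrix n n ℂ} (hX : X.IsHermitian) (hY : Y.IsHermitian) {c : ℝ}
    (oX : Op X c) (oY : Op Y c) :
    ‖cfc Real.exp (X + Y) - cfc Real.exp X * cfc Real.exp Y‖ ≤
      Real.exp (2 * c) * ‖X * Y - Y * X‖ := by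
  have hXY := hX.add hY
  obtain ⟨U, a, ha⟩ := exists_isDiag hX
  set F : ℝ → Matrix n n ℂ := fun t => ex (1 - t) (X + Y) * ex t X * ex t Y with hF
  have hd : ∀ t, HasDerivAt F (ex (1 - t) (X + Y) * (ex t X * Y - Y * ex t X) * ex t Y) t := by
    intro t
    have d1 := hasDerivAt_ex hXY (φ := fun t => 1 - t) (x := t) ((hasDerivAt_id' t).const_sub 1)
    have d2 := hasDerivAt_ex hX (φ := fun t => t) (x := t) (hasDerivAt_id' t)
    have d3 := hasDerivAt_ex hY (φ := fun t => t) (x := t) (hasDerivAt_id' t)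
    have d4 := HasDerivAt.matmul (HasDerivAt.matmul d1 d2) d3
    convert d4 using 1
    simp only [ex_comm hY, ex_comm hX, neg_smul, one_smul, Matrix.mul_add, Matrix.add_mul,
      Matrix.mul_sub, Matrix.sub_mul, Matrix.neg_mul, Matrix.mul_assoc]
    abel
  have hb : ∀ t ∈ Ico (0 : ℝ) 1, ‖ex (1 - t) (X + Y) * (ex t X * Y - Y * ex t X) * ex t Y‖ ≤
      Real.exp (2 * c) * ‖X * Y - Y * X‖ := by
    intro t ht
    have h1 := op_ex hXY (oX.add oY) (s := 1 - t) (by linarith [ht.2])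
    have h2 := op_ex hY oY ht.1
    have h3 : ‖ex t X * Y - Y * ex t X‖ ≤ Real.exp (t * c) * ‖X * Y - Y * X‖ := by
      refine norm_cfc_comm_le ha ha (Real.exp_pos _).le (fun i j => ?_) Y
      refine (abs_exp_sub_le (M := t * c)
        (mul_le_mul_of_nonneg_left (abs_le.1 (oX.abs_eig_le ha i)).2 ht.1)
        (mul_le_mul_of_nonneg_left (abs_le.1 (oX.abs_eig_le ha j)).2 ht.1)).trans ?_
      refine mul_le_mul_of_nonneg_left ?_ (Real.exp_pos _).le
      rw [← mul_sub, abs_mul, abs_of_nonneg ht.1]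
      exact mul_le_of_le_one_left (abs_nonneg _) ht.2.le
    refine (h1.sandwich h2 _).trans ((mul_le_mul_of_nonneg_left h3 (by positivity)).trans
      (le_of_eq ?_))
    rw [← mul_assoc, ← Real.exp_add, ← Real.exp_add]
    congr 2
    ring
  have h := norm_image_sub_le_of_norm_deriv_le_segment_01' (f := F)
    (fun t _ => (hd t).hasDerivWithinAt) hb
  rw [norm_sub_rev] at h
  simpa [hF, ex_zero hX, ex_zero hY, ex_zero hXY, ex_one] using h

/-- Klein-type comparison of `gap3` with a pair sum. -/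
theorem gap3_aux {B a b : Matrix n n ℂ} (ha : a.PosDef) (hb : b.PosDef)
    {U V : Matrix n n ℂ} {x z : n → ℝ} (hx : IsDiag B U x)
    (hz : IsDiag (cfc Real.log a + cfc Real.log b) V z) {κ : ℝ}
    (h : ∀ i j, κ * (x i - Real.exp (z j)) ^ 2 ≤
      x i * Real.log (x i) - x i * z j - x i + Real.exp (z j)) :
    κ * ‖B - cfc Real.exp (cfc Real.log a + cfc Real.log b)‖ ^ 2 ≤ gap3 B a b := by
  have h1 := golden_thompson (herm_cfc Real.log a) (herm_cfc Real.log b)
  rw [exp_log_eq ha, exp_log_eq hb] at h1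
  have h2 : κ * ‖B - cfc Real.exp (cfc Real.log a + cfc Real.log b)‖ ^ 2 ≤
      tr (cfc eta B) - tr B + tr (cfc Real.exp (cfc Real.log a + cfc Real.log b)) -
        tr (B * (cfc Real.log a + cfc Real.log b)) := by
    rw [norm_sub_sq_pair hx (isDiag_cfc hz _), tr_left_pair (isDiag_cfc hx eta) hz.uni,
      tr_mul_pair hx hz, tr_left_pair hx hz.uni, tr_right_pair hx.uni (isDiag_cfc hz _)]
    simp only [Finset.mul_sum, ← Finset.sum_add_distrib, ← Finset.sum_sub_distrib]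
    refine Finset.sum_le_sum fun i _ => Finset.sum_le_sum fun j _ => ?_
    have := mul_le_mul_of_nonneg_left (h i j) (ov_nonneg U V i j)
    simp only [eta]
    linarith
  unfold gap3
  linarith

/-- Recipe: G = exp (log a + log b); Klein-type pair sum `x log x - x log y - x + y ≥ 0` for the
eigenvalues x of B and y = exp z of G (z eigenvalue of log a + log b), and `golden_thompson`
(`cfc exp (cfc log a) = a` by `isDiag_eq_of`). -/
theorem gap3_nonneg {B a b : Matrix n n ℂ} (hB : B.PosDef) (ha : a.PosDef) (hb : b.PosDef) :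
    0 ≤ gap3 B a b := by
  obtain ⟨U, x, hx⟩ := exists_isDiag hB.1
  obtain ⟨V, z, hz⟩ := exists_isDiag ((herm_cfc Real.log a).add (herm_cfc Real.log b))
  have := gap3_aux ha hb hx hz (κ := 0) fun i j => by
    have h1 := kl_sqrt (isDiag_pos hx hB i) (Real.exp_pos (z j))
    rw [Real.log_exp] at h1
    rw [zero_mul]
    exact (sq_nonneg _).trans h1
  simpa using this

theorem op_log {a : Matrix n n ℂ} (ha : a.IsHermitian) {c Λ : ℝ} (hc : 0 < c)
    (h : (a - c • (1 : Matrix n n ℂ)).PosSemidef) (o : Op a Λ) :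
    Op (cfc Real.log a) (|Real.log c| + |Real.log Λ|) := by
  obtain ⟨U, α, hα⟩ := exists_isDiag ha
  refine op_cfc hα (by positivity) fun i => ?_
  have h1 := isDiag_ge hα h i
  have h2 := (abs_le.1 (o.abs_eig_le hα i)).2
  have h3 := Real.log_le_log hc h1
  have h4 := Real.log_le_log (hc.trans_le h1) h2
  have h5 := neg_abs_le (Real.log c)
  have h6 := le_abs_self (Real.log Λ)
  have h7 := abs_nonneg (Real.log c)
  have h8 := abs_nonneg (Real.log Λ)
  exact abs_le.2 ⟨by linarith, by linarith⟩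

theorem norm_log_comm_le {a : Matrix n n ℂ} (ha : a.IsHermitian) {c : ℝ} (hc : 0 < c)
    (h : (a - c • (1 : Matrix n n ℂ)).PosSemidef) (X : Matrix n n ℂ) :
    ‖cfc Real.log a * X - X * cfc Real.log a‖ ≤ c⁻¹ * ‖a * X - X * a‖ := by
  obtain ⟨U, α, hα⟩ := exists_isDiag ha
  exact norm_cfc_comm_le hα hα (by positivity)
    (fun i j => abs_log_sub_le hc (isDiag_ge hα h i) (isDiag_ge hα h j)) X

/-- Recipe: with G as above, eigenvalues of G are ≤ Λ² (log a ≤ log Λ, log b ≤ log Λ as matrices; if n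
is empty everything is 0), the scalar inequality `x log x - x log y - x + y ≥ (x-y)²/(2Λ')` for
x, y ∈ (0, Λ'], Λ' = max Λ Λ², gives `‖B - G‖² ≤ 2Λ' gap3` (`pair_nonneg` + Golden-Thompson).
`‖G - a b‖ ≤ e^(2c') ‖[log a, log b]‖ ≤ e^(2c') c⁻² ‖[a,b]‖` (`norm_exp_add_sub_le`, twice
`norm_cfc_comm_le`: log is c⁻¹-Lipschitz on [c,∞); c' bounds |log| on [c,Λ]), and
`a b - (ab+ba)/2 = [a,b]/2`. -/
theorem gap3_lower (c Λ : ℝ) (hc : 0 < c) : ∃ C : ℝ, 0 < C ∧
    ∀ (n : Type) [Fintype n] [DecidableEq n] (B a b : Matrix n n ℂ), B.PosDef → Op B Λ →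
      a.IsHermitian → (a - c • (1 : Matrix n n ℂ)).PosSemidef → Op a Λ →
      b.IsHermitian → (b - c • (1 : Matrix n n ℂ)).PosSemidef → Op b Λ →
      ‖B - (1 / 2 : ℝ) • (a * b + b * a)‖ ^ 2 ≤ C * (gap3 B a b + ‖a * b - b * a‖ ^ 2) := by
  set c' := |Real.log c| + |Real.log Λ| with hc'
  set L := |Λ| + Real.exp (c' + c') with hL
  set K := Real.exp (2 * c') * (c⁻¹ * c⁻¹) + 1 / 2 with hK
  have hL0 : 0 < L := by positivity
  refine ⟨8 * L + 2 * K ^ 2, by positivity, ?_⟩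
  intro n _ _ B a b hB oB ha hca oa hb hcb ob
  have pa := posDef_of_ge ha hc hca
  have pb := posDef_of_ge hb hc hcb
  have ola := op_log ha hc hca oa
  have olb := op_log hb hc hcb ob
  obtain ⟨U, x, hx⟩ := exists_isDiag hB.1
  obtain ⟨V, z, hz⟩ := exists_isDiag ((herm_cfc Real.log a).add (herm_cfc Real.log b))
  set G := cfc Real.exp (cfc Real.log a + cfc Real.log b) with hG
  have h0 := gap3_nonneg hB pa pb
  have h1 : (4 * L)⁻¹ * ‖B - G‖ ^ 2 ≤ gap3 B a b := gap3_aux pa pb hx hz fun i j => by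
    have e1 : x i ≤ L := by
      have := (abs_le.1 (oB.abs_eig_le hx i)).2
      have := le_abs_self Λ
      have := Real.exp_pos (c' + c')
      linarith
    have e2 : Real.exp (z j) ≤ L := by
      have := Real.exp_le_exp.2 (abs_le.1 ((ola.add olb).abs_eig_le hz j)).2
      have := abs_nonneg Λ
      linarith
    have h1 := kl_lower (isDiag_pos hx hB i) (Real.exp_pos (z j)) e1 e2
    rw [Real.log_exp] at h1
    rw [inv_mul_le_iff₀ (by positivity)]
    exact h1
  rw [inv_mul_le_iff₀ (by positivity)] at h1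
  have h2 : ‖G - a * b‖ ≤ Real.exp (2 * c') * (c⁻¹ * c⁻¹) * ‖a * b - b * a‖ := by
    have e1 := norm_exp_add_sub_le (herm_cfc Real.log a) (herm_cfc Real.log b) ola olb
    rw [exp_log_eq pa, exp_log_eq pb] at e1
    have e2 := norm_log_comm_le ha hc hca (cfc Real.log b)
    have e3 := norm_log_comm_le hb hc hcb a
    rw [norm_sub_rev, norm_sub_rev (b * a)] at e3
    refine e1.trans ?_
    rw [mul_assoc, mul_assoc]
    exact mul_le_mul_of_nonneg_left (e2.trans (mul_le_mul_of_nonneg_left e3 (by positivity)))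
      (Real.exp_pos _).le
  have h3 : B - (1 / 2 : ℝ) • (a * b + b * a) =
      (B - G) + ((G - a * b) + (1 / 2 : ℝ) • (a * b - b * a)) := by
    module
  have h4 : ‖B - (1 / 2 : ℝ) • (a * b + b * a)‖ ≤ ‖B - G‖ + K * ‖a * b - b * a‖ := by
    rw [h3]
    refine (norm_add_le _ _).trans (add_le_add le_rfl ((norm_add_le _ _).trans ?_))
    rw [norm_smul, hK, add_mul]
    refine add_le_add h2 (le_of_eq ?_)
    norm_num
  have h5 := pow_le_pow_left₀ (norm_nonneg _) h4 2
  have h6 : (‖B - G‖ + K * ‖a * b - b * a‖) ^ 2 ≤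
      2 * ‖B - G‖ ^ 2 + 2 * K ^ 2 * ‖a * b - b * a‖ ^ 2 := by
    nlinarith [sq_nonneg (‖B - G‖ - K * ‖a * b - b * a‖)]
  have h7 : 0 ≤ 8 * L * ‖a * b - b * a‖ ^ 2 := by positivity
  have h8 : 0 ≤ 2 * K ^ 2 * gap3 B a b := by positivity
  nlinarith

end Crest.Agent.R332
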