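import Crest.Agent.R332.Defs

/-!
Row 332: scalar integrals and constants.
-/

set_option autoImplicit false

namespace Crest.Agent.R332

open Filter Topology MeasureTheory Set Crest.MathPhysics.LiebThirring

theorem Sc.log_one_add_nonneg' {d τ : ℝ} (hd : 0 ≤ d) (hτ : 0 < τ) : 0 ≤ Real.log (1 + d / τ) :=
  Real.log_nonneg (by have := div_nonneg hd hτ.le; linarith)

theorem Sc.c0_contOn {θ : ℝ} :
    ContinuousOn (fun τ : ℝ => τ ^ (θ - 1) * Real.log (1 + τ⁻¹)) (Ioi 0) := by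
  intro τ hτ
  have hτ' : (0 : ℝ) < τ := hτ
  refine ContinuousAt.continuousWithinAt ?_
  refine (Real.continuousAt_rpow_const _ _ (Or.inl hτ'.ne')).mul ?_
  refine ContinuousAt.log (continuousAt_const.add (continuousAt_inv₀ hτ'.ne')) ?_
  positivity

theorem c0_integrable {θ : ℝ} (h0 : 0 < θ) (h1 : θ < 1) :
    IntegrableOn (fun τ : ℝ => τ ^ (θ - 1) * Real.log (1 + τ⁻¹)) (Ioi 0) := by
  rw [← Ioc_union_Ioi_eq_Ioi (zero_le_one' ℝ)]
  refine IntegrableOn.union ?_ ?_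
  · have hi : IntegrableOn (fun τ : ℝ => (2 ^ (θ / 2) / (θ / 2)) * τ ^ (θ / 2 - 1)) (Ioc 0 1) := by
      refine Integrable.const_mul ?_ _
      have := intervalIntegral.intervalIntegrable_rpow' (a := 0) (b := 1) (r := θ / 2 - 1)
        (by linarith)
      exact this.1
    refine Integrable.mono' hi
      ((Sc.c0_contOn.mono Ioc_subset_Ioi_self).aestronglyMeasurable measurableSet_Ioc) ?_
    refine (ae_restrict_iff' measurableSet_Ioc).2 (Eventually.of_forall fun τ hτ => ?_)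
    have hτ0 : 0 < τ := hτ.1
    have hl : 0 ≤ Real.log (1 + τ⁻¹) := Real.log_nonneg (by
      have := inv_pos.2 hτ0; linarith)
    rw [Real.norm_eq_abs, abs_of_nonneg (by positivity)]
    have h2 : 1 + τ⁻¹ ≤ 2 / τ := by
      rw [le_div_iff₀ hτ0, add_mul, inv_mul_cancel₀ hτ0.ne']
      linarith [hτ.2]
    have h3 : Real.log (1 + τ⁻¹) ≤ (2 / τ) ^ (θ / 2) / (θ / 2) :=
      (Real.log_le_log (by positivity) h2).trans (Real.log_le_rpow_div (by positivity) (by linarith))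
    have h4 : τ ^ (θ - 1) * ((2 / τ) ^ (θ / 2) / (θ / 2))
        = (2 ^ (θ / 2) / (θ / 2)) * τ ^ (θ / 2 - 1) := by
      rw [Real.div_rpow (by norm_num) hτ0.le,
        show θ / 2 - 1 = (θ - 1) - θ / 2 by ring, Real.rpow_sub hτ0 (θ - 1) (θ / 2)]
      ring
    rw [← h4]
    exact mul_le_mul_of_nonneg_left h3 (by positivity)
  · have hi : IntegrableOn (fun τ : ℝ => τ ^ (θ - 2)) (Ioi 1) :=
      integrableOn_Ioi_rpow_of_lt (by linarith) one_pos
    refine Integrable.mono' hi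
      ((Sc.c0_contOn.mono (Ioi_subset_Ioi zero_le_one)).aestronglyMeasurable measurableSet_Ioi) ?_
    refine (ae_restrict_iff' measurableSet_Ioi).2 (Eventually.of_forall fun τ hτ => ?_)
    have hτ0 : 0 < τ := one_pos.trans hτ
    have hl : 0 ≤ Real.log (1 + τ⁻¹) := Real.log_nonneg (by
      have := inv_pos.2 hτ0; linarith)
    rw [Real.norm_eq_abs, abs_of_nonneg (by positivity)]
    have h3 : Real.log (1 + τ⁻¹) ≤ τ⁻¹ := by
      have := Real.log_le_sub_one_of_pos (x := 1 + τ⁻¹) (by positivity)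
      linarith
    have h4 : τ ^ (θ - 2) = τ ^ (θ - 1) * τ⁻¹ := by
      rw [show θ - 2 = (θ - 1) - 1 by ring, Real.rpow_sub_one hτ0.ne' (θ - 1), div_eq_mul_inv]
    rw [h4]
    exact mul_le_mul_of_nonneg_left h3 (by positivity)

theorem c0_pos {θ : ℝ} (h0 : 0 < θ) (h1 : θ < 1) : 0 < c0 θ := by
  have hpos : ∀ τ ∈ Ioi (0 : ℝ), 0 < τ ^ (θ - 1) * Real.log (1 + τ⁻¹) := fun τ hτ => by
    have hτ0 : 0 < τ := hτ
    have : 0 < Real.log (1 + τ⁻¹) := Real.log_pos (by have := inv_pos.2 hτ0; linarith)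
    positivity
  unfold c0
  rw [setIntegral_pos_iff_support_of_nonneg_ae
    ((ae_restrict_iff' measurableSet_Ioi).2 (Eventually.of_forall fun τ hτ => (hpos τ hτ).le))
    (c0_integrable h0 h1)]
  refine lt_of_lt_of_le ?_ (measure_mono (s := Ioi 0) fun τ hτ => ⟨(hpos τ hτ).ne', hτ⟩)
  simp

/-- scaling -/
theorem Sc.c0_scale {θ : ℝ} (h0 : 0 < θ) (h1 : θ < 1) {d : ℝ} (hd : 0 ≤ d) :
    IntegrableOn (fun τ : ℝ => τ ^ (θ - 1) * Real.log (1 + d / τ)) (Ioi 0) ∧
      ∫ τ in Ioi (0 : ℝ), τ ^ (θ - 1) * Real.log (1 + d / τ) = c0 θ * d ^ θ := by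
  rcases hd.eq_or_lt with rfl | hd
  · simp [Real.zero_rpow h0.ne']
  have key : ∀ τ ∈ Ioi (0 : ℝ), τ ^ (θ - 1) * Real.log (1 + d / τ)
      = d ^ (θ - 1) * ((d⁻¹ * τ) ^ (θ - 1) * Real.log (1 + (d⁻¹ * τ)⁻¹)) := fun τ hτ => by
    have hτ0 : 0 < τ := hτ
    rw [← mul_assoc, ← Real.mul_rpow hd.le (by positivity), mul_inv_cancel_left₀ hd.ne',
      mul_inv, inv_inv, div_eq_mul_inv]
  constructor
  · refine IntegrableOn.congr_fun ?_ (fun τ hτ => (key τ hτ).symm) measurableSet_Ioi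
    refine Integrable.const_mul ?_ _
    have := (integrableOn_Ioi_comp_mul_left_iff
      (fun τ : ℝ => τ ^ (θ - 1) * Real.log (1 + τ⁻¹)) 0 (inv_pos.2 hd)).2
      (by simpa using c0_integrable h0 h1)
    exact this
  · rw [setIntegral_congr_fun measurableSet_Ioi key, integral_const_mul,
      integral_comp_mul_left_Ioi (fun τ : ℝ => τ ^ (θ - 1) * Real.log (1 + τ⁻¹)) 0 (inv_pos.2 hd)]
    simp only [mul_zero, inv_inv, smul_eq_mul]
    rw [Real.rpow_sub_one hd.ne']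
    unfold c0
    field_simp

theorem Sc.fub {θ : ℝ} (h0 : 0 < θ) (h1 : θ < 1) {a b : ℝ} (hab : a ≤ b) {d : ℝ → ℝ}
    (hd : Continuous d) (hd0 : ∀ s ∈ Icc a b, 0 ≤ d s) :
    IntegrableOn (fun τ : ℝ => τ ^ (θ - 1) * ∫ s in a..b, Real.log (1 + d s / τ)) (Ioi 0) ∧
      ∫ τ in Ioi (0 : ℝ), τ ^ (θ - 1) * ∫ s in a..b, Real.log (1 + d s / τ)
        = c0 θ * ∫ s in a..b, d s ^ θ := by
  have hmeas : AEStronglyMeasurable
      (fun p : ℝ × ℝ => p.1 ^ (θ - 1) * Real.log (1 + d p.2 / p.1))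
      ((volume.restrict (Ioi (0 : ℝ))).prod (volume.restrict (Ioc a b))) := by
    refine Measurable.aestronglyMeasurable ?_
    have := hd.measurable
    fun_prop
  have hint : Integrable (fun p : ℝ × ℝ => p.1 ^ (θ - 1) * Real.log (1 + d p.2 / p.1))
      ((volume.restrict (Ioi (0 : ℝ))).prod (volume.restrict (Ioc a b))) := by
    rw [integrable_prod_iff' hmeas]
    constructor
    · refine (ae_restrict_iff' measurableSet_Ioc).2 (Eventually.of_forall fun s hs => ?_)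
      exact (Sc.c0_scale h0 h1 (hd0 s (Ioc_subset_Icc_self hs))).1
    · have hc : Continuous fun s => c0 θ * d s ^ θ :=
        continuous_const.mul (hd.rpow_const fun _ => Or.inr h0.le)
      refine IntegrableOn.congr_fun (hc.integrableOn_Icc.mono_set Ioc_subset_Icc_self) ?_
        measurableSet_Ioc
      intro s hs
      have hs0 := hd0 s (Ioc_subset_Icc_self hs)
      simp only
      rw [← (Sc.c0_scale h0 h1 hs0).2]
      refine setIntegral_congr_fun measurableSet_Ioi fun τ hτ => ?_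
      have hτ0 : 0 < τ := hτ
      have := Sc.log_one_add_nonneg' hs0 hτ0
      rw [Real.norm_eq_abs, abs_of_nonneg (by positivity)]
  have e1 : (fun τ : ℝ => τ ^ (θ - 1) * ∫ s in a..b, Real.log (1 + d s / τ))
      = fun τ : ℝ => ∫ s in Ioc a b, τ ^ (θ - 1) * Real.log (1 + d s / τ) := by
    funext τ
    rw [intervalIntegral.integral_of_le hab, integral_const_mul]
  rw [e1]
  refine ⟨hint.integral_prod_left, ?_⟩
  rw [integral_integral_swap (f := fun τ s => τ ^ (θ - 1) * Real.log (1 + d s / τ)) hint,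
    intervalIntegral.integral_of_le hab, ← integral_const_mul]
  refine setIntegral_congr_fun measurableSet_Ioc fun s hs => ?_
  exact (Sc.c0_scale h0 h1 (hd0 s (Ioc_subset_Icc_self hs))).2

theorem Sc.phi_eq {τ u : ℝ} (hτ : 0 < τ) (hu : 0 ≤ u) :
    phi τ u = ∫ s in (0 : ℝ)..u, Real.log (1 + s / τ) := by
  have hpos : ∀ s ∈ uIcc 0 u, 0 < 1 + s / τ := fun s hs => by
    rw [uIcc_of_le hu] at hs
    have := div_nonneg hs.1 hτ.le
    linarith
  have hd : ∀ s ∈ uIcc 0 u, HasDerivAt (fun s => (τ + s) * Real.log (1 + s / τ) - s)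
      (Real.log (1 + s / τ)) s := fun s hs => by
    have h1 : HasDerivAt (fun s : ℝ => 1 + s / τ) (1 / τ) s :=
      ((hasDerivAt_id s).div_const τ).const_add 1
    have h2 := (((hasDerivAt_id s).const_add τ).mul (h1.log (hpos s hs).ne')).sub (hasDerivAt_id s)
    refine HasDerivAt.congr_deriv h2 ?_
    have := hpos s hs
    have h3 : τ + s ≠ 0 := by
      rw [uIcc_of_le hu] at hs
      linarith [hs.1]
    simp only [id]
    field_simp
    ring
  rw [intervalIntegral.integral_eq_sub_of_hasDerivAt hd]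
  · simp [phi]
  · refine ContinuousOn.intervalIntegrable ?_
    exact ContinuousOn.log (by fun_prop) fun s hs => (hpos s hs).ne'

theorem phi_integral_le {θ : ℝ} (h0 : 0 < θ) (h1 : θ < 1) {u τ₁ τ₂ : ℝ} (hu : 0 ≤ u)
    (h₁ : 0 < τ₁) (h₂ : τ₁ ≤ τ₂) :
    ∫ τ in τ₁..τ₂, τ ^ (θ - 1) * phi τ u ≤ c0 θ * (u ^ (1 + θ) / (1 + θ)) := by
  obtain ⟨hi, he⟩ := Sc.fub h0 h1 hu (d := fun s => s) continuous_id fun s hs => hs.1
  have e : ∫ s in (0 : ℝ)..u, s ^ θ = u ^ (1 + θ) / (1 + θ) := by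
    rw [integral_rpow (Or.inl (by linarith)), Real.zero_rpow (by linarith), add_comm θ 1, sub_zero]
  rw [← e, ← he, intervalIntegral.integral_of_le h₂]
  have hsub : Ioc τ₁ τ₂ ⊆ Ioi 0 := fun τ hτ => h₁.trans hτ.1
  rw [setIntegral_congr_fun (g := fun τ => τ ^ (θ - 1) * ∫ s in (0 : ℝ)..u, Real.log (1 + s / τ))
    measurableSet_Ioc fun τ hτ => by rw [Sc.phi_eq (hsub hτ) hu]]
  refine setIntegral_mono_set hi ?_ hsub.eventuallyLE
  refine (ae_restrict_iff' measurableSet_Ioi).2 (Eventually.of_forall fun τ hτ => ?_)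
  have hτ0 : 0 < τ := hτ
  refine mul_nonneg (by positivity) (intervalIntegral.integral_nonneg hu fun s hs => ?_)
  exact Sc.log_one_add_nonneg' hs.1 hτ0

theorem Sc.hasDerivAt_eta {y : ℝ} (hy : y ≠ 0) : HasDerivAt eta (Real.log y + 1) y := by
  have := (hasDerivAt_id y).mul (Real.hasDerivAt_log hy)
  refine HasDerivAt.congr_deriv this ?_
  simp [mul_inv_cancel₀ hy]

theorem Sc.hk_eq {τ κ : ℝ} (hτ : 0 < τ) (hκ : 0 ≤ κ) :
    hk τ κ = ∫ s in (-κ)..κ, Real.log (1 + (κ ^ 2 - s ^ 2) / τ) := by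
  obtain ⟨e, he⟩ : ∃ e, e = √(κ ^ 2 + τ) := ⟨_, rfl⟩
  have he2 : e ^ 2 = κ ^ 2 + τ := by rw [he]; exact Real.sq_sqrt (by positivity)
  have hek : κ < e := by rw [he]; exact Real.lt_sqrt_of_sq_lt (by linarith)
  have hle : -κ ≤ κ := by linarith
  have hd : ∀ s ∈ uIcc (-κ) κ,
      HasDerivAt (fun s => eta (e + s) - eta (e - s) - (2 + Real.log τ) * s)
        (Real.log (1 + (κ ^ 2 - s ^ 2) / τ)) s := fun s hs => by
    rw [uIcc_of_le hle] at hs
    have hp : 0 < e + s := by linarith [hs.1]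
    have hm : 0 < e - s := by linarith [hs.2]
    have h1 := (Sc.hasDerivAt_eta hp.ne').comp s ((hasDerivAt_id s).const_add e)
    have h2 := (Sc.hasDerivAt_eta hm.ne').comp s ((hasDerivAt_id s).const_sub e)
    have h3 := (h1.sub h2).sub ((hasDerivAt_id s).const_mul (2 + Real.log τ))
    refine HasDerivAt.congr_deriv h3 ?_
    have : 1 + (κ ^ 2 - s ^ 2) / τ = (e + s) * (e - s) / τ := by
      field_simp
      linarith
    rw [this, Real.log_div (by positivity) hτ.ne', Real.log_mul hp.ne' hm.ne']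
    ring
  rw [intervalIntegral.integral_eq_sub_of_hasDerivAt hd]
  · simp only [hk, ← he, sub_neg_eq_add, ← sub_eq_add_neg]
    ring
  · refine ContinuousOn.intervalIntegrable ?_
    refine ContinuousOn.log (by fun_prop) fun s hs => ?_
    rw [uIcc_of_le hle] at hs
    have : 0 ≤ κ ^ 2 - s ^ 2 := by nlinarith [hs.1, hs.2]
    have := div_nonneg this hτ.le
    linarith

theorem Sc.integral_sq_sub_rpow {θ κ : ℝ} (h0 : 0 < θ) (hκ : 0 ≤ κ) :
    ∫ s in (-κ)..κ, (κ ^ 2 - s ^ 2) ^ θ = Bc θ * κ ^ (2 * θ + 1) := by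
  rcases hκ.eq_or_lt with rfl | hκ
  · simp [Real.zero_rpow (show 2 * θ + 1 ≠ 0 by linarith)]
  have h := intervalIntegral.integral_comp_mul_left (fun s : ℝ => (κ ^ 2 - s ^ 2) ^ θ)
    (a := -1) (b := 1) hκ.ne'
  simp only [mul_neg, mul_one, smul_eq_mul] at h
  have h2 : ∫ x in (-1 : ℝ)..1, (κ ^ 2 - (κ * x) ^ 2) ^ θ = κ ^ (2 * θ) * Bc θ := by
    unfold Bc
    rw [← intervalIntegral.integral_const_mul]
    refine intervalIntegral.integral_congr fun x hx => ?_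
    rw [uIcc_of_le (by norm_num)] at hx
    have : 0 ≤ 1 - x ^ 2 := by nlinarith [hx.1, hx.2]
    rw [show κ ^ 2 - (κ * x) ^ 2 = κ ^ 2 * (1 - x ^ 2) by ring, Real.mul_rpow (by positivity) this,
      Real.rpow_mul hκ.le, Real.rpow_two]
  rw [h2] at h
  rw [Real.rpow_add_one hκ.ne']
  field_simp at h
  linarith

theorem hk_integral_tendsto {θ : ℝ} (h0 : 0 < θ) (h1 : θ < 1) {κ : ℝ} (hκ : 0 ≤ κ) :
    Tendsto (fun j : ℕ => ∫ τ in ((j : ℝ) + 1)⁻¹..((j : ℝ) + 2), τ ^ (θ - 1) * hk τ κ) atTop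
      (𝓝 (c0 θ * (Bc θ * κ ^ (2 * θ + 1)))) := by
  obtain ⟨hi, he⟩ := Sc.fub h0 h1 (show -κ ≤ κ by linarith) (d := fun s => κ ^ 2 - s ^ 2)
    (by fun_prop) fun s hs => by nlinarith [hs.1, hs.2]
  rw [← Sc.integral_sq_sub_rpow h0 hκ, ← he]
  have hU : (⋃ j : ℕ, Ioc ((j : ℝ) + 1)⁻¹ ((j : ℝ) + 2)) = Ioi 0 := by
    ext τ
    simp only [mem_iUnion, mem_Ioc, mem_Ioi]
    constructor
    · rintro ⟨j, hj, -⟩
      exact lt_trans (by positivity) hj
    · intro hτ
      obtain ⟨j, hj⟩ := exists_nat_gt (max τ τ⁻¹)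
      refine ⟨j, ?_, by linarith [le_max_left τ τ⁻¹]⟩
      rw [inv_lt_comm₀ (by positivity) hτ]
      linarith [le_max_right τ τ⁻¹]
  have hmono : Monotone fun j : ℕ => Ioc ((j : ℝ) + 1)⁻¹ ((j : ℝ) + 2) := by
    intro i j hij
    have : (i : ℝ) ≤ j := by exact_mod_cast hij
    refine Ioc_subset_Ioc ?_ (by linarith)
    exact inv_anti₀ (by positivity) (by linarith)
  have := tendsto_setIntegral_of_monotone (μ := volume) (fun j => measurableSet_Ioc) hmono
    (f := fun τ : ℝ => τ ^ (θ - 1) * ∫ s in (-κ)..κ, Real.log (1 + (κ ^ 2 - s ^ 2) / τ))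
    (by rw [hU]; exact hi)
  rw [hU] at this
  refine this.congr fun j => ?_
  have hle : ((j : ℝ) + 1)⁻¹ ≤ (j : ℝ) + 2 := by
    have : ((j : ℝ) + 1)⁻¹ ≤ 1 := inv_le_one_of_one_le₀ (by
      have : (0 : ℝ) ≤ j := j.cast_nonneg
      linarith)
    have : (0 : ℝ) ≤ j := j.cast_nonneg
    linarith
  rw [intervalIntegral.integral_of_le hle]
  refine setIntegral_congr_fun measurableSet_Ioc fun τ hτ => ?_
  rw [Sc.hk_eq (lt_trans (by positivity) hτ.1) hκ]

theorem tail_tendsto {θ : ℝ} (h0 : 0 < θ) {Λ : ℝ} (hΛ : 0 < Λ) :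
    Tendsto (fun j : ℕ => (((j : ℝ) + 1)⁻¹) ^ θ * Real.log (Λ / ((j : ℝ) + 1)⁻¹)) atTop (𝓝 0) := by
  have ht : Tendsto (fun j : ℕ => ((j : ℝ) + 1)⁻¹) atTop (𝓝[>] 0) := by
    refine tendsto_nhdsWithin_iff.2 ⟨?_, Eventually.of_forall fun j => ?_⟩
    · simpa using tendsto_one_div_add_atTop_nhds_zero_nat (𝕜 := ℝ)
    · show (0 : ℝ) < _
      positivity
  have h1 := (tendsto_log_mul_rpow_nhdsGT_zero h0).comp ht
  have h2 : Tendsto (fun x : ℝ => x ^ θ) (𝓝[>] 0) (𝓝 0) := by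
    have := (Real.continuous_rpow_const h0.le).tendsto 0
    rw [Real.zero_rpow h0.ne'] at this
    exact this.mono_left nhdsWithin_le_nhds
  have h3 := ((h2.comp ht).mul_const (Real.log Λ)).sub h1
  simp only [zero_mul, sub_zero] at h3
  refine h3.congr fun j => ?_
  simp only [Function.comp]
  rw [Real.log_div hΛ.ne' (by positivity)]
  ring

theorem Bc_pos {θ : ℝ} (h0 : 0 < θ) : 0 < Bc θ := by
  unfold Bc
  refine intervalIntegral.intervalIntegral_pos_of_pos_on ?_ (fun x hx => ?_) (by norm_num)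
  · refine Continuous.intervalIntegrable ?_ _ _
    exact Continuous.rpow_const (by fun_prop) fun _ => Or.inr h0.le
  · exact Real.rpow_pos_of_pos (by nlinarith [hx.1, hx.2]) _

theorem Sc.beta_real {θ : ℝ} (h0 : 0 < θ) :
    ∫ u in (0 : ℝ)..1, u ^ θ * (1 - u) ^ θ
      = Real.Gamma (θ + 1) * Real.Gamma (θ + 1) / Real.Gamma (2 * (θ + 1)) := by
  have h := ProbabilityTheory.beta_eq_betaIntegralReal (θ + 1) (θ + 1) (by linarith) (by linarith)
  rw [ProbabilityTheory.beta, ← two_mul] at h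
  rw [h, Complex.betaIntegral]
  have : ∫ x : ℝ in (0 : ℝ)..1, (x : ℂ) ^ (((θ + 1 : ℝ) : ℂ) - 1) * (1 - (x : ℂ)) ^ (((θ + 1 : ℝ) : ℂ) - 1)
      = ((∫ u in (0 : ℝ)..1, u ^ θ * (1 - u) ^ θ : ℝ) : ℂ) := by
    rw [← intervalIntegral.integral_ofReal]
    refine intervalIntegral.integral_congr fun x hx => ?_
    rw [uIcc_of_le zero_le_one] at hx
    have e : ((θ + 1 : ℝ) : ℂ) - 1 = (θ : ℂ) := by push_cast; ring
    rw [e, Complex.ofReal_mul, Complex.ofReal_cpow hx.1, Complex.ofReal_cpow (by linarith [hx.2])]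
    push_cast
    rfl
  rw [this, Complex.ofReal_re]

theorem Sc.Bc_eq {θ : ℝ} (h0 : 0 < θ) :
    Bc θ = √Real.pi * Real.Gamma (θ + 1) / Real.Gamma (θ + 3 / 2) := by
  have h := intervalIntegral.integral_comp_mul_add (fun t : ℝ => (1 - t ^ 2) ^ θ)
    (a := 0) (b := 1) (c := 2) two_ne_zero (-1)
  have h2 : ∫ x in (0 : ℝ)..1, (1 - (2 * x + -1) ^ 2) ^ θ
      = 2 ^ (2 * θ) * ∫ u in (0 : ℝ)..1, u ^ θ * (1 - u) ^ θ := by
    rw [← intervalIntegral.integral_const_mul]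
    refine intervalIntegral.integral_congr fun x hx => ?_
    rw [uIcc_of_le zero_le_one] at hx
    have h3 : 0 ≤ 1 - x := by linarith [hx.2]
    rw [show 1 - (2 * x + -1) ^ 2 = 2 ^ 2 * (x * (1 - x)) by ring,
      Real.mul_rpow (by norm_num) (mul_nonneg hx.1 h3), Real.mul_rpow hx.1 h3,
      Real.rpow_mul (by norm_num), Real.rpow_two]
  rw [h2, Sc.beta_real h0] at h
  norm_num at h
  have hB : Bc θ = 2 * (2 ^ (2 * θ) *
      (Real.Gamma (θ + 1) * Real.Gamma (θ + 1) / Real.Gamma (2 * (θ + 1)))) := by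
    unfold Bc
    rw [h]
    ring
  have hd := Real.Gamma_mul_Gamma_add_half (θ + 1)
  rw [show θ + 1 + 1 / 2 = θ + 3 / 2 by ring,
    show 1 - 2 * (θ + 1) = -(2 * θ) - 1 by ring, Real.rpow_sub_one two_ne_zero,
    Real.rpow_neg (by norm_num)] at hd
  have g1 : 0 < Real.Gamma (θ + 1) := Real.Gamma_pos_of_pos (by linarith)
  have g2 : 0 < Real.Gamma (θ + 3 / 2) := Real.Gamma_pos_of_pos (by linarith)
  have g3 : 0 < Real.Gamma (2 * (θ + 1)) := Real.Gamma_pos_of_pos (by linarith)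
  have g4 : (0 : ℝ) < 2 ^ (2 * θ) := by positivity
  rw [hB, eq_div_iff g2.ne']
  calc 2 * (2 ^ (2 * θ) * (Real.Gamma (θ + 1) * Real.Gamma (θ + 1) / Real.Gamma (2 * (θ + 1))))
        * Real.Gamma (θ + 3 / 2)
      = 2 * 2 ^ (2 * θ) * Real.Gamma (θ + 1) / Real.Gamma (2 * (θ + 1))
        * (Real.Gamma (θ + 1) * Real.Gamma (θ + 3 / 2)) := by ring
    _ = √Real.pi * Real.Gamma (θ + 1) := by
      rw [hd]
      field_simp

theorem sharpConst_mul_Bc {γ : ℝ} (hγ : 1 / 2 < γ) :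
    sharpConst γ * Bc (γ - 1 / 2) = (γ - 1 / 2)⁻¹ * ((1 + (γ - 1 / 2)⁻¹)⁻¹) ^ (γ + 1 / 2) := by
  obtain ⟨θ, rfl⟩ : ∃ θ, γ = θ + 1 / 2 := ⟨γ - 1 / 2, by ring⟩
  have h0 : 0 < θ := by linarith
  unfold sharpConst
  rw [add_sub_cancel_right, Sc.Bc_eq h0, show θ + 1 / 2 + 1 / 2 = θ + 1 by ring,
    show θ + 1 / 2 + 1 = θ + 3 / 2 by ring, show θ + 1 / 2 + 3 / 2 = (θ + 1) + 1 by ring,
    Real.Gamma_add_one (s := θ + 1) (by linarith)]
  have e : (1 + θ⁻¹)⁻¹ = θ / (θ + 1) := by field_simp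
  rw [e, Real.rpow_add_one (by positivity)]
  have g1 : 0 < Real.Gamma (θ + 1) := Real.Gamma_pos_of_pos (by linarith)
  have g2 : 0 < Real.Gamma (θ + 3 / 2) := Real.Gamma_pos_of_pos (by linarith)
  have g3 : 0 < √Real.pi := Real.sqrt_pos.2 Real.pi_pos
  field_simp

theorem Sc.hasDerivAt_tanh' (y : ℝ) : HasDerivAt Real.tanh ((Real.cosh y ^ 2)⁻¹) y := by
  have hc : Real.cosh y ≠ 0 := (Real.cosh_pos y).ne'
  have h := (Real.hasDerivAt_sinh y).div (Real.hasDerivAt_cosh y) hc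
  have e : Real.tanh = fun x => Real.sinh x / Real.cosh x := funext Real.tanh_eq_sinh_div_cosh
  rw [e]
  refine HasDerivAt.congr_deriv h ?_
  have := Real.cosh_sq y
  field_simp
  linarith

theorem Sc.one_sub_tanh_sq (y : ℝ) : 1 - Real.tanh y ^ 2 = (Real.cosh y ^ 2)⁻¹ := by
  have hc : Real.cosh y ≠ 0 := (Real.cosh_pos y).ne'
  have := Real.cosh_sq y
  rw [Real.tanh_eq_sinh_div_cosh]
  field_simp
  linarith

theorem integral_sech {θ : ℝ} (h0 : 0 < θ) :
    Integrable (fun y : ℝ => ((Real.cosh y ^ 2)⁻¹) ^ (1 + θ)) ∧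
      ∫ y : ℝ, ((Real.cosh y ^ 2)⁻¹) ^ (1 + θ) = Bc θ := by
  have hd : ∀ x ∈ (univ : Set ℝ), HasDerivWithinAt Real.tanh ((Real.cosh x ^ 2)⁻¹) univ x :=
    fun x _ => (Sc.hasDerivAt_tanh' x).hasDerivWithinAt
  have him : Real.tanh '' univ = Ioo (-1) 1 := Real.tanh_bijOn.image_eq
  have e : (fun x : ℝ => |(Real.cosh x ^ 2)⁻¹| • (1 - Real.tanh x ^ 2) ^ θ)
      = fun y : ℝ => ((Real.cosh y ^ 2)⁻¹) ^ (1 + θ) := by
    funext y
    have hp : 0 < (Real.cosh y ^ 2)⁻¹ := by have := Real.cosh_pos y; positivity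
    rw [Sc.one_sub_tanh_sq, abs_of_pos hp, smul_eq_mul, Real.rpow_add hp, Real.rpow_one]
  have hc : Continuous fun t : ℝ => (1 - t ^ 2) ^ θ :=
    Continuous.rpow_const (by fun_prop) fun _ => Or.inr h0.le
  constructor
  · have := (integrableOn_image_iff_integrableOn_abs_deriv_smul MeasurableSet.univ hd
      Real.tanh_injective.injOn (fun t : ℝ => (1 - t ^ 2) ^ θ)).1
      (by rw [him]; exact hc.integrableOn_Icc.mono_set Ioo_subset_Icc_self)
    rw [e] at this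
    exact integrableOn_univ.1 this
  · have := integral_image_eq_integral_abs_deriv_smul MeasurableSet.univ hd
      Real.tanh_injective.injOn (fun t : ℝ => (1 - t ^ 2) ^ θ)
    rw [e, him, Measure.restrict_univ] at this
    rw [← this]
    unfold Bc
    rw [intervalIntegral.integral_of_le (by norm_num), integral_Ioc_eq_integral_Ioo]

theorem exists_profile {r κ σ : ℝ} (hr : 0 < r) (hσ : |σ| ≤ κ) (x₀ : ℝ) :
    ∃ (s f : ℝ → ℝ) (a c : ℝ), 0 ≤ a ∧ s x₀ = σ ∧ f x₀ = 1 ∧ (∀ x, 0 < f x) ∧ (∀ x, |s x| ≤ κ) ∧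
      (∀ x, HasDerivAt s (-r * (κ ^ 2 - s x ^ 2)) x) ∧ (∀ x, HasDerivAt f (s x * f x) x) ∧
      ∀ x, (1 + r) * (κ ^ 2 - s x ^ 2) = soliton r a c x := by
  rcases hσ.eq_or_lt with h | h
  · have e : κ ^ 2 - σ ^ 2 = 0 := by rw [← h, sq_abs, sub_self]
    refine ⟨fun _ => σ, fun x => Real.exp (σ * (x - x₀)), 0, 0, le_rfl, rfl, by simp,
      fun x => Real.exp_pos _, fun _ => hσ, fun x => ?_, fun x => ?_, fun x => ?_⟩
    · rw [e, mul_zero]
      exact hasDerivAt_const _ _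
    · have := (((hasDerivAt_id x).sub_const x₀).const_mul σ).exp
      refine HasDerivAt.congr_deriv this ?_
      simp only [id]
      ring
    · simp [soliton, e]
  · have hκ : 0 < κ := (abs_nonneg σ).trans_lt h
    obtain ⟨c, hc⟩ : ∃ c, r * κ * (x₀ - c) = Real.artanh (-σ / κ) :=
      ⟨x₀ - Real.artanh (-σ / κ) / (r * κ), by field_simp; ring⟩
    have hmem : -σ / κ ∈ Ioo (-1 : ℝ) 1 := by
      have := abs_lt.1 h
      constructor
      · rw [lt_div_iff₀ hκ]; linarith [this.2]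
      · rw [div_lt_iff₀ hκ]; linarith [this.1]
    have hlin : ∀ x, HasDerivAt (fun x => r * κ * (x - c)) (r * κ) x := fun x => by
      simpa using ((hasDerivAt_id x).sub_const c).const_mul (r * κ)
    have hsq : ∀ x, κ ^ 2 - (-κ * Real.tanh (r * κ * (x - c))) ^ 2
        = κ ^ 2 * (Real.cosh (r * κ * (x - c)) ^ 2)⁻¹ := fun x => by
      rw [← Sc.one_sub_tanh_sq]
      ring
    refine ⟨fun x => -κ * Real.tanh (r * κ * (x - c)),
      fun x => Real.exp (-r⁻¹ * (Real.log (Real.cosh (r * κ * (x - c)))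
        - Real.log (Real.cosh (r * κ * (x₀ - c))))), κ, c, hκ.le, ?_, by simp,
      fun x => Real.exp_pos _, fun x => ?_, fun x => ?_, fun x => ?_, fun x => ?_⟩
    · simp only
      rw [hc, Real.tanh_artanh hmem]
      field_simp
    · rw [abs_mul, abs_neg, abs_of_pos hκ]
      exact mul_le_of_le_one_right hκ.le (Real.abs_tanh_lt_one _).le
    · have := ((Sc.hasDerivAt_tanh' (r * κ * (x - c))).comp x (hlin x)).const_mul (-κ)
      refine HasDerivAt.congr_deriv this ?_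
      rw [hsq]
      ring
    · have hp := Real.cosh_pos (r * κ * (x - c))
      have := (((((hlin x).cosh).log hp.ne').sub_const
        (Real.log (Real.cosh (r * κ * (x₀ - c))))).const_mul (-r⁻¹)).exp
      refine HasDerivAt.congr_deriv this ?_
      beta_reduce
      rw [Real.tanh_eq_sinh_div_cosh]
      field_simp
    · rw [hsq, soliton]
      ring

theorem Sc.gronwall_right {E : Type*} [NormedAddCommGroup E] [NormedSpace ℝ E] {F F' : ℝ → E}
    {g : ℝ → ℝ} {L : ℝ} (hL : 0 ≤ L) (hF : ∀ x, HasDerivAt F (F' x) x) (hg : Continuous g)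
    (hg0 : ∀ x, 0 ≤ g x) (hb : ∀ x, ‖F' x‖ ≤ L * ‖F x‖ + g x) {x₀ x : ℝ} (hx : x₀ ≤ x) :
    ‖F x‖ ≤ Real.exp (L * (x - x₀)) * (‖F x₀‖ + ∫ t in x₀..x, g t) := by
  have key : ∀ ε : ℝ, 0 < ε →
      ‖F x‖ ≤ Real.exp (L * (x - x₀)) * (‖F x₀‖ + (∫ t in x₀..x, g t) + ε * (x - x₀)) := by
    intro ε hε
    have hB : ∀ y, HasDerivAt
        (fun y => Real.exp (L * (y - x₀)) * (‖F x₀‖ + (∫ t in x₀..y, g t) + ε * (y - x₀)))
        (L * (Real.exp (L * (y - x₀)) * (‖F x₀‖ + (∫ t in x₀..y, g t) + ε * (y - x₀)))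
          + Real.exp (L * (y - x₀)) * (g y + ε)) y := fun y => by
      have h1 := (((hasDerivAt_id y).sub_const x₀).const_mul L).exp
      have h2 := (((hg.integral_hasStrictDerivAt x₀ y).hasDerivAt).const_add ‖F x₀‖).add
        (((hasDerivAt_id y).sub_const x₀).const_mul ε)
      refine HasDerivAt.congr_deriv (h1.mul h2) ?_
      simp only [id]
      ring
    refine image_norm_le_of_norm_deriv_right_lt_deriv_boundary (f := F) (f' := F') (a := x₀) (b := x)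
      (fun y _ => (hF y).continuousAt.continuousWithinAt) (fun y _ => (hF y).hasDerivWithinAt)
      (by simp) hB (fun y hy he => ?_) ⟨hx, le_rfl⟩
    rw [← he]
    have h1 : 1 ≤ Real.exp (L * (y - x₀)) := Real.one_le_exp (mul_nonneg hL (by linarith [hy.1]))
    have h2 : g y + ε ≤ Real.exp (L * (y - x₀)) * (g y + ε) :=
      le_mul_of_one_le_left (by linarith [hg0 y]) h1
    linarith [hb y]
  have hc : Tendsto (fun ε : ℝ =>
      Real.exp (L * (x - x₀)) * (‖F x₀‖ + (∫ t in x₀..x, g t) + ε * (x - x₀))) (𝓝[>] 0)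
      (𝓝 (Real.exp (L * (x - x₀)) * (‖F x₀‖ + (∫ t in x₀..x, g t) + 0 * (x - x₀)))) :=
    Tendsto.mono_left (Continuous.tendsto (by fun_prop) 0) nhdsWithin_le_nhds
  rw [zero_mul, add_zero] at hc
  exact ge_of_tendsto hc (eventually_nhdsWithin_of_forall fun ε hε => key ε hε)

theorem gronwall_L1 {E : Type*} [NormedAddCommGroup E] [NormedSpace ℝ E] {F F' : ℝ → E}
    {g : ℝ → ℝ} {L : ℝ} (hL : 0 ≤ L) (hF : ∀ x, HasDerivAt F (F' x) x) (hg : Continuous g)
    (hg0 : ∀ x, 0 ≤ g x) (hb : ∀ x, ‖F' x‖ ≤ L * ‖F x‖ + g x) (x₀ x : ℝ) :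
    ‖F x‖ ≤ Real.exp (L * |x - x₀|) * (‖F x₀‖ + |∫ t in x₀..x, g t|) := by
  rcases le_total x₀ x with hx | hx
  · rw [abs_of_nonneg (sub_nonneg.2 hx),
      abs_of_nonneg (intervalIntegral.integral_nonneg hx fun t _ => hg0 t)]
    exact Sc.gronwall_right hL hF hg hg0 hb hx
  · have h := Sc.gronwall_right (F := fun t => F (-t)) (F' := fun t => -F' (-t)) (g := fun t => g (-t))
      hL (fun t => by
        have := (hF (-t)).scomp t (hasDerivAt_neg t)
        refine HasDerivAt.congr_deriv this ?_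
        simp)
      (hg.comp continuous_neg) (fun t => hg0 _) (fun t => by simpa using hb (-t))
      (x₀ := -x₀) (x := -x) (by linarith)
    rw [intervalIntegral.integral_comp_neg] at h
    simp only [neg_neg] at h
    rw [abs_of_nonpos (sub_nonpos.2 hx), intervalIntegral.integral_symm, abs_neg,
      abs_of_nonneg (intervalIntegral.integral_nonneg hx fun t _ => hg0 t)]
    convert h using 3
    ring

end Crest.Agent.R332
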