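import Crest.Agent.R332.Defs

/-!
Row 332: derivative of the matrix logarithm and the monotonicity inequality for `Gt`.
-/

set_option autoImplicit false
set_option linter.unusedSectionVars false

namespace Crest.Agent.R332

open Matrix Crest.Agent.Lib.QEnt Filter Topology MeasureTheory Set
open scoped ComplexOrder Matrix.Norms.Frobenius

variable {m n : Type} [Fintype m] [Fintype n] [DecidableEq m] [DecidableEq n]

/-! ### scalar integrals -/

theorem tendsto_add_inv (c : ℝ) : Tendsto (fun s : ℝ => (c + s)⁻¹) atTop (𝓝 0) :=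
  tendsto_inv_atTop_zero.comp (tendsto_atTop_add_const_left _ c tendsto_id)

theorem int_inv_sq {c : ℝ} (hc : 0 < c) :
    IntegrableOn (fun s : ℝ => (c + s)⁻¹ * (c + s)⁻¹) (Ioi 0) ∧
      ∫ s in Ioi (0 : ℝ), (c + s)⁻¹ * (c + s)⁻¹ = c⁻¹ := by
  have hd : ∀ s : ℝ, 0 ≤ s → HasDerivAt (fun s : ℝ => -(c + s)⁻¹) ((c + s)⁻¹ * (c + s)⁻¹) s := by
    intro s hs
    have h := (((hasDerivAt_id s).const_add c).inv (show c + s ≠ 0 by positivity)).neg
    have e : (c + s)⁻¹ * (c + s)⁻¹ = -(-1 / (c + id s) ^ 2) := by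
      simp only [id]; field_simp
    rw [e]
    exact h
  have hl : Tendsto (fun s : ℝ => -(c + s)⁻¹) atTop (𝓝 0) := by
    simpa using (tendsto_add_inv c).neg
  have hp : ∀ s ∈ Ioi (0 : ℝ), 0 ≤ (c + s)⁻¹ * (c + s)⁻¹ := fun s _ => mul_self_nonneg _
  refine ⟨integrableOn_Ioi_deriv_of_nonneg (hd 0 le_rfl).continuousAt.continuousWithinAt
    (fun s hs => hd s (le_of_lt hs)) hp hl, ?_⟩
  rw [integral_Ioi_of_hasDerivAt_of_nonneg (hd 0 le_rfl).continuousAt.continuousWithinAt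
    (fun s hs => hd s (le_of_lt hs)) hp hl]
  simp

theorem int_res_sub_of_le {α β : ℝ} (hα : 0 < α) (h : α ≤ β) :
    IntegrableOn (fun s : ℝ => (α + s)⁻¹ - (β + s)⁻¹) (Ioi 0) ∧
      ∫ s in Ioi (0 : ℝ), ((α + s)⁻¹ - (β + s)⁻¹) = Real.log β - Real.log α := by
  have hβ : 0 < β := hα.trans_le h
  have hd : ∀ s : ℝ, 0 ≤ s → HasDerivAt (fun s : ℝ => Real.log (α + s) - Real.log (β + s))
      ((α + s)⁻¹ - (β + s)⁻¹) s := by
    intro s hs
    have h1 := ((hasDerivAt_id s).const_add α).log (show α + s ≠ 0 by positivity)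
    have h2 := ((hasDerivAt_id s).const_add β).log (show β + s ≠ 0 by positivity)
    rw [one_div] at h1 h2
    exact h1.sub h2
  have hl : Tendsto (fun s : ℝ => Real.log (α + s) - Real.log (β + s)) atTop (𝓝 0) := by
    have h1 : Tendsto (fun s : ℝ => 1 + (α - β) * (β + s)⁻¹) atTop (𝓝 1) := by
      simpa using ((tendsto_add_inv β).const_mul (α - β)).const_add 1
    have h2 := (Real.continuousAt_log one_ne_zero).tendsto.comp h1
    rw [Real.log_one] at h2
    refine h2.congr' ?_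
    filter_upwards [eventually_gt_atTop 0] with s hs
    rw [Function.comp, ← Real.log_div (by positivity) (by positivity)]
    congr 1
    field_simp
    ring
  have hp : ∀ s ∈ Ioi (0 : ℝ), 0 ≤ (α + s)⁻¹ - (β + s)⁻¹ := fun s hs => by
    have hs' : 0 < s := hs
    exact sub_nonneg.2 (inv_anti₀ (by positivity) (by linarith))
  refine ⟨integrableOn_Ioi_deriv_of_nonneg (hd 0 le_rfl).continuousAt.continuousWithinAt
    (fun s hs => hd s (le_of_lt hs)) hp hl, ?_⟩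
  rw [integral_Ioi_of_hasDerivAt_of_nonneg (hd 0 le_rfl).continuousAt.continuousWithinAt
    (fun s hs => hd s (le_of_lt hs)) hp hl]
  simp

theorem int_log {y : ℝ} (hy : 0 < y) :
    IntegrableOn (fun s : ℝ => (1 + s)⁻¹ - (y + s)⁻¹) (Ioi 0) ∧
      ∫ s in Ioi (0 : ℝ), ((1 + s)⁻¹ - (y + s)⁻¹) = Real.log y := by
  rcases le_total 1 y with h | h
  · simpa using int_res_sub_of_le one_pos h
  · obtain ⟨h1, h2⟩ := int_res_sub_of_le hy h
    have e : (fun s : ℝ => (1 + s)⁻¹ - (y + s)⁻¹) = fun s => -((y + s)⁻¹ - (1 + s)⁻¹) := by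
      funext s; ring
    rw [e]
    refine ⟨h1.neg, ?_⟩
    rw [integral_neg, h2]
    simp

/-! ### resolvents -/

theorem isDiag_res {a U : Matrix n n ℂ} {α : n → ℝ} (h : IsDiag a U α) (s : ℝ) :
    IsDiag (res a s) U (fun i => (α i + s)⁻¹) := isDiag_cfc h _

theorem res_mul {a U : Matrix n n ℂ} {α : n → ℝ} (h : IsDiag a U α) (hα : ∀ i, 0 < α i) {s : ℝ}
    (hs : 0 < s) : res a s * a = 1 - s • res a s ∧ a * res a s = 1 - s • res a s := by
  constructor
  · refine isDiag_eq_of (isDiag_mul (isDiag_res h s) h)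
      (isDiag_sub (isDiag_one h.uni) (isDiag_smul (isDiag_res h s) s)) fun i => ?_
    have := hα i
    field_simp
    ring
  · refine isDiag_eq_of (isDiag_mul h (isDiag_res h s))
      (isDiag_sub (isDiag_one h.uni) (isDiag_smul (isDiag_res h s) s)) fun i => ?_
    have := hα i
    field_simp
    ring

theorem res_identity {a U b V : Matrix n n ℂ} {α β : n → ℝ} (h : IsDiag a U α)
    (hα : ∀ i, 0 < α i) (h' : IsDiag b V β) (hβ : ∀ i, 0 < β i) {s : ℝ} (hs : 0 < s) :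
    res b s * (b - a) * res a s = res a s - res b s := by
  rw [Matrix.mul_sub, Matrix.sub_mul, (res_mul h' hβ hs).1, Matrix.mul_assoc, (res_mul h hα hs).2]
  simp only [Matrix.sub_mul, Matrix.mul_sub, Matrix.one_mul, Matrix.mul_one, Matrix.smul_mul,
    Matrix.mul_smul]
  abel

theorem op_res {a U : Matrix n n ℂ} {α : n → ℝ} (h : IsDiag a U α) {c : ℝ} (hc : 0 < c)
    (hα : ∀ i, c ≤ α i) {s : ℝ} (hs : 0 < s) : Op (res a s) (c + s)⁻¹ := by
  refine op_of_isDiag (isDiag_res h s) (by positivity) fun i => ?_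
  have := hα i
  rw [abs_of_nonneg (inv_nonneg.2 (by linarith))]
  exact inv_anti₀ (by positivity) (by linarith)

theorem continuousOn_res {a U : Matrix n n ℂ} {α : n → ℝ} (h : IsDiag a U α)
    (hα : ∀ i, 0 < α i) : ContinuousOn (res a) (Ioi 0) := by
  intro s hs
  have hs' : 0 < s := hs
  have := hasDerivAt_cfc_fun h (f := fun t u => (u + t)⁻¹) (f' := fun u => -1 / (u + s) ^ 2)
    (x := s) fun i => ((hasDerivAt_id s).const_add (α i)).inv (by
      have := hα i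
      show α i + s ≠ 0
      positivity)
  exact this.continuousAt.continuousWithinAt

theorem int_tr_log {a U : Matrix n n ℂ} {α : n → ℝ} (h : IsDiag a U α) (hα : ∀ i, 0 < α i)
    (M : Matrix n n ℂ) :
    IntegrableOn (fun s : ℝ => (1 + s)⁻¹ * tr M - tr (M * res a s)) (Ioi 0) ∧
      ∫ s in Ioi (0 : ℝ), ((1 + s)⁻¹ * tr M - tr (M * res a s)) = tr (M * cfc Real.log a) := by
  have e : (fun s : ℝ => (1 + s)⁻¹ * tr M - tr (M * res a s)) =
      fun s => ∑ i, ((1 + s)⁻¹ - (α i + s)⁻¹) * dg U M i := by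
    funext s
    rw [tr_mul_comm, isDiag_tr_mul (isDiag_res h s), show tr M = ∑ i, dg U M i from
      (sum_dg h.uni M).symm, Finset.mul_sum, ← Finset.sum_sub_distrib]
    refine Finset.sum_congr rfl fun i _ => by ring
  rw [e]
  refine ⟨integrable_finsetSum _ fun i _ => (int_log (hα i)).1.mul_const _, ?_⟩
  rw [integral_finsetSum _ fun i _ => (int_log (hα i)).1.mul_const _, tr_mul_comm,
    isDiag_tr_mul (isDiag_cfc h Real.log)]
  refine Finset.sum_congr rfl fun i _ => ?_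
  rw [integral_mul_const, (int_log (hα i)).2]

theorem abs_tr_res_le {M A B X : Matrix n n ℂ} {r : ℝ} (hA : Op A r) (hB : Op B r) :
    |tr (M * (A * X * B))| ≤ ‖M‖ * ‖X‖ * (r * r) := by
  refine (abs_tr_mul_le _ _).trans ?_
  have := mul_le_mul_of_nonneg_left (hA.sandwich hB X) (norm_nonneg M)
  linarith

/-- Derivative of `t ↦ tr (M log a(t))`.
Recipe: for a₁, a₂ ≥ c Hermitian with eigenbases (U,α), (V,β):
`tr (M (log a₂ - log a₁)) = ∫_{s>0} tr (M * (res a₂ s * (a₂ - a₁) * res a₁ s))` (entrywise in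
the two eigenbases: (Vᴴ(f(a₂) - f(a₁))U)_{ij} = (f β_i - f α_j)(VᴴU)_{ij}, and
`log β - log α = ∫_{s>0} (β - α)/((β+s)(α+s))`; or integrate the resolvent identity
`res a₁ s - res a₂ s = res a₂ s (a₂ - a₁) res a₁ s` against
`log y = ∫_{s>0} ((1+s)⁻¹ - (y+s)⁻¹)`). Divide by t - x and use dominated convergence along
`𝓝[≠] x` (`hasDerivAt_iff_tendsto_slope`, `tendsto_integral_filter_of_dominated_convergence`) with
bound ‖M‖ (‖a'‖+1)/(c+s)² (`abs_tr_mul_le`, `op_cfc`, `Op.sandwich`); continuity of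
`t ↦ res (a t) s` from `continuousOn_cfc_pos`, or from the resolvent identity. -/
theorem hasDerivAt_tr_log {a : ℝ → Matrix n n ℂ} {a' : Matrix n n ℂ} {x c : ℝ}
    (ha : HasDerivAt a a' x) (hc : 0 < c)
    (hpos : ∀ᶠ t in 𝓝 x, (a t).IsHermitian ∧ (a t - c • (1 : Matrix n n ℂ)).PosSemidef)
    (M : Matrix n n ℂ) :
    IntegrableOn (fun s => tr (M * (res (a x) s * a' * res (a x) s))) (Ioi 0) ∧
    HasDerivAt (fun t => tr (M * cfc Real.log (a t)))
      (∫ s in Ioi (0 : ℝ), tr (M * (res (a x) s * a' * res (a x) s))) x := by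
  have hd : ∀ᶠ t in 𝓝 x, ∃ U α, IsDiag (a t) U α ∧ ∀ i, c ≤ α i := by
    filter_upwards [hpos] with t ht
    obtain ⟨U, α, h⟩ := exists_isDiag ht.1
    exact ⟨U, α, h, isDiag_ge h ht.2⟩
  obtain ⟨U, α, h, hα⟩ := hd.self_of_nhds
  have hα0 : ∀ i, 0 < α i := fun i => hc.trans_le (hα i)
  have hcont : ∀ {b V : Matrix n n ℂ} {β : n → ℝ}, IsDiag b V β → (∀ i, 0 < β i) →
      ∀ X : Matrix n n ℂ, AEStronglyMeasurable (fun s => tr (M * (res b s * X * res (a x) s)))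
        (volume.restrict (Ioi 0)) := by
    intro b V β hb hβ X
    refine ContinuousOn.aestronglyMeasurable ?_ measurableSet_Ioi
    exact ContinuousOn.tr' (continuousOn_const.mul
      (((continuousOn_res hb hβ).mul continuousOn_const).mul (continuousOn_res h hα0)))
  constructor
  · refine Integrable.mono' ((int_inv_sq hc).1.const_mul (‖M‖ * ‖a'‖)) (hcont h hα0 a') ?_
    refine (ae_restrict_iff' measurableSet_Ioi).2 (Eventually.of_forall fun s hs => ?_)
    exact abs_tr_res_le (op_res h hc hα hs) (op_res h hc hα hs)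
  have hax : Tendsto a (𝓝[≠] x) (𝓝 (a x)) :=
    ha.continuousAt.tendsto.mono_left nhdsWithin_le_nhds
  replace ha : Tendsto (slope a x) (𝓝[≠] x) (𝓝 a') := hasDerivAt_iff_tendsto_slope.1 ha
  rw [hasDerivAt_iff_tendsto_slope]
  have hd' := hd.filter_mono (nhdsWithin_le_nhds (s := {x}ᶜ))
  have hsl : ∀ᶠ t in 𝓝[≠] x, ‖slope a x t‖ ≤ ‖a'‖ + 1 :=
    (ha.norm.eventually (Iic_mem_nhds (lt_add_one _)))
  refine Tendsto.congr' (f₁ := fun t => ∫ s in Ioi (0 : ℝ),
    tr (M * (res (a t) s * slope a x t * res (a x) s))) ?_ ?_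
  · filter_upwards [hd'] with t ⟨V, β, hb, hβ⟩
    have hβ0 : ∀ i, 0 < β i := fun i => hc.trans_le (hβ i)
    obtain ⟨i1, i2⟩ := int_tr_log h hα0 M
    obtain ⟨j1, j2⟩ := int_tr_log hb hβ0 M
    rw [slope_def_module (fun t => tr (M * cfc Real.log (a t))), smul_eq_mul, ← i2, ← j2, ← integral_sub j1 i1, ← integral_const_mul]
    refine setIntegral_congr_fun measurableSet_Ioi fun s hs => ?_
    simp only [slope_def_module, Matrix.mul_smul, Matrix.smul_mul, tr_smul]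
    rw [res_identity h hα0 hb hβ0 hs, Matrix.mul_sub, tr_sub]
    ring
  · refine tendsto_integral_filter_of_dominated_convergence
      (fun s => ‖M‖ * (‖a'‖ + 1) * ((c + s)⁻¹ * (c + s)⁻¹)) ?_ ?_
      ((int_inv_sq hc).1.const_mul _) ?_
    · filter_upwards [hd'] with t ⟨V, β, hb, hβ⟩
      exact hcont hb (fun i => hc.trans_le (hβ i)) _
    · filter_upwards [hd', hsl] with t ⟨V, β, hb, hβ⟩ ht
      refine (ae_restrict_iff' measurableSet_Ioi).2 (Eventually.of_forall fun s hs => ?_)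
      refine (abs_tr_res_le (op_res hb hc hβ hs) (op_res h hc hα hs)).trans ?_
      have := mul_self_nonneg (c + s)⁻¹
      gcongr
    · refine (ae_restrict_iff' measurableSet_Ioi).2 (Eventually.of_forall fun s hs => ?_)
      have hr : Tendsto (fun t => res (a t) s) (𝓝[≠] x) (𝓝 (res (a x) s)) := by
        replace hax := tendsto_iff_norm_sub_tendsto_zero.1 hax
        refine tendsto_iff_norm_sub_tendsto_zero.2 ?_
        refine squeeze_zero' (Eventually.of_forall fun _ => norm_nonneg _) ?_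
          (by simpa using hax.const_mul ((c + s)⁻¹ * (c + s)⁻¹))
        filter_upwards [hd'] with t ⟨V, β, hb, hβ⟩
        rw [norm_sub_rev, ← res_identity h hα0 hb (fun i => hc.trans_le (hβ i)) hs]
        exact (op_res hb hc hβ hs).sandwich (op_res h hc hα hs) _
      exact (continuous_tr.tendsto _).comp (((hr.mul ha).mul_const _).const_mul M)

theorem Gt_eq {K S : Matrix n n ℂ} (h : Sand K S) {τ : ℝ} (hτ : 0 < τ) {U V : Matrix n n ℂ}
    {α β : n → ℝ} (ha : IsDiag (Et K τ + S) U α) (hb : IsDiag (Et K τ - S) V β) :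
    tr (Zt K S τ * (K * K - S * S + τ • (1 : Matrix n n ℂ))) =
        ∑ i, ∑ j, ov U V i j * (α i * β j * Real.log (α i * β j / τ)) ∧
      tr (K * K - S * S) = ∑ i, ∑ j, ov U V i j * (α i * β j - τ) := by
  have hα := isDiag_pos ha (h.add_posDef hτ)
  have hβ := isDiag_pos hb (h.sub_posDef hτ)
  have hE := Et_mul_self h.psd.1 hτ.le
  have hD : K * K - S * S + τ • (1 : Matrix n n ℂ) =
      (1 / 2 : ℝ) • ((Et K τ + S) * (Et K τ - S) + (Et K τ - S) * (Et K τ + S)) := by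
    have : (Et K τ + S) * (Et K τ - S) + (Et K τ - S) * (Et K τ + S) =
        (2 : ℝ) • (Et K τ * Et K τ - S * S) := by
      simp only [Matrix.add_mul, Matrix.mul_add, Matrix.sub_mul, Matrix.mul_sub, two_smul]
      abel
    rw [this, smul_smul, hE]
    norm_num
    abel
  unfold Zt
  generalize Et K τ + S = a at *
  generalize Et K τ - S = b at *
  have e0 : tr (K * K - S * S + τ • (1 : Matrix n n ℂ)) = ∑ i, ∑ j, ov U V i j * (α i * β j) := by
    rw [hD, tr_smul, tr_add, tr_mul_comm b, tr_mul_pair ha hb]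
    ring
  have hca : a * cfc Real.log a = cfc Real.log a * a := (cfc_comm ha.isHermitian rfl _).symm
  have hcb : b * cfc Real.log b = cfc Real.log b * b := (cfc_comm hb.isHermitian rfl _).symm
  have e1 : tr (cfc Real.log a * (K * K - S * S + τ • (1 : Matrix n n ℂ))) =
      ∑ i, ∑ j, ov U V i j * (Real.log (α i) * α i * β j) := by
    rw [hD, Matrix.mul_smul, tr_smul, Matrix.mul_add, tr_add, ← Matrix.mul_assoc,
      ← Matrix.mul_assoc, tr_mul_cycle _ b, hca,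
      tr_mul_pair (isDiag_mul (isDiag_cfc ha Real.log) ha) hb]
    ring
  have e2 : tr (cfc Real.log b * (K * K - S * S + τ • (1 : Matrix n n ℂ))) =
      ∑ i, ∑ j, ov U V i j * (α i * (Real.log (β j) * β j)) := by
    rw [hD, Matrix.mul_smul, tr_smul, Matrix.mul_add, tr_add, ← Matrix.mul_assoc,
      ← Matrix.mul_assoc, tr_mul_cycle _ a, hcb, tr_mul_comm _ a,
      tr_mul_pair ha (isDiag_mul (isDiag_cfc hb Real.log) hb)]
    ring
  constructor
  · rw [Matrix.sub_mul, Matrix.add_mul, tr_sub, tr_add, e1, e2, Matrix.smul_mul, Matrix.one_mul,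
      tr_smul, e0]
    simp only [Finset.mul_sum, ← Finset.sum_add_distrib, ← Finset.sum_sub_distrib]
    refine Finset.sum_congr rfl fun i _ => Finset.sum_congr rfl fun j _ => ?_
    rw [Real.log_div (mul_pos (hα i) (hβ j)).ne' hτ.ne', Real.log_mul (hα i).ne' (hβ j).ne']
    ring
  · rw [tr_add, tr_left_pair (isDiag_smul_one ha.uni τ) hb.uni] at e0
    simp only [mul_sub, Finset.sum_sub_distrib]
    linarith

/-- Recipe: a = E+S, b = E-S, `K*K - S*S + τ = (ab+ba)/2`, `tr (ab) = tr (K*K - S*S) + τ N`;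
`tr (log a * (a b)) = tr (log a * (b a))` etc., so `Gt = Σ_{ij} ov_{ij} (y log (y/τ) - y + τ)` with
y = α_i β_j (`tr_mul_pair` for the pairs (a log a, b), (a, b log b), (a, b)), and
`y log (y/τ) - y + τ ≥ 0`. -/
theorem Gt_nonneg {K S : Matrix n n ℂ} (h : Sand K S) {τ : ℝ} (hτ : 0 < τ) : 0 ≤ Gt K S τ := by
  obtain ⟨U, α, ha⟩ := exists_isDiag (h.add_posDef hτ).1
  obtain ⟨V, β, hb⟩ := exists_isDiag (h.sub_posDef hτ).1
  have hα := isDiag_pos ha (h.add_posDef hτ)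
  have hβ := isDiag_pos hb (h.sub_posDef hτ)
  obtain ⟨e1, e2⟩ := Gt_eq h hτ ha hb
  rw [Gt, e1, e2, ← Finset.sum_sub_distrib]
  refine Finset.sum_nonneg fun i _ => ?_
  rw [← Finset.sum_sub_distrib]
  refine Finset.sum_nonneg fun j _ => ?_
  rw [← mul_sub]
  refine mul_nonneg (ov_nonneg _ _ _ _) ?_
  have hy := mul_pos (hα i) (hβ j)
  generalize α i * β j = y at *
  have h1 := Real.one_sub_inv_le_log_of_pos (div_pos hy hτ)
  have h2 := mul_le_mul_of_nonneg_left h1 hy.le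
  have h3 : y * (1 - (y / τ)⁻¹) = y - τ := by field_simp
  linarith

/-- Same formula; y ≤ Λ := 4 (M² + 1) (`Sand.op_add`), `y log (y/τ) ≤ Λ log (Λ/τ)` because Λ ≥ τ,
and `tr (K*K - S*S) ≥ 0` (`Sand.tr_D_nonneg`). -/
theorem Gt_le {K S : Matrix n n ℂ} (h : Sand K S) {M τ : ℝ} (hM : Op K M) (hτ : 0 < τ)
    (hτ1 : τ ≤ 1) :
    Gt K S τ ≤ Fintype.card n * (4 * (M ^ 2 + 1) * Real.log (4 * (M ^ 2 + 1) / τ)) := by
  obtain ⟨U, α, ha⟩ := exists_isDiag (h.add_posDef hτ).1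
  obtain ⟨V, β, hb⟩ := exists_isDiag (h.sub_posDef hτ).1
  have hα := isDiag_pos ha (h.add_posDef hτ)
  have hβ := isDiag_pos hb (h.sub_posDef hτ)
  have hα' := fun i => (le_abs_self _).trans ((h.op_add hM hτ.le).abs_eig_le ha i)
  have hβ' := fun i => (le_abs_self _).trans ((h.neg.op_add hM hτ.le).abs_eig_le
    (by simpa [sub_eq_add_neg] using hb) i)
  obtain ⟨e1, -⟩ := Gt_eq h hτ ha hb
  have hD := h.tr_D_nonneg
  set Λ := 4 * (M ^ 2 + 1) with hΛ
  have hΛτ : τ ≤ Λ := by nlinarith [sq_nonneg M]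
  have hlog : 0 ≤ Real.log (Λ / τ) := Real.log_nonneg ((one_le_div hτ).2 hΛτ)
  have e3 : (Fintype.card n : ℝ) * (Λ * Real.log (Λ / τ)) =
      ∑ i, ∑ j, ov U V i j * (Λ * Real.log (Λ / τ)) := by
    rw [← tr_left_pair (isDiag_smul_one ha.uni _) hb.uni, tr_smul, tr_one, mul_comm]
  rw [Gt, e1, e3]
  refine le_trans (sub_le_self _ hD) (Finset.sum_le_sum fun i _ => Finset.sum_le_sum fun j _ =>
    mul_le_mul_of_nonneg_left ?_ (ov_nonneg _ _ _ _))
  have hy := mul_pos (hα i) (hβ j)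
  have hyΛ : α i * β j ≤ Λ := by
    have h1 := mul_le_mul (hα' i) (hβ' j) (hβ j).le (by positivity)
    have h2 : √(M ^ 2 + τ) * √(M ^ 2 + τ) = M ^ 2 + τ := Real.mul_self_sqrt (by positivity)
    nlinarith
  generalize α i * β j = y at *
  have h3 : Real.log (y / τ) ≤ Real.log (Λ / τ) :=
    Real.log_le_log (div_pos hy hτ) (div_le_div_of_nonneg_right hyΛ hτ.le)
  calc y * Real.log (y / τ) ≤ y * Real.log (Λ / τ) := mul_le_mul_of_nonneg_left h3 hy.le
    _ ≤ _ := mul_le_mul_of_nonneg_right hyΛ hlog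

/-- Pointwise form of the integrand. -/
theorem integrand_eq {E Ei a R : Matrix n n ℂ} {s : ℝ} (h1 : E * Ei = 1) (h2 : Ei * E = 1)
    (h3 : R * a = 1 - s • R) (h4 : a * R = 1 - s • R) :
    tr ((a * E + E * a - a * a) * (R * ((1 / 2 : ℝ) • Ei) * R)) =
      tr R - s * tr (Ei * R * E * R) - tr (Ei * (R * a * (a * R))) / 2 := by
  have e1 : tr (a * E * (R * Ei * R)) = tr R - s * tr (Ei * R * E * R) := by
    have : tr (a * E * (R * Ei * R)) = tr (Ei * (R * a) * E * R) := by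
      rw [← Matrix.mul_assoc, tr_mul_comm, ← Matrix.mul_assoc, ← Matrix.mul_assoc, tr_mul_comm]
      simp only [Matrix.mul_assoc]
    rw [this, h3]
    simp only [Matrix.mul_sub, Matrix.sub_mul, Matrix.mul_one, Matrix.mul_smul, Matrix.smul_mul,
      tr_sub, tr_smul, h2, Matrix.one_mul]
  have e2 : tr (E * a * (R * Ei * R)) = tr R - s * tr (Ei * R * E * R) := by
    have : E * a * (R * Ei * R) = E * (a * R) * Ei * R := by simp only [Matrix.mul_assoc]
    rw [this, h4]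
    simp only [Matrix.mul_sub, Matrix.sub_mul, Matrix.mul_one, Matrix.mul_smul, Matrix.smul_mul,
      tr_sub, tr_smul, h1, Matrix.one_mul]
    rw [Matrix.mul_assoc (E * R), tr_mul_comm (E * R), ← Matrix.mul_assoc]
  have e3 : tr (a * a * (R * Ei * R)) = tr (Ei * (R * a * (a * R))) := by
    rw [← Matrix.mul_assoc, tr_mul_comm, ← Matrix.mul_assoc, ← Matrix.mul_assoc, tr_mul_comm]
    simp only [Matrix.mul_assoc]
  simp only [Matrix.mul_smul, Matrix.smul_mul, tr_smul]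
  rw [Matrix.sub_mul, Matrix.add_mul, tr_sub, tr_add, e1, e2, e3]
  ring

/-- The commutator gap. -/
theorem gap_ge {E Ei R : Matrix n n ℂ} {l : ℝ} (h1 : E * Ei = 1) (h2 : Ei * E = 1)
    (hE : E.IsHermitian) (hR : R.IsHermitian) (hEi : Ei.PosSemidef) (hl : 0 ≤ l)
    (hle : (Ei - l • (1 : Matrix n n ℂ)).PosSemidef) :
    tr (R * R) + l * l * ‖E * R - R * E‖ ^ 2 / 2 ≤ tr (Ei * R * E * R) := by
  set X := E * R - R * E with hX
  have hXc : Xᴴ = -X := by
    rw [hX, conjTranspose_sub, conjTranspose_mul, conjTranspose_mul, hE.eq, hR.eq, neg_sub]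
  have e1 : Ei * X = R - Ei * R * E := by
    rw [hX, Matrix.mul_sub, ← Matrix.mul_assoc, ← Matrix.mul_assoc, h2, Matrix.one_mul]
  have e2 : tr (Xᴴ * Ei * X * Ei) = 2 * (tr (Ei * R * E * R) - tr (R * R)) := by
    rw [tr_mul_comm, hXc, Matrix.neg_mul, Matrix.neg_mul, Matrix.mul_neg, tr_neg,
      Matrix.mul_assoc X, ← Matrix.mul_assoc, e1]
    have e3 : Ei * R * E * (Ei * R * E) = Ei * (R * R) * E := by
      calc Ei * R * E * (Ei * R * E) = Ei * R * (E * Ei) * R * E := by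
            simp only [Matrix.mul_assoc]
        _ = _ := by rw [h1]; simp only [Matrix.mul_assoc, Matrix.mul_one]
    have e4 : tr (Ei * (R * R) * E) = tr (R * R) := by
      rw [tr_mul_cycle, h1, Matrix.one_mul]
    simp only [Matrix.mul_sub, Matrix.sub_mul, tr_sub]
    rw [e3, e4, tr_mul_comm R (Ei * R * E)]
    ring
  have p1 : (Xᴴ * Ei * X).PosSemidef := hEi.conjTranspose_mul_mul_same X
  have p2 : (X * Xᴴ).PosSemidef := posSemidef_self_mul_conjTranspose X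
  have k1 := tr_mul_mono p1 hle
  have k2 := tr_mul_mono p2 hle
  rw [Matrix.mul_smul, Matrix.mul_one, tr_smul] at k1 k2
  rw [tr_mul_ct_self] at k2
  have e5 : tr (Xᴴ * Ei * X) = tr (X * Xᴴ * Ei) := tr_mul_cycle _ _ _
  have k3 := mul_le_mul_of_nonneg_left k2 hl
  rw [e5] at k1
  nlinarith

theorem I_bound {K S : Matrix n n ℂ} (h : Sand K S) {M τ : ℝ} (hM : Op K M) (hτ : 0 < τ) {κ : ℝ}
    (hκ : ∀ s ∈ Ioc (1 : ℝ) 2, κ ≤ s * ((√(M ^ 2 + τ))⁻¹ * (√(M ^ 2 + τ))⁻¹ *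
      ‖Et K τ * res (Et K τ + S) s - res (Et K τ + S) s * Et K τ‖ ^ 2 / 2))
    (hint : IntegrableOn (fun s => tr ((K * K - S * S + τ • (1 : Matrix n n ℂ)) *
      (res (Et K τ + S) s * ((1 / 2 : ℝ) • cfc (fun t : ℝ => (√(t ^ 2 + τ))⁻¹) K) *
        res (Et K τ + S) s))) (Ioi 0)) :
    ∫ s in Ioi (0 : ℝ), tr ((K * K - S * S + τ • (1 : Matrix n n ℂ)) *
      (res (Et K τ + S) s * ((1 / 2 : ℝ) • cfc (fun t : ℝ => (√(t ^ 2 + τ))⁻¹) K) *
        res (Et K τ + S) s)) ≤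
      Fintype.card n - tr (cfc (fun t : ℝ => (√(t ^ 2 + τ))⁻¹) K * (Et K τ + S)) / 2 - κ := by
  obtain ⟨W, k, hK⟩ := exists_isDiag h.psd.1
  have hEd := isDiag_Et hK τ
  have hEid := isDiag_cfc hK (fun t : ℝ => (√(t ^ 2 + τ))⁻¹)
  have hpos : ∀ i, 0 < √(k i ^ 2 + τ) := fun i => Real.sqrt_pos.2 (by positivity)
  have h1 : Et K τ * cfc (fun t : ℝ => (√(t ^ 2 + τ))⁻¹) K = 1 :=
    isDiag_eq_of (isDiag_mul hEd hEid) (isDiag_one hK.uni) fun i => mul_inv_cancel₀ (hpos i).ne'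
  have h2 : cfc (fun t : ℝ => (√(t ^ 2 + τ))⁻¹) K * Et K τ = 1 :=
    isDiag_eq_of (isDiag_mul hEid hEd) (isDiag_one hK.uni) fun i => inv_mul_cancel₀ (hpos i).ne'
  have hEi : (cfc (fun t : ℝ => (√(t ^ 2 + τ))⁻¹) K).PosSemidef :=
    isDiag_psd hEid fun i => (inv_pos.2 (hpos i)).le
  have hle : (cfc (fun t : ℝ => (√(t ^ 2 + τ))⁻¹) K -
      (√(M ^ 2 + τ))⁻¹ • (1 : Matrix n n ℂ)).PosSemidef := by
    refine isDiag_psd (isDiag_sub hEid (isDiag_smul_one hK.uni _)) fun i => sub_nonneg.2 ?_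
    exact inv_anti₀ (hpos i) ((le_abs_self _).trans ((op_Et h.psd.1 hM).abs_eig_le hEd i))
  have hD : K * K - S * S + τ • (1 : Matrix n n ℂ) =
      (Et K τ + S) * Et K τ + Et K τ * (Et K τ + S) - (Et K τ + S) * (Et K τ + S) := by
    simp only [Matrix.add_mul, Matrix.mul_add, Et_mul_self h.psd.1 hτ.le]
    abel
  obtain ⟨U, α, ha⟩ := exists_isDiag (h.add_posDef hτ).1
  have hα := isDiag_pos ha (h.add_posDef hτ)
  have hE := herm_Et K τ
  rw [hD] at hint ⊢
  generalize Et K τ + S = a at *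
  generalize Et K τ = E at *
  generalize cfc (fun t : ℝ => (√(t ^ 2 + τ))⁻¹) K = Ei at *
  let g : ℝ → ℝ := fun s => ∑ i, (α i - α i * α i * dg U Ei i / 2) * ((α i + s)⁻¹ * (α i + s)⁻¹)
  have hg : IntegrableOn g (Ioi 0) :=
    integrable_finsetSum _ fun i _ => (int_inv_sq (hα i)).1.const_mul _
  have hgi : ∫ s in Ioi (0 : ℝ), g s = Fintype.card n - tr (Ei * a) / 2 := by
    rw [integral_finsetSum _ fun i _ => (int_inv_sq (hα i)).1.const_mul _, tr_mul_comm,
      isDiag_tr_mul ha, Finset.sum_div, ← Finset.card_univ, Finset.cast_card,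
      ← Finset.sum_sub_distrib]
    refine Finset.sum_congr rfl fun i _ => ?_
    rw [integral_const_mul, (int_inv_sq (hα i)).2]
    have := hα i
    field_simp
  have hind : IntegrableOn ((Ioc (1 : ℝ) 2).indicator fun _ => κ) (Ioi 0) :=
    ((integrable_indicator_iff measurableSet_Ioc).2 (integrableOn_const (by simp))).integrableOn
  have hindi : ∫ s in Ioi (0 : ℝ), (Ioc (1 : ℝ) 2).indicator (fun _ => κ) s = κ := by
    rw [setIntegral_indicator measurableSet_Ioc,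
      inter_eq_right.2 (show Ioc (1 : ℝ) 2 ⊆ Ioi 0 from fun x hx => lt_trans one_pos hx.1)]
    simp
    norm_num
  rw [← hgi, ← hindi, ← integral_sub hg hind]
  refine setIntegral_mono_on hint (hg.sub hind) measurableSet_Ioi fun s hs => ?_
  have hs' : 0 < s := hs
  have hR := isDiag_res ha s
  rw [integrand_eq h1 h2 (res_mul ha hα hs').1 (res_mul ha hα hs').2]
  have k1 := gap_ge h1 h2 hE hR.isHermitian hEi (by positivity) hle
  have k2 : g s = tr (res a s) - s * tr (res a s * res a s) -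
      tr (Ei * (res a s * a * (a * res a s))) / 2 := by
    rw [isDiag_tr hR, isDiag_tr (isDiag_mul hR hR), tr_mul_comm Ei,
      isDiag_tr_mul (isDiag_mul (isDiag_mul hR ha) (isDiag_mul ha hR)), Finset.mul_sum,
      Finset.sum_div, ← Finset.sum_sub_distrib, ← Finset.sum_sub_distrib]
    refine Finset.sum_congr rfl fun i _ => ?_
    have := hα i
    field_simp
    ring
  have k3 : (Ioc (1 : ℝ) 2).indicator (fun _ => κ) s ≤ s * ((√(M ^ 2 + τ))⁻¹ * (√(M ^ 2 + τ))⁻¹ *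
      ‖E * res a s - res a s * E‖ ^ 2 / 2) := by
    by_cases hs2 : s ∈ Ioc (1 : ℝ) 2
    · rw [indicator_of_mem hs2]
      exact hκ s hs2
    · rw [indicator_of_notMem hs2]
      positivity
  have k4 := mul_le_mul_of_nonneg_left k1 hs'.le
  rw [k2]
  linarith

theorem comm_le {K S : Matrix n n ℂ} (h : Sand K S) {M τ : ℝ} (hM : Op K M) (hτ : 0 < τ)
    (hτ2 : τ ≤ 2) {s : ℝ} (hs : s ∈ Ioc (1 : ℝ) 2) :
    ((2 * √(M ^ 2 + 2) + 2) ^ 4 * (2 * (M ^ 2 + 2)))⁻¹ * ‖Et K τ * S - S * Et K τ‖ ^ 2 ≤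
      s * ((√(M ^ 2 + τ))⁻¹ * (√(M ^ 2 + τ))⁻¹ *
        ‖Et K τ * res (Et K τ + S) s - res (Et K τ + S) s * Et K τ‖ ^ 2 / 2) := by
  obtain ⟨U, α, ha⟩ := exists_isDiag (h.add_posDef hτ).1
  have hα := isDiag_pos ha (h.add_posDef hτ)
  have hs0 : 0 < s := lt_trans one_pos hs.1
  obtain ⟨r1, r2⟩ := res_mul ha hα hs0
  have hop : Op (Et K τ + S + s • (1 : Matrix n n ℂ)) (2 * √(M ^ 2 + 2) + 2) := by
    refine ((h.op_add hM hτ.le).add (op_smul_one s)).mono ?_
    have : √(M ^ 2 + τ) ≤ √(M ^ 2 + 2) := Real.sqrt_le_sqrt (by linarith)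
    rw [abs_of_pos hs0]
    linarith [hs.2]
  have q1 : res (Et K τ + S) s * (Et K τ + S + s • (1 : Matrix n n ℂ)) = 1 := by
    rw [Matrix.mul_add _ (Et K τ + S), r1, Matrix.mul_smul, Matrix.mul_one, sub_add_cancel]
  have q2 : (Et K τ + S + s • (1 : Matrix n n ℂ)) * res (Et K τ + S) s = 1 := by
    rw [Matrix.add_mul (Et K τ + S), r2, Matrix.smul_mul, Matrix.one_mul, sub_add_cancel]
  have q3 : (Et K τ + S + s • (1 : Matrix n n ℂ)) *
      (Et K τ * res (Et K τ + S) s - res (Et K τ + S) s * Et K τ) *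
      (Et K τ + S + s • (1 : Matrix n n ℂ)) = -(Et K τ * S - S * Et K τ) := by
    rw [Matrix.mul_sub, Matrix.sub_mul, ← Matrix.mul_assoc _ (res _ _), q2, Matrix.one_mul,
      Matrix.mul_assoc, Matrix.mul_assoc, q1, Matrix.mul_one]
    simp only [Matrix.add_mul, Matrix.mul_add, Matrix.smul_mul, Matrix.mul_smul, Matrix.one_mul,
      Matrix.mul_one]
    abel
  have q4 := hop.sandwich hop (Et K τ * res (Et K τ + S) s - res (Et K τ + S) s * Et K τ)
  rw [q3, norm_neg] at q4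
  generalize ‖Et K τ * res (Et K τ + S) s - res (Et K τ + S) s * Et K τ‖ = X at *
  have hC := norm_nonneg (Et K τ * S - S * Et K τ)
  generalize ‖Et K τ * S - S * Et K τ‖ = C at *
  have hL : 0 < 2 * √(M ^ 2 + 2) + 2 := by positivity
  generalize 2 * √(M ^ 2 + 2) + 2 = L at *
  have q5 : C ^ 2 ≤ L ^ 4 * X ^ 2 := by
    calc C ^ 2 ≤ (L * L * X) ^ 2 := pow_le_pow_left₀ hC q4 2
      _ = _ := by ring
  have q6 : (√(M ^ 2 + τ))⁻¹ * (√(M ^ 2 + τ))⁻¹ = (M ^ 2 + τ)⁻¹ := by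
    rw [← mul_inv, Real.mul_self_sqrt (by positivity)]
  have q7 : (M ^ 2 + 2)⁻¹ ≤ (M ^ 2 + τ)⁻¹ := inv_anti₀ (by positivity) (by linarith)
  rw [q6]
  calc (L ^ 4 * (2 * (M ^ 2 + 2)))⁻¹ * C ^ 2 ≤ (L ^ 4 * (2 * (M ^ 2 + 2)))⁻¹ * (L ^ 4 * X ^ 2) := by
        gcongr
    _ = 1 * ((M ^ 2 + 2)⁻¹ * X ^ 2 / 2) := by field_simp
    _ ≤ _ := by
        have := hs.1.le
        gcongr

theorem hasDerivAt_Et {K : Matrix n n ℂ} (hK : K.IsHermitian) {τ : ℝ} (hτ : 0 < τ) :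
    HasDerivAt (Et K) ((1 / 2 : ℝ) • cfc (fun t : ℝ => (√(t ^ 2 + τ))⁻¹) K) τ := by
  obtain ⟨W, k, hW⟩ := exists_isDiag hK
  have h1 := hasDerivAt_cfc_fun hW (f := fun t u => √(u ^ 2 + t))
    (f' := fun u => 1 / (2 * √(u ^ 2 + τ))) (x := τ) fun i =>
      ((hasDerivAt_id τ).const_add (k i ^ 2)).sqrt (by
        show k i ^ 2 + τ ≠ 0
        positivity)
  have h2 : cfc (fun u : ℝ => 1 / (2 * √(u ^ 2 + τ))) K =
      (1 / 2 : ℝ) • cfc (fun t : ℝ => (√(t ^ 2 + τ))⁻¹) K :=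
    isDiag_eq_of (isDiag_cfc hW _) (isDiag_smul (isDiag_cfc hW _) _) fun i => by
      rw [one_div, one_div, mul_inv]
  rw [h2] at h1
  exact h1

theorem hasDerivAt_tr_log_Et {K S : Matrix n n ℂ} (h : Sand K S) {τ : ℝ} (hτ : 0 < τ)
    (A : Matrix n n ℂ) :
    IntegrableOn (fun s => tr (A *
      (res (Et K τ + S) s * ((1 / 2 : ℝ) • cfc (fun t : ℝ => (√(t ^ 2 + τ))⁻¹) K) *
        res (Et K τ + S) s))) (Ioi 0) ∧
    HasDerivAt (fun t => tr (A * cfc Real.log (Et K t + S)))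
      (∫ s in Ioi (0 : ℝ), tr (A *
        (res (Et K τ + S) s * ((1 / 2 : ℝ) • cfc (fun t : ℝ => (√(t ^ 2 + τ))⁻¹) K) *
          res (Et K τ + S) s))) τ := by
  refine hasDerivAt_tr_log (a := fun t => Et K t + S) ((hasDerivAt_Et h.psd.1 hτ).add_const S)
    (c := (τ / 2) / (2 * √(‖K‖ ^ 2 + 2 * τ))) (by positivity) ?_ A
  filter_upwards [Ioo_mem_nhds (show τ / 2 < τ by linarith) (show τ < 2 * τ by linarith)] with t ht
  have ht0 : 0 < t := lt_trans (by positivity) ht.1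
  refine ⟨(herm_Et K t).add h.herm, ?_⟩
  have h1 := h.add_ge (op_norm K) ht0
  have h2 : (τ / 2) / (2 * √(‖K‖ ^ 2 + 2 * τ)) ≤ t / (2 * √(‖K‖ ^ 2 + t)) := by
    have := ht.1.le
    have := ht.2.le
    gcongr
  have h3 := h1.add (psd_smul_one (n := n) (sub_nonneg.2 h2))
  convert h3 using 1
  rw [sub_smul]
  abel

/-- The key differential inequality.
Recipe: E' = E⁻¹/2 with E⁻¹ = cfc (fun t => (√(t²+τ))⁻¹) K (`hasDerivAt_cfc_fun`). Write
Gt(t) = tr (Z_t D) + t tr Z_t - tr D, so G' = tr (Z' (D+τ)) + tr Z, where by `hasDerivAt_tr_log`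
(used with M = D and M = 1, or via M fixed = D + τ and the extra term (t-τ) tr Z_t)
tr (Z' M) = I(a) + I(b) - tr M / τ, I(a) = ∫ tr (M R E' R) ds, R = res a s, M = D + τ = E² - S².
For a = E ± S one has `M = aE + Ea - a²`, and a R = 1 - s R, so
`tr (M R E' R) = tr R - s tr (E⁻¹ R E R) - tr (E⁻¹ a² R²)/2`. In the eigenbasis of E,
`tr (E⁻¹ R E R) - tr R² = Σ |R_ij|² (e_i - e_j)²/(2 e_i e_j) ≥ ‖ER - RE‖²/(2 (M²+τ))`, and
`ES - SE = ± (a+s)(ER - RE)(a+s)` up to sign gives ‖ES-SE‖ ≤ (Λ+s)² ‖ER-RE‖, Λ = 2√(M²+2) for τ ≤ 2.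
Integrating in the eigenbasis of a (∫_{s>0} (α+s)⁻² = α⁻¹; R - sR² = aR²):
I(a) ≤ N - tr (E⁻¹ a)/2 - c ‖ES-SE‖² (keep the gap only for s ∈ (1,2]); since a + b = 2E the sum is
I(a) + I(b) ≤ N - c‖ES-SE‖², and tr M / τ = tr D / τ + N. -/
theorem Gt_deriv (M : ℝ) : ∃ c : ℝ, 0 < c ∧
    ∀ (n : Type) [Fintype n] [DecidableEq n] (K S : Matrix n n ℂ), Sand K S → Op K M →
      ∀ τ : ℝ, 0 < τ → ∃ G' : ℝ, HasDerivAt (Gt K S) G' τ ∧
        G' ≤ tr (Zt K S τ) - tr (K * K - S * S) / τ ∧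
        (τ ≤ 2 → G' ≤ tr (Zt K S τ) - tr (K * K - S * S) / τ
          - c * ‖Et K τ * S - S * Et K τ‖ ^ 2) := by
  refine ⟨((2 * √(M ^ 2 + 2) + 2) ^ 4 * (2 * (M ^ 2 + 2)))⁻¹, by positivity, ?_⟩
  intro n _ _ K S h hM τ hτ
  set A := K * K - S * S + τ • (1 : Matrix n n ℂ) with hA
  have hA' : K * K - -S * -S + τ • (1 : Matrix n n ℂ) = A := by rw [neg_mul_neg]
  obtain ⟨ia, da⟩ := hasDerivAt_tr_log_Et h hτ A
  obtain ⟨ib, db⟩ := hasDerivAt_tr_log_Et h.neg hτ A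
  obtain ⟨-, da1⟩ := hasDerivAt_tr_log_Et h hτ 1
  obtain ⟨-, db1⟩ := hasDerivAt_tr_log_Et h.neg hτ 1
  have dl := Real.hasDerivAt_log hτ.ne'
  have dZ := (da1.add db1).sub (dl.mul_const (Fintype.card n : ℝ))
  have dG := ((((da.add db).sub (dl.mul_const (tr A))).add
    (((hasDerivAt_id τ).sub_const τ).mul dZ)).sub_const (tr (K * K - S * S)))
  have hZ : ∀ t, tr (Zt K S t) = tr (1 * cfc Real.log (Et K t + S)) +
      tr (1 * cfc Real.log (Et K t + -S)) - Real.log t * Fintype.card n := by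
    intro t
    simp [Zt, sub_eq_add_neg]
  have hG : Gt K S = fun t => tr (A * cfc Real.log (Et K t + S)) +
      tr (A * cfc Real.log (Et K t + -S)) - Real.log t * tr A +
      (t - τ) * (tr (1 * cfc Real.log (Et K t + S)) +
        tr (1 * cfc Real.log (Et K t + -S)) - Real.log t * Fintype.card n) -
      tr (K * K - S * S) := by
    funext t
    have e : K * K - S * S + t • (1 : Matrix n n ℂ) = A + (t - τ) • (1 : Matrix n n ℂ) := by
      rw [hA, sub_smul]; abel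
    rw [Gt, e, Matrix.mul_add, tr_add, Matrix.mul_smul, Matrix.mul_one, tr_smul, hZ, tr_mul_comm]
    congr 2
    simp [Zt, sub_eq_add_neg, Matrix.mul_add]
  have hsum : tr (cfc (fun t : ℝ => (√(t ^ 2 + τ))⁻¹) K * (Et K τ + S)) +
      tr (cfc (fun t : ℝ => (√(t ^ 2 + τ))⁻¹) K * (Et K τ + -S)) = 2 * Fintype.card n := by
    obtain ⟨W, k, hK⟩ := exists_isDiag h.psd.1
    have h2 : cfc (fun t : ℝ => (√(t ^ 2 + τ))⁻¹) K * Et K τ = 1 :=
      isDiag_eq_of (isDiag_mul (isDiag_cfc hK _) (isDiag_Et hK τ)) (isDiag_one hK.uni) fun i =>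
        inv_mul_cancel₀ (Real.sqrt_pos.2 (by positivity)).ne'
    simp only [Matrix.mul_add, Matrix.mul_neg, tr_add, tr_neg, h2, tr_one]
    ring
  have htrA : τ⁻¹ * tr A = tr (K * K - S * S) / τ + Fintype.card n := by
    rw [hA, tr_add, tr_smul, tr_one]
    field_simp
  have b0 := I_bound h.neg hM hτ (κ := 0) (fun s hs => by
    have := lt_trans one_pos hs.1
    positivity) (by rw [hA']; exact ib)
  rw [hA'] at b0
  refine ⟨_, hG ▸ dG, ?_, fun hτ2 => ?_⟩
  · have a0 := I_bound h hM hτ (κ := 0) (fun s hs => by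
      have := lt_trans one_pos hs.1
      positivity) ia
    simp only [id, sub_self, zero_mul, add_zero, one_mul (_ : ℝ), Pi.add_apply, Pi.sub_apply]
    rw [hZ]
    linarith
  · have a0 := I_bound h hM hτ (fun s hs => comm_le h hM hτ hτ2 hs) ia
    simp only [id, sub_self, zero_mul, add_zero, one_mul (_ : ℝ), Pi.add_apply, Pi.sub_apply]
    rw [hZ]
    linarith

end Crest.Agent.R332
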