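import Crest.Agent.R332.GT
import Crest.Agent.R332.Xi
import Crest.Agent.R332.Scalar

/-!
Row 332: the matrix Keller inequality (with a quantitative defect).
-/

set_option autoImplicit false
set_option linter.unusedSectionVars false

namespace Crest.Agent.R332

open Matrix Crest.Agent.Lib.QEnt Filter Topology MeasureTheory Set
open scoped ComplexOrder Matrix.Norms.Frobenius

variable {m n : Type} [Fintype m] [Fintype n] [DecidableEq m] [DecidableEq n]

theorem Et_eq_sqrt {K : Matrix n n ℂ} (hK : K.IsHermitian) (τ : ℝ) :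
    Et K τ = cfc Real.sqrt (K * K + τ • (1 : Matrix n n ℂ)) := by
  obtain ⟨U, κ, h⟩ := exists_isDiag hK
  refine isDiag_eq_of (isDiag_Et h τ)
    (isDiag_cfc (isDiag_add (isDiag_mul h h) (isDiag_smul_one h.uni τ)) _) fun i => ?_
  simp only [sq]

theorem continuousOn_Et {X : Type*} [TopologicalSpace X] {K : Matrix n n ℂ} (hK : K.IsHermitian)
    {τ : X → ℝ} {t : Set X} (hτ : ContinuousOn τ t) : ContinuousOn (fun x => Et K (τ x)) t := by
  simp only [Et_eq_sqrt hK]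
  refine continuousOn_cfc' Real.continuous_sqrt
    (continuousOn_const.add (hτ.smul continuousOn_const)) fun x _ => ?_
  exact (psd_mul_self hK).1.add (herm_smul_one _)

/-- Joint continuity of `Zt` (`continuousOn_cfc_pos`, `Sand.add_posDef`; `Et K τ = cfc sqrt (K*K + τ)`
or entrywise in an eigenbasis of K). -/
theorem continuousOn_Zt {X : Type*} [TopologicalSpace X] {K : Matrix n n ℂ} {S : X → Matrix n n ℂ}
    {τ : X → ℝ} {t : Set X} (hS : ContinuousOn S t) (hτ : ContinuousOn τ t)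
    (h : ∀ x ∈ t, Sand K (S x)) (hpos : ∀ x ∈ t, 0 < τ x) :
    ContinuousOn (fun x => Zt K (S x) (τ x)) t := by
  rcases t.eq_empty_or_nonempty with rfl | ⟨x₀, hx₀⟩
  · exact continuousOn_empty _
  have hK : K.IsHermitian := (h x₀ hx₀).psd.1
  have hE := continuousOn_Et hK hτ
  have hl : ContinuousOn Real.log (Ioi 0) :=
    Real.continuousOn_log.mono fun y hy => ne_of_gt hy
  unfold Zt
  refine ContinuousOn.sub (ContinuousOn.add ?_ ?_) ?_
  · exact continuousOn_cfc_pos hl (hE.add hS) fun x hx => (h x hx).add_posDef (hpos x hx)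
  · exact continuousOn_cfc_pos hl (hE.sub hS) fun x hx => (h x hx).sub_posDef (hpos x hx)
  · exact (hτ.log fun x hx => (hpos x hx).ne').smul continuousOn_const


theorem ContinuousOn.matmul {X : Type*} [TopologicalSpace X] {A B : X → Matrix n n ℂ} {t : Set X}
    (hA : ContinuousOn A t) (hB : ContinuousOn B t) : ContinuousOn (fun x => A x * B x) t :=
  hA.mul hB

theorem psd_sub_smul_mono {A : Matrix n n ℂ} {c d : ℝ} (hcd : c ≤ d)
    (h : (A - d • (1 : Matrix n n ℂ)).PosSemidef) : (A - c • (1 : Matrix n n ℂ)).PosSemidef := by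
  have := h.add (psd_smul_one (n := n) (sub_nonneg.2 hcd))
  convert this using 1
  rw [sub_smul]; abel

/-- The algebraic identity behind `keller_pt`. -/
theorem gap3_eq {K S U : Matrix n n ℂ} (h : Sand K S) (hU : U.PosSemidef) {τ : ℝ} (hτ : 0 < τ) :
    τ * tr (Zt K S τ) + tr (Zt K S τ * U) = tr (cfc (phi τ) U) + tr (K * K - S * S) -
      gap3 (τ • (1 : Matrix n n ℂ) + U) (Et K τ + S) (Et K τ - S) := by
  obtain ⟨V, u, hu⟩ := exists_isDiag hU.1
  have hB := isDiag_add (isDiag_smul_one hu.uni τ) hu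
  have e1 : tr (cfc (phi τ) U) = tr (cfc eta (τ • (1 : Matrix n n ℂ) + U)) -
      Real.log τ * (τ * Fintype.card n + tr U) - tr U := by
    rw [tr_cfc hu, tr_cfc hB, isDiag_tr hu]
    have : (τ * Fintype.card n : ℝ) = ∑ _i : n, τ := by simp [mul_comm]
    rw [this, ← Finset.sum_add_distrib, Finset.mul_sum, ← Finset.sum_sub_distrib,
      ← Finset.sum_sub_distrib]
    refine Finset.sum_congr rfl fun i _ => ?_
    have hi := hu.nonneg hU i
    have : 1 + u i / τ = (τ + u i) / τ := by field_simp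
    simp only [phi, eta]
    rw [this, Real.log_div (by positivity) hτ.ne']
    ring
  have e2 : tr ((Et K τ + S) * (Et K τ - S)) = tr (K * K - S * S) + τ * Fintype.card n := by
    simp only [Matrix.add_mul, Matrix.mul_sub, tr_add, tr_sub, Et_mul_self h.psd.1 hτ.le,
      tr_mul_comm S (Et K τ), tr_smul, tr_one]
    ring
  have e3 : cfc Real.log (Et K τ + S) + cfc Real.log (Et K τ - S) =
      Zt K S τ + Real.log τ • (1 : Matrix n n ℂ) := by simp [Zt]
  rw [gap3, e1, e2, e3]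
  simp only [Matrix.add_mul, Matrix.mul_add, tr_add, Matrix.smul_mul, Matrix.mul_smul,
    Matrix.one_mul, Matrix.mul_one, tr_smul, tr_one, tr_mul_comm U (Zt K S τ)]
  ring

theorem posDef_smul_add {U : Matrix n n ℂ} (hU : U.PosSemidef) {τ : ℝ} (hτ : 0 < τ) :
    (τ • (1 : Matrix n n ℂ) + U).PosDef :=
  posDef_of_ge ((herm_smul_one τ).add hU.1) hτ (by simpa using hU)

/-- The defects are controlled by the gaps, for `τ ∈ [1,2]`. -/
theorem defect_le (M : ℝ) : ∃ C : ℝ, 0 < C ∧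
    ∀ (n : Type) [Fintype n] [DecidableEq n] (K S U : Matrix n n ℂ), Sand K S → Op K M →
      U.PosSemidef → Op U M → ∀ τ : ℝ, 1 ≤ τ → τ ≤ 2 →
      ‖U - (K * K - S * S)‖ ^ 2 + ‖K * K * S - S * (K * K)‖ ^ 2 ≤
        C * (gap3 (τ • (1 : Matrix n n ℂ) + U) (Et K τ + S) (Et K τ - S) +
          ‖Et K τ * S - S * Et K τ‖ ^ 2) := by
  obtain ⟨C, hC, H⟩ := gap3_lower (1 / (2 * √(M ^ 2 + 2))) (2 * √(M ^ 2 + 2) + M + 2)
    (by positivity)
  refine ⟨4 * C + 4 * (M ^ 2 + 2), by positivity, ?_⟩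
  intro n _ _ K S U h oK hU oU τ h1 h2
  have hτ : 0 < τ := by linarith
  have hM := oK.nonneg
  have hs : √(M ^ 2 + τ) ≤ √(M ^ 2 + 2) := Real.sqrt_le_sqrt (by linarith)
  have hs0 : 0 < √(M ^ 2 + τ) := Real.sqrt_pos.2 (by positivity)
  have hc : 1 / (2 * √(M ^ 2 + 2)) ≤ τ / (2 * √(M ^ 2 + τ)) :=
    div_le_div₀ hτ.le h1 (by positivity) (by linarith)
  have oa : ∀ {S : Matrix n n ℂ}, Sand K S → Op (Et K τ + S) (2 * √(M ^ 2 + 2) + M + 2) :=
    fun h => (h.op_add oK hτ.le).mono (by linarith)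
  have hg := gap3_nonneg (posDef_smul_add hU hτ) (h.add_posDef hτ) (h.sub_posDef hτ)
  have key := H n (τ • (1 : Matrix n n ℂ) + U) (Et K τ + S) (Et K τ - S) (posDef_smul_add hU hτ)
    (((op_smul_one τ).add oU).mono (by
      rw [abs_of_pos hτ]; have := Real.sqrt_nonneg (M ^ 2 + 2); linarith))
    ((herm_Et K τ).add h.herm) (psd_sub_smul_mono hc (h.add_ge oK hτ)) (oa h)
    ((herm_Et K τ).sub h.herm)
    (by simpa [sub_eq_add_neg] using psd_sub_smul_mono hc (h.neg.add_ge oK hτ))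
    (by simpa [sub_eq_add_neg] using oa h.neg)
  have hE := Et_mul_self h.psd.1 hτ.le
  have e1 : τ • (1 : Matrix n n ℂ) + U - (1 / 2 : ℝ) •
      ((Et K τ + S) * (Et K τ - S) + (Et K τ - S) * (Et K τ + S)) = U - (K * K - S * S) := by
    have : (Et K τ + S) * (Et K τ - S) + (Et K τ - S) * (Et K τ + S) =
        (2 : ℝ) • (Et K τ * Et K τ - S * S) := by
      rw [two_smul]; noncomm_ring
    rw [this, smul_smul, hE]
    norm_num
    abel
  have e2 : (Et K τ + S) * (Et K τ - S) - (Et K τ - S) * (Et K τ + S) =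
      (-2 : ℝ) • (Et K τ * S - S * Et K τ) := by
    rw [neg_smul, two_smul]; noncomm_ring
  have e3 : K * K * S - S * (K * K) =
      Et K τ * (Et K τ * S - S * Et K τ) + (Et K τ * S - S * Et K τ) * Et K τ := by
    have : K * K = Et K τ * Et K τ - τ • (1 : Matrix n n ℂ) := by rw [hE]; abel
    rw [this]
    simp only [Matrix.sub_mul, Matrix.mul_sub, Matrix.smul_mul, Matrix.mul_smul, Matrix.one_mul,
      Matrix.mul_one, Matrix.mul_assoc]
    abel
  rw [e1, e2, norm_smul] at key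
  have oE := op_Et (τ := τ) h.psd.1 oK
  have e4 : ‖K * K * S - S * (K * K)‖ ≤ 2 * √(M ^ 2 + 2) * ‖Et K τ * S - S * Et K τ‖ := by
    rw [e3]
    refine (norm_add_le _ _).trans ?_
    have a1 := oE.mul_le (Et K τ * S - S * Et K τ)
    have a2 := oE.le_mul (Et K τ * S - S * Et K τ)
    have a3 := mul_le_mul_of_nonneg_right hs (norm_nonneg (Et K τ * S - S * Et K τ))
    linarith
  have e5 : ‖K * K * S - S * (K * K)‖ ^ 2 ≤ 4 * (M ^ 2 + 2) * ‖Et K τ * S - S * Et K τ‖ ^ 2 := by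
    refine (pow_le_pow_left₀ (norm_nonneg _) e4 2).trans (le_of_eq ?_)
    rw [mul_pow, mul_pow, Real.sq_sqrt (by positivity)]
    ring
  have e6 : (‖(-2 : ℝ)‖ * ‖Et K τ * S - S * Et K τ‖) ^ 2 = 4 * ‖Et K τ * S - S * Et K τ‖ ^ 2 := by
    rw [mul_pow]; norm_num
  rw [e6] at key
  have h7 := sq_nonneg ‖Et K τ * S - S * Et K τ‖
  have h8 : 0 ≤ M ^ 2 + 2 := by positivity
  nlinarith [mul_nonneg hC.le hg, mul_nonneg h8 hg, mul_nonneg hC.le h7]

theorem continuousOn_phi {u : ℝ} (hu : 0 ≤ u) : ContinuousOn (fun τ => phi τ u) (Ioi 0) := by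
  unfold phi
  refine ContinuousOn.sub (ContinuousOn.mul (by fun_prop) ?_) continuousOn_const
  refine ContinuousOn.log (continuousOn_const.add (continuousOn_const.div continuousOn_id
    fun τ hτ => ne_of_gt hτ)) fun τ hτ => ?_
  have : (0 : ℝ) < τ := hτ
  positivity

theorem continuousOn_rpow_Ioi (q : ℝ) : ContinuousOn (fun τ : ℝ => τ ^ q) (Ioi 0) :=
  continuousOn_id.rpow_const fun _ hτ => Or.inl (ne_of_gt hτ)

theorem ii_of_Ioi {f : ℝ → ℝ} (hf : ContinuousOn f (Ioi 0)) {α β : ℝ} (hα : 0 < α) (hβ : 0 < β) :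
    IntervalIntegrable f volume α β :=
  (hf.mono fun _ hx => lt_of_lt_of_le (lt_min hα hβ) hx.1).intervalIntegrable

/-- Pointwise (in x) inequality. Notation r = θ⁻¹, D = K*K - S*S, Z = Zt K S τ, a = E+S, b = E-S.
Recipe. With B = τ + U (PosDef; eigenvalues τ + u_i), `tr (a*b) = tr D + τ N` and the definition of
gap3 give `τ tr Z + tr (Z U) = tr (cfc (phi τ) U) + tr D - gap3 B a b`. Let Ξ τ = r τ^θ Gt K S τ. By
`Gt_deriv`, Ξ' ≤ τ^(θ-1) (j - r τ c Γ), j = tr (Z D) + (1+r) τ tr Z - (1+r) tr D, Γ = ‖ES - SE‖² (Γ only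
for τ ≤ 2). Hence
`τ^(θ-1) tr (Z ((1+r) U - D)) ≤ (1+r) τ^(θ-1) tr (cfc (phi τ) U) - Ξ' - τ^(θ-1) ((1+r) gap3 + r τ c Γ)`.
For τ ∈ [1,2]: τ^(θ-1) ≥ 1/2; `B - (ab+ba)/2 = U - D`, `ab - ba = -2 (ES - SE)`, so `gap3_lower`
(c = 1/√(M²+2)·(1/2) lower bound from `Sand.add_ge`, Λ = 2√(M²+2) + M + 2) bounds ‖U - D‖² by
C (gap3 + 4Γ), and `K*K*S - S*(K*K) = E (ES-SE) + (ES-SE) E` (`Et_mul_self`) bounds the commutator
by 4 (M²+2) Γ. Integrate over [τ₁,1], [1,2], [2,τ₂] with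
`intervalIntegral.sub_le_integral_of_hasDeriv_right_of_le` (continuity from `continuousOn_Zt`),
use `phi_integral_le` for each eigenvalue of U ((1+r)/(1+θ) = r), `Gt_nonneg` at τ₂, `Gt_le` at τ₁. -/
theorem keller_pt {θ : ℝ} (h0 : 0 < θ) (h1 : θ < 1) (M : ℝ) : ∃ c : ℝ, 0 < c ∧
    ∀ (n : Type) [Fintype n] [DecidableEq n] (K S U : Matrix n n ℂ), Sand K S → Op K M →
      U.PosSemidef → Op U M → ∀ τ₁ τ₂ : ℝ, 0 < τ₁ → τ₁ ≤ 1 → 2 ≤ τ₂ →
      (∫ τ in τ₁..τ₂, τ ^ (θ - 1) * tr (Zt K S τ * ((1 + θ⁻¹) • U - (K * K - S * S)))) +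
        c * (‖U - (K * K - S * S)‖ ^ 2 + ‖K * K * S - S * (K * K)‖ ^ 2) ≤
      c0 θ * (θ⁻¹ * tr (pw (1 + θ) U)) + θ⁻¹ * τ₁ ^ θ *
        (Fintype.card n * (4 * (M ^ 2 + 1) * Real.log (4 * (M ^ 2 + 1) / τ₁))) := by
  obtain ⟨c, hc, HG⟩ := Gt_deriv M
  obtain ⟨C, hC, HD⟩ := defect_le M
  have hr : 1 ≤ θ⁻¹ := one_le_inv₀ h0 |>.2 h1.le
  refine ⟨min 1 c / (2 * C), by positivity, ?_⟩
  intro n _ _ K S U h oK hU oU τ₁ τ₂ hτ₁ h₁ h₂
  obtain ⟨V, u, hu⟩ := exists_isDiag hU.1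
  have hu0 := hu.nonneg hU
  set F : ℝ → ℝ := fun τ =>
    τ ^ (θ - 1) * tr (Zt K S τ * ((1 + θ⁻¹) • U - (K * K - S * S))) with hF
  set P : ℝ → ℝ := fun τ => (1 + θ⁻¹) * ∑ i, τ ^ (θ - 1) * phi τ (u i) with hP
  set Ξ : ℝ → ℝ := fun τ => θ⁻¹ * τ ^ θ * Gt K S τ with hΞ
  set δ : ℝ := min 1 c / (2 * C) *
    (‖U - (K * K - S * S)‖ ^ 2 + ‖K * K * S - S * (K * K)‖ ^ 2) with hδ
  have cZ : ContinuousOn (fun τ => Zt K S τ) (Ioi 0) :=
    continuousOn_Zt continuousOn_const continuousOn_id (fun _ _ => h) fun _ hτ => hτ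
  have cF : ContinuousOn F (Ioi 0) :=
    (continuousOn_rpow_Ioi _).mul (ContinuousOn.tr' (ContinuousOn.matmul cZ continuousOn_const))
  have cφ : ∀ i, ContinuousOn (fun τ : ℝ => τ ^ (θ - 1) * phi τ (u i)) (Ioi 0) := fun i =>
    (continuousOn_rpow_Ioi _).mul (continuousOn_phi (hu0 i))
  have cP : ContinuousOn P (Ioi 0) :=
    continuousOn_const.mul (continuousOn_finsetSum _ fun i _ => cφ i)
  -- the derivative of `Ξ`
  have hder : ∀ τ : ℝ, 0 < τ → HasDerivAt Ξ (deriv Ξ τ) τ ∧ deriv Ξ τ ≤ P τ - F τ ∧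
      (1 ≤ τ → τ ≤ 2 → deriv Ξ τ ≤ P τ - F τ - δ) := by
    intro τ hτ
    obtain ⟨G', hG', le1, le2⟩ := HG n K S h oK τ hτ
    have d1 : HasDerivAt Ξ (θ⁻¹ * (θ * τ ^ (θ - 1)) * Gt K S τ + θ⁻¹ * τ ^ θ * G') τ :=
      ((Real.hasDerivAt_rpow_const (Or.inl hτ.ne')).const_mul _).mul hG'
    have hpow : τ ^ θ = τ ^ (θ - 1) * τ := by
      rw [Real.rpow_sub_one hτ.ne']; field_simp
    have hw : 0 < τ ^ (θ - 1) := Real.rpow_pos_of_pos hτ _
    have hg := gap3_nonneg (posDef_smul_add hU hτ) (h.add_posDef hτ) (h.sub_posDef hτ)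
    have hid := gap3_eq h hU hτ
    rw [tr_cfc hu] at hid
    set g := gap3 (τ • (1 : Matrix n n ℂ) + U) (Et K τ + S) (Et K τ - S)
    have ePF : P τ - F τ - deriv Ξ τ = τ ^ (θ - 1) * ((1 + θ⁻¹) * g +
        θ⁻¹ * τ * (tr (Zt K S τ) - tr (K * K - S * S) / τ - G')) := by
      rw [d1.deriv, hpow]
      simp only [hP, hF, ← Finset.mul_sum, Gt]
      rw [Matrix.mul_sub, Matrix.mul_add, Matrix.mul_smul, Matrix.mul_smul, Matrix.mul_one]
      simp only [tr_sub (θ⁻¹ • _), tr_add, tr_smul, tr_sub ((1 + θ⁻¹) • _)]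
      have : ∑ i, phi τ (u i) = τ * tr (Zt K S τ) + tr (Zt K S τ * U) - tr (K * K - S * S) + g := by
        linarith
      rw [this]
      field_simp
      ring
    refine ⟨d1.differentiableAt.hasDerivAt, ?_, fun t1 t2 => ?_⟩
    · have : 0 ≤ τ ^ (θ - 1) * ((1 + θ⁻¹) * g +
          θ⁻¹ * τ * (tr (Zt K S τ) - tr (K * K - S * S) / τ - G')) :=
        mul_nonneg hw.le (add_nonneg (by positivity)
          (mul_nonneg (by positivity) (by linarith)))
      linarith
    · have a1 := le2 t2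
      have a2 := HD n K S U h oK hU oU τ t1 t2
      set Γ := ‖Et K τ * S - S * Et K τ‖ ^ 2
      have hΓ : 0 ≤ Γ := sq_nonneg _
      have a3 : 1 / 2 ≤ τ ^ (θ - 1) := by
        have b1 : τ ^ (-1 : ℝ) ≤ τ ^ (θ - 1) :=
          Real.rpow_le_rpow_of_exponent_le t1 (by linarith)
        rw [Real.rpow_neg_one] at b1
        refine le_trans ?_ b1
        rw [one_div]
        exact inv_anti₀ hτ t2
      have a4 : g + c * Γ ≤ (1 + θ⁻¹) * g +
          θ⁻¹ * τ * (tr (Zt K S τ) - tr (K * K - S * S) / τ - G') := by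
        have b1 : 1 ≤ θ⁻¹ * τ := by nlinarith
        have b2 : c * Γ ≤ tr (Zt K S τ) - tr (K * K - S * S) / τ - G' := by linarith
        have b3 : 0 ≤ c * Γ := by positivity
        nlinarith [mul_nonneg (show (0 : ℝ) ≤ θ⁻¹ by positivity) hg]
      have a5 : δ ≤ 1 / 2 * (g + c * Γ) := by
        calc δ ≤ min 1 c / (2 * C) * (C * (g + Γ)) :=
              mul_le_mul_of_nonneg_left a2 (by positivity)
          _ = 1 / 2 * (min 1 c * g + min 1 c * Γ) := by field_simp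
          _ ≤ _ := by
              have b1 := mul_le_mul_of_nonneg_right (min_le_left 1 c) hg
              have b2 := mul_le_mul_of_nonneg_right (min_le_right 1 c) hΓ
              linarith
      have a6 : 1 / 2 * (g + c * Γ) ≤ τ ^ (θ - 1) * ((1 + θ⁻¹) * g +
          θ⁻¹ * τ * (tr (Zt K S τ) - tr (K * K - S * S) / τ - G')) :=
        mul_le_mul a3 a4 (by positivity) hw.le
      linarith
  have step : ∀ α β d : ℝ, 0 < α → α ≤ β → (∀ τ ∈ Ioo α β, deriv Ξ τ ≤ P τ - F τ - d) →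
      Ξ β - Ξ α ≤ (∫ τ in α..β, P τ) - (∫ τ in α..β, F τ) - (β - α) * d := by
    intro α β d hα hαβ hd
    have hβ : 0 < β := hα.trans_le hαβ
    have hsub : Icc α β ⊆ Ioi 0 := fun τ hτ => lt_of_lt_of_le hα hτ.1
    have := intervalIntegral.sub_le_integral_of_hasDeriv_right_of_le (g := Ξ) (g' := deriv Ξ)
      (φ := fun τ => P τ - F τ - d) hαβ
      (fun τ hτ => (hder τ (hsub hτ)).1.continuousAt.continuousWithinAt)
      (fun τ hτ => (hder τ (hα.trans hτ.1)).1.hasDerivWithinAt)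
      ((((cP.sub cF).sub continuousOn_const).mono hsub).integrableOn_Icc) hd
    rw [intervalIntegral.integral_sub ((ii_of_Ioi cP hα hβ).sub (ii_of_Ioi cF hα hβ))
      intervalIntegrable_const,
      intervalIntegral.integral_sub (ii_of_Ioi cP hα hβ) (ii_of_Ioi cF hα hβ)] at this
    simpa using this
  have s1 := step τ₁ 1 0 hτ₁ h₁ fun τ hτ => by simpa using (hder τ (hτ₁.trans hτ.1)).2.1
  have s2 := step 1 2 δ one_pos one_le_two fun τ hτ =>
    (hder τ (one_pos.trans hτ.1)).2.2 hτ.1.le hτ.2.le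
  have s3 := step 2 τ₂ 0 two_pos h₂ fun τ hτ => by simpa using (hder τ (two_pos.trans hτ.1)).2.1
  have hτ₂ : 0 < τ₂ := by linarith
  have split : ∀ f : ℝ → ℝ, ContinuousOn f (Ioi 0) → ∫ τ in τ₁..τ₂, f τ =
      (∫ τ in τ₁..1, f τ) + (∫ τ in (1 : ℝ)..2, f τ) + ∫ τ in (2 : ℝ)..τ₂, f τ := by
    intro f hf
    rw [intervalIntegral.integral_add_adjacent_intervals (ii_of_Ioi hf hτ₁ one_pos)
      (ii_of_Ioi hf one_pos two_pos),
      intervalIntegral.integral_add_adjacent_intervals (ii_of_Ioi hf hτ₁ two_pos)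
      (ii_of_Ioi hf two_pos hτ₂)]
  have sP := split P cP
  have sF := split F cF
  have b1 : 0 ≤ Ξ τ₂ := mul_nonneg (by positivity) (Gt_nonneg h hτ₂)
  have b2 : Ξ τ₁ ≤ θ⁻¹ * τ₁ ^ θ *
      (Fintype.card n * (4 * (M ^ 2 + 1) * Real.log (4 * (M ^ 2 + 1) / τ₁))) :=
    mul_le_mul_of_nonneg_left (Gt_le h oK hτ₁ h₁) (by positivity)
  have b3 : ∫ τ in τ₁..τ₂, P τ ≤ c0 θ * (θ⁻¹ * tr (pw (1 + θ) U)) := by
    simp only [hP]
    rw [intervalIntegral.integral_const_mul,
      intervalIntegral.integral_finsetSum fun i _ => ii_of_Ioi (cφ i) hτ₁ hτ₂,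
      isDiag_tr (isDiag_pw hu _)]
    calc (1 + θ⁻¹) * ∑ i, ∫ τ in τ₁..τ₂, τ ^ (θ - 1) * phi τ (u i)
        ≤ (1 + θ⁻¹) * ∑ i, c0 θ * (u i ^ (1 + θ) / (1 + θ)) :=
          mul_le_mul_of_nonneg_left (Finset.sum_le_sum fun i _ =>
            phi_integral_le h0 h1 (hu0 i) hτ₁ (by linarith)) (by positivity)
      _ = _ := by
          rw [← Finset.mul_sum, ← Finset.sum_div]
          field_simp
          ring
  linarith


theorem eta_tangent {u v : ℝ} (hu : 0 < u) (hv : 0 < v) :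
    eta u + (Real.log u + 1) * (v - u) ≤ eta v := by
  have h := Real.log_le_sub_one_of_pos (div_pos hu hv)
  rw [Real.log_div hu.ne' hv.ne'] at h
  have h2 := mul_le_mul_of_nonneg_left h hv.le
  have h3 : v * (u / v - 1) = u - v := by field_simp
  unfold eta
  nlinarith

theorem hasDerivAt_tr_eta {A : ℝ → Matrix n n ℂ} {A' : Matrix n n ℂ} {x : ℝ}
    (hA : HasDerivAt A A' x) (hc : Continuous A) (hp : ∀ t, (A t).PosDef) :
    HasDerivAt (fun t => tr (cfc eta (A t))) (tr (cfc Real.log (A x) * A') + tr A') x := by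
  have hl : ContinuousOn (fun y => Real.log y + 1) (Ioi 0) :=
    (Real.continuousOn_log.mono fun y hy => ne_of_gt hy).add continuousOn_const
  have h := hasDerivAt_tr_cfc hA (φ := eta) (φ' := fun y => Real.log y + 1) (s := Ioi 0)
    (Eventually.of_forall fun t => by
      obtain ⟨U, a, ha⟩ := exists_isDiag (hp t).1
      exact ⟨U, a, ha, fun i => isDiag_pos ha (hp t) i⟩)
    (fun u hu v hv => eta_tangent hu hv)
    ((continuousOn_univ.1 (continuousOn_cfc_pos hl hc.continuousOn fun t _ => hp t)).continuousAt)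
  have e : cfc (fun y => Real.log y + 1) (A x) = cfc Real.log (A x) + 1 := by
    obtain ⟨U, a, ha⟩ := exists_isDiag (hp x).1
    exact isDiag_eq_of (isDiag_cfc ha _) (isDiag_add (isDiag_cfc ha _) (isDiag_one ha.uni))
      fun _ => rfl
  rwa [e, Matrix.add_mul, Matrix.one_mul, tr_add] at h

/-- The action identity for fixed τ.
Recipe: f x = tr (cfc eta (E + S x)) - tr (cfc eta (E - S x)) - (2 + log τ) tr (S x) has derivative
tr (Z S') (`hasDerivAt_tr_cfc` with φ = eta, φ' = fun y => log y + 1, s = Ioi 0); FTC; at the end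
points use the eigenbasis of K (`isDiag_add (isDiag_Et ..) ..`, `tr_cfc`). -/
theorem action_identity {K : Matrix n n ℂ} {S S' : ℝ → Matrix n n ℂ} {x₀ x₁ τ : ℝ}
    (h : ∀ x, Sand K (S x)) (hS : ∀ x, HasDerivAt S (S' x) x) (hS' : Continuous S')
    (e₀ : S x₀ = K) (e₁ : S x₁ = -K) (hτ : 0 < τ) :
    ∫ x in x₀..x₁, tr (Zt K (S x) τ * (-S' x)) = tr (cfc (hk τ) K) := by
  have cS : Continuous S := continuous_iff_continuousAt.2 fun x => (hS x).continuousAt
  have hd : ∀ x, HasDerivAt (fun x => tr (cfc eta (Et K τ - S x)) - tr (cfc eta (Et K τ + S x)) +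
      (2 + Real.log τ) * tr (S x)) (tr (Zt K (S x) τ * (-S' x))) x := by
    intro x
    have d1 := hasDerivAt_tr_eta ((hS x).const_add (Et K τ)) (continuous_const.add cS)
      fun t => (h t).add_posDef hτ
    have d2 := hasDerivAt_tr_eta ((hS x).const_sub (Et K τ)) (continuous_const.sub cS)
      fun t => (h t).sub_posDef hτ
    have d3 := (HasDerivAt.tr' (hS x)).const_mul (2 + Real.log τ)
    refine ((d2.fun_sub d1).fun_add d3).congr_deriv ?_
    simp only [Zt, Matrix.mul_neg, Matrix.add_mul, Matrix.sub_mul, Matrix.smul_mul, Matrix.one_mul,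
      tr_neg, tr_add, tr_sub, tr_smul]
    ring
  have cZ : Continuous fun x => Zt K (S x) τ :=
    continuousOn_univ.1 (continuousOn_Zt cS.continuousOn continuousOn_const (fun x _ => h x)
      fun _ _ => hτ)
  rw [intervalIntegral.integral_eq_sub_of_hasDerivAt (fun x _ => hd x)
    ((Continuous.tr' (cZ.mul hS'.neg)).intervalIntegrable _ _), e₀, e₁]
  obtain ⟨V, κ, hκ⟩ := exists_isDiag (h x₀).psd.1
  rw [sub_neg_eq_add, ← sub_eq_add_neg, tr_neg, tr_cfc (isDiag_add (isDiag_Et hκ τ) hκ),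
    tr_cfc (isDiag_sub (isDiag_Et hκ τ) hκ), tr_cfc hκ, isDiag_tr hκ]
  simp only [hk, Finset.sum_sub_distrib, ← Finset.mul_sum]
  ring


theorem continuousOn_hk (κ : ℝ) : ContinuousOn (fun τ => hk τ κ) (Ioi 0) := by
  have he : Continuous eta := Real.continuous_mul_log
  unfold hk
  refine ContinuousOn.sub (by fun_prop) ?_
  exact (continuousOn_const.mul (continuousOn_const.add
    (Real.continuousOn_log.mono fun y hy => ne_of_gt hy))).mul continuousOn_const

/-- The matrix Keller inequality.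
Recipe: for the window τ₁ = (j+1)⁻¹, τ₂ = j+2 multiply `action_identity` by τ^(θ-1), integrate in τ,
swap the two integrals (joint continuity on the compact rectangle, `continuousOn_Zt`), bound the
inner integral by `keller_pt`, let j → ∞ (`hk_integral_tendsto` for each eigenvalue of K,
`tail_tendsto`) and divide by c0 θ > 0. -/
theorem keller {θ : ℝ} (h0 : 0 < θ) (h1 : θ < 1) (M : ℝ) : ∃ c : ℝ, 0 < c ∧
    ∀ (n : Type) [Fintype n] [DecidableEq n] (K : Matrix n n ℂ) (S U : ℝ → Matrix n n ℂ)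
      (x₀ x₁ : ℝ), x₀ ≤ x₁ → (∀ x, Sand K (S x)) → Op K M → Continuous U →
      (∀ x, (U x).PosSemidef) → (∀ x, Op (U x) M) →
      (∀ x, HasDerivAt S (K * K - S x * S x - (1 + θ⁻¹) • U x) x) → S x₀ = K → S x₁ = -K →
      Bc θ * tr (pw (2 * θ + 1) K) + c * (∫ x in x₀..x₁,
        (‖U x - (K * K - S x * S x)‖ ^ 2 + ‖K * K * S x - S x * (K * K)‖ ^ 2)) ≤
      θ⁻¹ * ∫ x in x₀..x₁, tr (pw (1 + θ) (U x)) := by
  obtain ⟨c, hc, H⟩ := keller_pt h0 h1 M
  have hc0 := c0_pos h0 h1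
  refine ⟨c / c0 θ, by positivity, ?_⟩
  intro n _ _ K S U x₀ x₁ hx h oK cU hU oU hS e₀ e₁
  have cS : Continuous S := continuous_iff_continuousAt.2 fun x => (hS x).continuousAt
  have cS' : Continuous fun x => K * K - S x * S x - (1 + θ⁻¹) • U x :=
    (continuous_const.sub (cS.mul cS)).sub (cU.const_smul (1 + θ⁻¹))
  obtain ⟨V, κ, hκ⟩ := exists_isDiag (h x₀).psd.1
  have hκ0 := hκ.nonneg (h x₀).psd
  set d : ℝ → ℝ := fun x =>
    ‖U x - (K * K - S x * S x)‖ ^ 2 + ‖K * K * S x - S x * (K * K)‖ ^ 2 with hd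
  have cd : Continuous d :=
    ((cU.sub (continuous_const.sub (cS.mul cS))).norm.pow 2).add
      (((continuous_const.mul cS).sub (cS.mul continuous_const)).norm.pow 2)
  have cp : Continuous fun x => tr (pw (1 + θ) (U x)) :=
    Continuous.tr' (continuous_pw (by linarith) cU fun x => (hU x).1)
  set Λ : ℝ := 4 * (M ^ 2 + 1) with hΛ
  have win : ∀ τ₁ τ₂ : ℝ, 0 < τ₁ → τ₁ ≤ 1 → 2 ≤ τ₂ →
      (∑ i, ∫ τ in τ₁..τ₂, τ ^ (θ - 1) * hk τ (κ i)) + c * ∫ x in x₀..x₁, d x ≤
        c0 θ * (θ⁻¹ * ∫ x in x₀..x₁, tr (pw (1 + θ) (U x))) +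
          (x₁ - x₀) * (θ⁻¹ * Fintype.card n * Λ) * (τ₁ ^ θ * Real.log (Λ / τ₁)) := by
    intro τ₁ τ₂ hτ₁ h₁ h₂
    have hτ₂ : 0 < τ₂ := by linarith
    have hle : τ₁ ≤ τ₂ := by linarith
    set f : ℝ → ℝ → ℝ := fun τ x =>
      τ ^ (θ - 1) * tr (Zt K (S x) τ * ((1 + θ⁻¹) • U x - (K * K - S x * S x))) with hf
    have cf : ContinuousOn (Function.uncurry f) (Icc τ₁ τ₂ ×ˢ Icc x₀ x₁) := by
      have hpos : ∀ p ∈ Icc τ₁ τ₂ ×ˢ Icc x₀ x₁, 0 < p.1 := fun p hp => hτ₁.trans_le hp.1.1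
      refine ContinuousOn.mul (continuousOn_fst.rpow_const fun p hp => Or.inl (hpos p hp).ne') ?_
      refine ContinuousOn.tr' (ContinuousOn.matmul ?_ ?_)
      · exact continuousOn_Zt (cS.comp continuous_snd).continuousOn continuousOn_fst
          (fun p _ => h p.2) hpos
      · exact (((cU.const_smul (1 + θ⁻¹)).sub (continuous_const.sub (cS.mul cS))).comp
          continuous_snd).continuousOn
    have hint : Integrable (Function.uncurry f)
        ((volume.restrict (uIoc τ₁ τ₂)).prod (volume.restrict (Ioc x₀ x₁))) := by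
      rw [uIoc_of_le hle, Measure.prod_restrict]
      exact (cf.integrableOn_compact (isCompact_Icc.prod isCompact_Icc)).mono_set
        (prod_mono Ioc_subset_Icc_self Ioc_subset_Icc_self)
    have swap := intervalIntegral_integral_swap hint
    have l1 : (∑ i, ∫ τ in τ₁..τ₂, τ ^ (θ - 1) * hk τ (κ i)) =
        ∫ τ in τ₁..τ₂, ∫ x in Ioc x₀ x₁, f τ x := by
      rw [← intervalIntegral.integral_finsetSum (f := fun i τ => τ ^ (θ - 1) * hk τ (κ i))
        fun i _ => ii_of_Ioi ((continuousOn_rpow_Ioi _).mul (continuousOn_hk (κ i))) hτ₁ hτ₂]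
      refine intervalIntegral.integral_congr fun τ hτ => ?_
      have hτ0 : 0 < τ := lt_of_lt_of_le (lt_min hτ₁ hτ₂) hτ.1
      have := action_identity h hS cS' e₀ e₁ hτ0
      simp only [neg_sub] at this
      simp only [hf]
      rw [← intervalIntegral.integral_of_le hx, intervalIntegral.integral_const_mul, this,
        tr_cfc hκ, Finset.mul_sum]
    have iint : Integrable (fun x => ∫ τ in τ₁..τ₂, f τ x) (volume.restrict (Ioc x₀ x₁)) := by
      have := hint.integral_prod_right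
      simp only [intervalIntegral.integral_of_le hle]
      rw [uIoc_of_le hle] at this
      exact this
    rw [l1, swap, ← intervalIntegral.integral_of_le hx, ← intervalIntegral.integral_const_mul,
      ← intervalIntegral.integral_add
        ((intervalIntegrable_iff_integrableOn_Ioc_of_le hx).2 iint)
        ((cd.const_mul c).intervalIntegrable _ _)]
    refine (intervalIntegral.integral_mono_on (g := fun x =>
      c0 θ * (θ⁻¹ * tr (pw (1 + θ) (U x))) + θ⁻¹ * τ₁ ^ θ *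
        (Fintype.card n * (Λ * Real.log (Λ / τ₁)))) hx
      (((intervalIntegrable_iff_integrableOn_Ioc_of_le hx).2 iint).add
        ((cd.const_mul c).intervalIntegrable _ _))
      ((((cp.const_mul _).const_mul _).add continuous_const).intervalIntegrable _ _)
      fun x _ => H n K (S x) (U x) (h x) oK (hU x) (oU x) τ₁ τ₂ hτ₁ h₁ h₂).trans (le_of_eq ?_)
    rw [intervalIntegral.integral_add (((cp.const_mul _).const_mul _).intervalIntegrable _ _)
      intervalIntegrable_const, intervalIntegral.integral_const_mul,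
      intervalIntegral.integral_const_mul, intervalIntegral.integral_const, smul_eq_mul]
    ring
  have t1 := (tendsto_finsetSum Finset.univ fun i _ => hk_integral_tendsto h0 h1 (hκ0 i)).add_const
    (c * ∫ x in x₀..x₁, d x)
  have t2 := ((tail_tendsto h0 (Λ := Λ) (by positivity)).const_mul
    ((x₁ - x₀) * (θ⁻¹ * Fintype.card n * Λ))).const_add
    (c0 θ * (θ⁻¹ * ∫ x in x₀..x₁, tr (pw (1 + θ) (U x))))
  have lim := le_of_tendsto_of_tendsto' t1 t2 fun j => win _ _ (by positivity)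
    (inv_le_one_of_one_le₀ (by linarith [Nat.cast_nonneg (α := ℝ) j]))
    (by linarith [Nat.cast_nonneg (α := ℝ) j])
  rw [mul_zero, add_zero, ← Finset.mul_sum, ← Finset.mul_sum, ← isDiag_tr (isDiag_pw hκ _)] at lim
  refine le_of_mul_le_mul_left ?_ hc0
  calc c0 θ * (Bc θ * tr (pw (2 * θ + 1) K) + c / c0 θ * ∫ x in x₀..x₁, d x)
      = c0 θ * (Bc θ * tr (pw (2 * θ + 1) K)) + c * ∫ x in x₀..x₁, d x := by
        field_simp
    _ ≤ _ := lim

end Crest.Agent.R332
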