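import Crest.Agent.R332.Defs

/-!
Row 332: finite-dimensional lemmas for the equality case (Young's gap, approximate joint
eigenvectors, simultaneous diagonalisation by maximality).
-/

set_option autoImplicit false
set_option linter.unusedSectionVars false

namespace Crest.Agent.R332

open Matrix Crest.Agent.Lib.QEnt Filter Topology MeasureTheory Set
open scoped ComplexOrder Matrix.Norms.Frobenius

variable {m n : Type} [Fintype m] [Fintype n] [DecidableEq m] [DecidableEq n]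

namespace LinAux

theorem gY_pair {θ : ℝ} {w U ρ V : Matrix n n ℂ} {a b : n → ℝ} (ha : IsDiag w U a)
    (hb : IsDiag ρ V b) : gY θ w ρ = ∑ i, ∑ j, ov U V i j *
      (θ⁻¹ * a i ^ (1 + θ) + b j ^ (1 + θ⁻¹) - (1 + θ⁻¹) * (a i * b j)) := by
  rw [gY, tr_left_pair (isDiag_pw ha _) hb.uni, tr_right_pair ha.uni (isDiag_pw hb _),
    tr_mul_pair ha hb]
  simp only [Finset.mul_sum, ← Finset.sum_add_distrib, ← Finset.sum_sub_distrib]
  refine Finset.sum_congr rfl fun i _ => Finset.sum_congr rfl fun j _ => ?_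
  ring

theorem young {θ : ℝ} (h0 : 0 < θ) {a b : ℝ} (ha : 0 ≤ a) (hb : 0 ≤ b) :
    0 ≤ θ⁻¹ * a ^ (1 + θ) + b ^ (1 + θ⁻¹) - (1 + θ⁻¹) * (a * b) := by
  have hpq : (1 + θ).HolderConjugate (1 + θ⁻¹) := by
    refine ⟨?_, by positivity, by positivity⟩
    field_simp
    ring
  have h := Real.young_inequality_of_nonneg ha hb hpq
  have h1 : (0 : ℝ) < 1 + θ⁻¹ := by positivity
  have h2 := mul_le_mul_of_nonneg_left h h1.le
  have h3 : (1 + θ⁻¹) * (a ^ (1 + θ) / (1 + θ) + b ^ (1 + θ⁻¹) / (1 + θ⁻¹)) =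
      θ⁻¹ * a ^ (1 + θ) + b ^ (1 + θ⁻¹) := by
    field_simp
    ring
  linarith

theorem tangent_le {f f' : ℝ → ℝ} {s : Set ℝ} (hs : s.OrdConnected)
    (hf : ∀ x ∈ s, HasDerivAt f (f' x) x) (hm : MonotoneOn f' s) {u v : ℝ} (hu : u ∈ s)
    (hv : v ∈ s) : f u + f' u * (v - u) ≤ f v := by
  rcases lt_trichotomy u v with h | h | h
  · have hsub : Icc u v ⊆ s := hs.out hu hv
    obtain ⟨c, hc, hc'⟩ := exists_hasDerivAt_eq_slope f f' h
      (fun x hx => (hf x (hsub hx)).continuousAt.continuousWithinAt)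
      (fun x hx => hf x (hsub (Ioo_subset_Icc_self hx)))
    have h1 := hm hu (hsub (Ioo_subset_Icc_self hc)) hc.1.le
    rw [hc', le_div_iff₀ (sub_pos.2 h)] at h1
    linarith
  · subst h; simp
  · have hsub : Icc v u ⊆ s := hs.out hv hu
    obtain ⟨c, hc, hc'⟩ := exists_hasDerivAt_eq_slope f f' h
      (fun x hx => (hf x (hsub hx)).continuousAt.continuousWithinAt)
      (fun x hx => hf x (hsub (Ioo_subset_Icc_self hx)))
    have h1 := hm (hsub (Ioo_subset_Icc_self hc)) hu hc.2.le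
    rw [hc', div_le_iff₀ (sub_pos.2 h)] at h1
    linarith

theorem rpow_sub_ge {θ Λ u v : ℝ} (h0 : 0 < θ) (h1 : θ < 1) (hu : 0 ≤ u) (huv : u ≤ v)
    (hv : v ≤ Λ) : θ * Λ ^ (θ - 1) * (v - u) ≤ v ^ θ - u ^ θ := by
  rcases (hu.trans huv).eq_or_lt with h | h
  · have : u = 0 := le_antisymm (h ▸ huv) hu
    rw [← h, this]; simp
  · have hs : -1 ≤ u / v - 1 := by
      have := div_nonneg hu h.le
      linarith
    have hb := rpow_one_add_le_one_add_mul_self hs h0.le h1.le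
    rw [add_sub_cancel, Real.div_rpow hu h.le, div_le_iff₀ (Real.rpow_pos_of_pos h θ)] at hb
    have h2 : Λ ^ (θ - 1) ≤ v ^ (θ - 1) := Real.rpow_le_rpow_of_nonpos h hv (by linarith)
    have h3 : v ^ (θ - 1) = v ^ θ / v := Real.rpow_sub_one h.ne' θ
    have h4 : (1 + θ * (u / v - 1)) * v ^ θ = v ^ θ - θ * (v ^ θ / v) * (v - u) := by
      field_simp
      ring
    have h5 : θ * Λ ^ (θ - 1) * (v - u) ≤ θ * v ^ (θ - 1) * (v - u) :=
      mul_le_mul_of_nonneg_right (mul_le_mul_of_nonneg_left h2 h0.le) (sub_nonneg.2 huv)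
    rw [h3] at h5
    linarith

theorem young_lower {θ Λ : ℝ} (h0 : 0 < θ) (h1 : θ < 1) {a b : ℝ} (ha : 0 ≤ a) (hb : 0 ≤ b)
    (haΛ : a ≤ Λ) (hbΛ : b ^ θ⁻¹ ≤ Λ) :
    (1 + θ) / 2 * Λ ^ (θ - 1) * (a - b ^ θ⁻¹) ^ 2 ≤
      θ⁻¹ * a ^ (1 + θ) + b ^ (1 + θ⁻¹) - (1 + θ⁻¹) * (a * b) := by
  set w := b ^ θ⁻¹ with hw
  have hw0 : 0 ≤ w := Real.rpow_nonneg hb _
  have hbw : b = w ^ θ := by rw [hw, Real.rpow_inv_rpow hb h0.ne']
  have hb2 : b ^ (1 + θ⁻¹) = b * w := by
    rw [Real.rpow_add' hb (by positivity), Real.rpow_one]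
  have hw2 : w ^ (1 + θ) = w * b := by
    rw [Real.rpow_add' hw0 (by positivity), Real.rpow_one, ← hbw]
  set L := Λ ^ (θ - 1) with hL
  have key := tangent_le (f := fun t => t ^ (1 + θ) - (1 + θ) * θ * L / 2 * t ^ 2)
    (f' := fun t => (1 + θ) * t ^ θ - (1 + θ) * θ * L * t) (s := Icc 0 Λ) ordConnected_Icc
    (fun x _ => by
      have h2 := Real.hasDerivAt_rpow_const (x := x) (p := 1 + θ) (Or.inr (by linarith))
      have h3 := (hasDerivAt_pow 2 x).const_mul ((1 + θ) * θ * L / 2)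
      refine (h2.sub h3).congr_deriv ?_
      rw [add_sub_cancel_left]
      norm_num
      ring)
    (fun x hx y hy hxy => by
      have := mul_le_mul_of_nonneg_left (rpow_sub_ge h0 h1 hx.1 hxy hy.2)
        (show (0 : ℝ) ≤ 1 + θ by linarith)
      simp only
      rw [← hL] at this
      nlinarith) (u := w) (v := a) ⟨hw0, hbΛ⟩ ⟨ha, haΛ⟩
  rw [hw2, ← hbw] at key
  have h6 := mul_le_mul_of_nonneg_left key (inv_nonneg.2 h0.le)
  rw [hb2]
  have h7 : θ⁻¹ * (a ^ (1 + θ) - (1 + θ) * θ * L / 2 * a ^ 2) -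
      θ⁻¹ * (w * b - (1 + θ) * θ * L / 2 * w ^ 2 + ((1 + θ) * b - (1 + θ) * θ * L * w) * (a - w)) =
      θ⁻¹ * a ^ (1 + θ) + b * w - (1 + θ⁻¹) * (a * b) - (1 + θ) / 2 * L * (a - w) ^ 2 := by
    field_simp
    ring
  linarith

/-- A standard unit column. -/
def ev (a : n) : Matrix n Unit ℂ := Matrix.of fun j _ => if j = a then 1 else 0

theorem mul_ev (X : Matrix m n ℂ) (a : n) (i : m) (u : Unit) : (X * ev a) i u = X i a := by
  simp [ev, Matrix.mul_apply]

theorem norm_mul_ev_sq (X : Matrix m n ℂ) (a : n) :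
    ‖X * ev a‖ ^ 2 = ∑ i, Complex.normSq (X i a) := by
  rw [norm_sq_eq]
  simp [mul_ev]

theorem norm_sq_eq_ev (X : Matrix m n ℂ) : ‖X‖ ^ 2 = ∑ a : n, ‖X * ev a‖ ^ 2 := by
  rw [norm_sq_eq, Finset.sum_comm]
  simp [norm_mul_ev_sq]

theorem norm_ev (a : n) : ‖ev a‖ = 1 := by
  rw [← sq_eq_sq₀ (norm_nonneg _) zero_le_one, norm_sq_eq]
  simp [ev, apply_ite Complex.normSq]

theorem diag_mul_ev (d : n → ℝ) (a : n) :
    (diagonal fun i => (d i : ℂ)) * ev a = d a • ev a := by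
  ext i u
  rw [mul_ev]
  by_cases h : i = a
  · subst h; simp [ev]
  · simp [ev, h]

/-- The inclusion of a set of coordinates. -/
def inc (p : n → Prop) : Matrix n {j // p j} ℂ := Matrix.of fun i j => if i = j.1 then 1 else 0

theorem inc_ct_mul (p : n → Prop) [DecidablePred p] : (inc p)ᴴ * inc p = 1 := by
  ext i j
  simp [inc, Matrix.mul_apply, Matrix.one_apply, Subtype.ext_iff, eq_comm]

theorem inc_mul_ct (p : n → Prop) [DecidablePred p] :
    inc p * (inc p)ᴴ = diagonal fun i => (((if p i then 1 else 0 : ℝ)) : ℂ) := by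
  ext i j
  simp only [inc, Matrix.mul_apply, conjTranspose_apply, of_apply]
  by_cases hi : p i
  · rw [Finset.sum_eq_single ⟨i, hi⟩]
    · by_cases h : i = j
      · subst h; simp [hi]
      · simp [h, Ne.symm h]
    · intro b _ hb
      rw [if_neg, zero_mul]
      intro h
      exact hb (Subtype.ext h.symm)
    · simp
  · rw [Finset.sum_eq_zero]
    · by_cases h : i = j
      · subst h; simp [hi]
      · simp [h]
    · intro b _
      rw [if_neg, zero_mul]
      intro h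
      exact hi (h ▸ b.2)

theorem diag_mul_inc (p : n → Prop) [DecidablePred p] (d : n → ℝ) :
    (diagonal fun i => (d i : ℂ)) * inc p = inc p * diagonal fun i : {j // p j} => (d i.1 : ℂ) := by
  ext i j
  rw [diagonal_mul, mul_diagonal]
  by_cases h : i = j.1
  · simp [inc, h]
  · simp [inc, h]

theorem inc_mul_ev (p : n → Prop) [DecidablePred p] (a : {j // p j}) : inc p * ev a = ev a.1 := by
  ext i u
  rw [mul_ev]
  simp [inc, ev]

/-- The core of `aje`: a spectral window of `K²` around `κ j₀ ^ 2`, separated by a gap. -/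
theorem window {m ι : Type} [Fintype m] [Fintype ι] [DecidableEq ι] {K U S : Matrix ι ι ℂ}
    {κ : ι → ℝ} (T : Matrix m ι ℂ) (hK : IsDiag K U κ) (hS : Sand K S) (j₀ : ι) (f : ℝ → Prop)
    [DecidablePred f] (hj₀ : f (κ j₀ * κ j₀)) {ε ω : ℝ} (hε : 0 < ε) (hε1 : ε ≤ 1) (hω : 0 < ω)
    (hin : ∀ j, f (κ j * κ j) → |κ j * κ j - κ j₀ * κ j₀| ≤ ε ^ 2)
    (hgap : ∀ j l, f (κ j * κ j) → ¬ f (κ l * κ l) → ω ≤ |κ j * κ j - κ l * κ l|)
    (hc : ‖K * K * S - S * (K * K)‖ ≤ ω * ε) {N : ℕ}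
    (hN : Fintype.card {j // f (κ j * κ j)} ≤ N) :
    ∃ (v : Matrix ι Unit ℂ) (σ : ℝ), ‖v‖ = 1 ∧ |σ| ≤ κ j₀ ∧
      ‖K * K * v - κ j₀ ^ 2 • v‖ ≤ ε ∧ ‖S * v - σ • v‖ ≤ 2 * ε ∧
      ‖T * U * ev j₀‖ ^ 2 ≤ N * ‖T * v‖ ^ 2 := by
  classical
  set p : ι → Prop := fun j => f (κ j * κ j) with hp
  set E : Matrix ι {j // p j} ℂ := U * inc p with hE
  have hKK := isDiag_mul hK hK
  have hEE : Eᴴ * E = 1 := by
    rw [hE, conjTranspose_mul, Matrix.mul_assoc, ← Matrix.mul_assoc Uᴴ, hK.uni, Matrix.one_mul,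
      inc_ct_mul]
  have hP : E * Eᴴ = cfc (fun t => if f t then (1 : ℝ) else 0) (K * K) := by
    rw [(isDiag_cfc hKK _).eq, hE, conjTranspose_mul, Matrix.mul_assoc,
      ← Matrix.mul_assoc (inc p), inc_mul_ct, Matrix.mul_assoc]
  have hcomm : ‖E * Eᴴ * S - S * (E * Eᴴ)‖ ≤ ε := by
    rw [hP]
    refine (norm_cfc_comm_le hKK hKK (L := ω⁻¹) (by positivity) (fun i j => ?_) S).trans ?_
    · by_cases hi : f (κ i * κ i) <;> by_cases hj : f (κ j * κ j)
      · simp only [hi, hj, if_true, sub_self, abs_zero]; positivity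
      · simp only [hi, hj, if_true, if_false, sub_zero, abs_one]
        rw [← div_eq_inv_mul, one_le_div hω]
        exact hgap i j hi hj
      · simp only [hi, hj, if_true, if_false, zero_sub, abs_neg, abs_one]
        rw [← div_eq_inv_mul, one_le_div hω, abs_sub_comm]
        exact hgap j i hj hi
      · simp only [hi, hj, if_false, sub_self, abs_zero]; positivity
    · rw [← div_eq_inv_mul, div_le_iff₀ hω]
      linarith
  have hSJ : (Eᴴ * S * E).IsHermitian := isHermitian_conjTranspose_mul_mul E hS.herm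
  obtain ⟨V, s, hV⟩ := exists_isDiag hSJ
  have hex : ∃ a : {j // p j}, ‖T * U * ev j₀‖ ^ 2 ≤ N * ‖T * (E * V * ev a)‖ ^ 2 := by
    by_contra hcon
    push Not at hcon
    have h1 : ‖T * U * ev j₀‖ ^ 2 ≤ ‖T * E‖ ^ 2 := by
      rw [norm_sq_eq_ev (T * E)]
      refine le_trans (le_of_eq ?_)
        (Finset.single_le_sum (f := fun a : {j // p j} => ‖T * E * ev a‖ ^ 2)
        (fun _ _ => sq_nonneg _) (Finset.mem_univ (⟨j₀, hj₀⟩ : {j // p j})))
      simp only [hE]
      rw [Matrix.mul_assoc T (U * inc p), Matrix.mul_assoc U, inc_mul_ev, Matrix.mul_assoc]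
    have h2 : ‖T * E‖ ^ 2 = ∑ a : {j // p j}, ‖T * (E * V * ev a)‖ ^ 2 := by
      rw [← norm_mul_coiso hV.uni' (T * E), norm_sq_eq_ev]
      simp only [Matrix.mul_assoc]
    have : Nonempty {j // p j} := ⟨⟨j₀, hj₀⟩⟩
    have h3 : ∑ a : {j // p j}, (N : ℝ) * ‖T * (E * V * ev a)‖ ^ 2 <
        ∑ _a : {j // p j}, ‖T * U * ev j₀‖ ^ 2 :=
      Finset.sum_lt_sum_of_nonempty Finset.univ_nonempty fun a _ => hcon a
    rw [← Finset.mul_sum, ← h2, Finset.sum_const, Finset.card_univ, nsmul_eq_mul] at h3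
    have h4 : (Fintype.card {j // p j} : ℝ) ≤ N := by exact_mod_cast hN
    have h5 := mul_le_mul h4 h1 (sq_nonneg _) (Nat.cast_nonneg _)
    linarith
  obtain ⟨a, ha⟩ := hex
  set y := V * ev a with hy
  have hy1 : ‖y‖ = 1 := by rw [hy, norm_iso_mul hV.uni, norm_ev]
  set v := E * V * ev a with hv
  have hvy : v = E * y := by rw [hv, hy, Matrix.mul_assoc]
  have hv1 : ‖v‖ = 1 := by rw [hvy, norm_iso_mul hEE, hy1]
  have hK2 : ‖K * K * v - κ j₀ ^ 2 • v‖ ≤ ε ^ 2 := by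
    have h1 : K * K * E = E * diagonal fun i : {j // p j} => ((κ i.1 * κ i.1 : ℝ) : ℂ) := by
      conv_lhs => rw [hKK.eq, hE]
      rw [Matrix.mul_assoc, ← Matrix.mul_assoc Uᴴ, hK.uni, Matrix.one_mul, Matrix.mul_assoc,
        diag_mul_inc p (fun i => κ i * κ i), hE, Matrix.mul_assoc]
    have h2 : K * K * v - κ j₀ ^ 2 • v =
        E * ((diagonal fun i : {j // p j} => ((κ i.1 * κ i.1 - κ j₀ * κ j₀ : ℝ) : ℂ)) * y) := by
      have h3 : (diagonal fun i : {j // p j} => ((κ i.1 * κ i.1 - κ j₀ * κ j₀ : ℝ) : ℂ)) =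
          (diagonal fun i : {j // p j} => ((κ i.1 * κ i.1 : ℝ) : ℂ)) - κ j₀ ^ 2 • 1 := by
        ext i j
        by_cases h : i = j
        · subst h; simp [sq]
        · simp [h]
      rw [h3, hvy, ← Matrix.mul_assoc (K * K), h1, Matrix.sub_mul, Matrix.mul_sub, Matrix.smul_mul,
        Matrix.one_mul, Matrix.mul_smul, Matrix.mul_assoc]
    rw [h2, norm_iso_mul hEE]
    have := (op_diagonal (sq_nonneg ε) fun i : {j // p j} => hin i.1 i.2).mul_le y
    rwa [hy1, mul_one] at this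
  have hSy : Eᴴ * S * E * y = s a • y := by
    rw [hy]
    conv_lhs => rw [hV.eq]
    rw [Matrix.mul_assoc, ← Matrix.mul_assoc Vᴴ, hV.uni, Matrix.one_mul, Matrix.mul_assoc,
      diag_mul_ev, Matrix.mul_smul]
  have hS2 : ‖S * v - s a • v‖ ≤ ε := by
    have h1 : S * v - s a • v = -((E * Eᴴ * S - S * (E * Eᴴ)) * v) := by
      have h2 : E * Eᴴ * S * v = s a • v := by
        rw [hvy, ← Matrix.mul_smul, ← hSy]
        simp only [Matrix.mul_assoc]
      have h3 : S * (E * Eᴴ) * v = S * v := by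
        rw [hvy, Matrix.mul_assoc, Matrix.mul_assoc, ← Matrix.mul_assoc Eᴴ, hEE, Matrix.one_mul]
      rw [Matrix.sub_mul, h2, h3, neg_sub]
    rw [h1, norm_neg]
    refine (norm_mul_le' _ _).trans ?_
    rw [hv1, mul_one]
    exact hcomm
  have hκ0 : 0 ≤ κ j₀ := hK.nonneg hS.psd j₀
  have hs : |s a| ≤ κ j₀ + ε := by
    have h1 : tr (vᴴ * S * v) = s a := by
      have : vᴴ * S * v = yᴴ * (Eᴴ * S * E * y) := by
        rw [hvy, conjTranspose_mul]
        simp only [Matrix.mul_assoc]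
      rw [this, hSy, Matrix.mul_smul, tr_smul, tr_ct_mul_self, hy1]
      simp
    have h2 := tr_nonneg (hS.up.conjTranspose_mul_mul_same v)
    have h3 := tr_nonneg (hS.lo.conjTranspose_mul_mul_same v)
    rw [Matrix.mul_sub, Matrix.sub_mul, tr_sub, h1] at h2
    rw [Matrix.mul_add, Matrix.add_mul, tr_add, h1] at h3
    have h4 : tr (vᴴ * K * v) ≤ ‖K * v‖ := by
      rw [Matrix.mul_assoc]
      refine (tr_mul_le _ _).trans ?_
      rw [norm_ct, hv1, one_mul]
    have h5 : ‖K * v‖ ^ 2 ≤ (κ j₀ + ε) ^ 2 := by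
      have h6 : ‖K * v‖ ^ 2 = tr (vᴴ * (K * K * v - κ j₀ ^ 2 • v)) + κ j₀ ^ 2 := by
        rw [← tr_ct_mul_self, conjTranspose_mul, hS.psd.1.eq, Matrix.mul_sub, tr_sub,
          Matrix.mul_smul, tr_smul, tr_ct_mul_self, hv1]
        simp only [Matrix.mul_assoc]
        ring
      have h7 := tr_mul_le vᴴ (K * K * v - κ j₀ ^ 2 • v)
      rw [norm_ct, hv1, one_mul] at h7
      nlinarith
    have h8 := le_of_sq_le' h5 (by positivity)
    rw [abs_le]
    constructor <;> linarith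
  refine ⟨v, max (-κ j₀) (min (κ j₀) (s a)), hv1, ?_, hK2.trans (by nlinarith), ?_, ha⟩
  · rw [abs_le]
    exact ⟨le_max_left _ _, max_le (by linarith) (min_le_left _ _)⟩
  · have h1 : S * v - max (-κ j₀) (min (κ j₀) (s a)) • v =
        (S * v - s a • v) + (s a - max (-κ j₀) (min (κ j₀) (s a))) • v := by
      rw [sub_smul]; abel
    rw [h1]
    refine (norm_add_le _ _).trans ?_
    rw [norm_smul, hv1, mul_one, Real.norm_eq_abs]
    have h2 : |s a - max (-κ j₀) (min (κ j₀) (s a))| ≤ ε := by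
      have := abs_le.1 hs
      rw [abs_le]
      rcases le_total (κ j₀) (s a) with h | h
      · rw [min_eq_left h, max_eq_right (by linarith)]
        constructor <;> linarith [this.2]
      · rw [min_eq_right h]
        rcases le_total (-κ j₀) (s a) with h' | h'
        · rw [max_eq_right h']
          constructor <;> linarith
        · rw [max_eq_left h']
          constructor <;> linarith [this.1]
    linarith

end LinAux

open LinAux

/-- Young's trace inequality: pair sum of the scalar `(1+r) w y ≤ r w^(1+θ) + y^(1+r)`, r = θ⁻¹. -/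
theorem gY_nonneg {θ : ℝ} (h0 : 0 < θ) {w ρ : Matrix n n ℂ} (hw : w.PosSemidef)
    (hρ : ρ.PosSemidef) : 0 ≤ gY θ w ρ := by
  obtain ⟨U, a, ha⟩ := exists_isDiag hw.1
  obtain ⟨V, b, hb⟩ := exists_isDiag hρ.1
  rw [gY_pair ha hb]
  exact Finset.sum_nonneg fun i _ => Finset.sum_nonneg fun j _ =>
    mul_nonneg (ov_nonneg U V i j) (young h0 (ha.nonneg hw i) (hb.nonneg hρ j))

/-- Quantitative Young. Scalar form: with w₀ = y^r, p = 1+θ ∈ (1,2), the gap equals
`r (w^p - w₀^p - p w₀^θ (w - w₀)) ≥ (p/2) Λ^(θ-1) (w - w₀)²` for w, w₀ ∈ [0, Λ] (the function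
`w^p - (pθ/2) Λ^(θ-1) w²` is convex on [0,Λ]); then `pair_nonneg`. Any positive constant will do. -/
theorem gY_lower {θ : ℝ} (h0 : 0 < θ) (h1 : θ < 1) (Λ : ℝ) : ∃ C : ℝ, 0 < C ∧
    ∀ (n : Type) [Fintype n] [DecidableEq n] (w ρ : Matrix n n ℂ), w.PosSemidef → ρ.PosSemidef →
      Op w Λ → Op (pw θ⁻¹ ρ) Λ → ‖w - pw θ⁻¹ ρ‖ ^ 2 ≤ C * gY θ w ρ := by
  have hL : 0 < (1 + θ) / 2 * (|Λ| + 1) ^ (θ - 1) := by positivity
  refine ⟨((1 + θ) / 2 * (|Λ| + 1) ^ (θ - 1))⁻¹, inv_pos.2 hL, fun n _ _ w ρ hw hρ h2 h3 => ?_⟩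
  obtain ⟨U, a, ha⟩ := exists_isDiag hw.1
  obtain ⟨V, b, hb⟩ := exists_isDiag hρ.1
  rw [← div_eq_inv_mul, le_div_iff₀ hL, gY_pair ha hb, norm_sub_sq_pair ha (isDiag_pw hb _),
    Finset.sum_mul]
  refine Finset.sum_le_sum fun i _ => ?_
  rw [Finset.sum_mul]
  refine Finset.sum_le_sum fun j _ => ?_
  rw [mul_assoc]
  refine mul_le_mul_of_nonneg_left ?_ (ov_nonneg U V i j)
  rw [mul_comm]
  have e1 := (le_abs_self _).trans (h2.abs_eig_le ha i)
  have e2 := (le_abs_self _).trans (h3.abs_eig_le (isDiag_pw hb _) j)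
  have e3 := le_abs_self Λ
  exact young_lower h0 h1 (ha.nonneg hw i) (hb.nonneg hρ j) (by linarith) (by linarith)

/-- Monotonicity of `tr (K^(2γ))` in `K²`. Recipe: pw q K = pw (q/2) (K*K); `klein` for t^(q/2),
which is convex (q ≥ 2: tangent at K₀²) or concave (q ≤ 2: tangent at K²) on (0,∞); the tangent
term is the trace of a product of two PSD matrices. -/
theorem tr_pw_mono {K₀ K : Matrix n n ℂ} (h₀ : K₀.PosDef) (h : K.PosDef)
    (hle : (K * K - K₀ * K₀).PosSemidef) {q : ℝ} (hq : 0 < q) : tr (pw q K₀) ≤ tr (pw q K) := by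
  obtain ⟨U, a, ha⟩ := exists_isDiag h₀.1
  obtain ⟨V, b, hb⟩ := exists_isDiag h.1
  have ha0 := isDiag_pos ha h₀
  have hb0 := isDiag_pos hb h
  have haa := isDiag_mul ha ha
  have hbb := isDiag_mul hb hb
  have hpow : ∀ t : ℝ, 0 < t → (t * t) ^ (q / 2) = t ^ q := fun t ht => by
    rw [Real.mul_rpow ht.le ht.le, ← Real.rpow_add ht, add_halves]
  have hd : ∀ x ∈ Ioi (0 : ℝ), HasDerivAt (fun t : ℝ => t ^ (q / 2)) (q / 2 * x ^ (q / 2 - 1)) x :=
    fun x hx => Real.hasDerivAt_rpow_const (Or.inl (ne_of_gt hx))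
  rw [isDiag_tr (isDiag_pw ha q), isDiag_tr (isDiag_pw hb q)]
  rcases le_total 1 (q / 2) with hs | hs
  · have hk := klein haa hbb (φ := fun t => t ^ (q / 2)) (φ' := fun t => q / 2 * t ^ (q / 2 - 1))
      fun i j => tangent_le ordConnected_Ioi hd (fun x hx y _ hxy =>
        mul_le_mul_of_nonneg_left (Real.rpow_le_rpow (le_of_lt hx) hxy (by linarith))
          (by positivity)) (mul_pos (ha0 i) (ha0 i)) (mul_pos (hb0 j) (hb0 j))
    have h1 := tr_mul_nonneg (isDiag_psd (isDiag_cfc haa (fun t => q / 2 * t ^ (q / 2 - 1)))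
      fun i => by have := ha0 i; positivity) hle
    rw [tr_cfc haa, tr_cfc hbb] at hk
    simp only [hpow _ (ha0 _), hpow _ (hb0 _)] at hk
    linarith
  · have hk := klein hbb haa (φ := fun t => -t ^ (q / 2))
      (φ' := fun t => -(q / 2 * t ^ (q / 2 - 1)))
      fun i j => tangent_le ordConnected_Ioi (fun x hx => (hd x hx).neg) (fun x hx y _ hxy =>
        neg_le_neg (mul_le_mul_of_nonneg_left (Real.rpow_le_rpow_of_nonpos hx hxy (by linarith))
          (by positivity))) (mul_pos (hb0 i) (hb0 i)) (mul_pos (ha0 j) (ha0 j))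
    have h1 := tr_mul_nonneg (isDiag_psd (isDiag_neg (isDiag_cfc hbb
      (fun t => -(q / 2 * t ^ (q / 2 - 1)))))
      fun i => by have := hb0 i; rw [neg_neg]; positivity) hle
    rw [tr_cfc haa, tr_cfc hbb] at hk
    simp only [hpow _ (ha0 _), hpow _ (hb0 _), Finset.sum_neg_distrib] at hk
    rw [Matrix.neg_mul, ← Matrix.mul_neg, neg_sub] at h1
    linarith

/-- Approximate joint eigenvectors of two almost commuting matrices, seen by T.
Recipe (WLOG 0 < M; conjugate by an eigenbasis of K so that K = diag κ_j, λ_j = κ_j²).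
Let δ > 0 with δ² M² ≤ η/2 and N₀ ∈ ℕ with N₀ ≥ M/(δ/2)^q, N₀ ≥ 1, so #{j | κ_j > δ/2} ≤ N₀.
‖T K‖² = Σ κ_j² ‖T e_j‖² ≥ η gives j₀ with κ_{j₀} > δ and ‖T e_{j₀}‖² ≥ η/(2 M² N₀). Take
c' = √(η/(2M²N₀))/N₀. Given ε choose ω > 0 with (N₀+1) ω ≤ min(3δ²/4, ε') and c = ω ε'. Among the
N₀+1 annuli {j | iω < |λ_j - λ_{j₀}| ≤ (i+1)ω}, i = 0..N₀, all inside {κ_j > δ/2}, one is empty;
J = {j | |λ_j - λ_{j₀}| ≤ iω} has #J ≤ N₀ and Σ_{l ∉ J, j ∈ J} |S_lj|² ≤ c²/ω². Diagonalise the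
submatrix S_JJ, extend its eigenvectors v_i by zero; e_{j₀} = Σ conj(U_{j₀ i}) v_i, so some
‖T v_i‖ ≥ c'. Put κ = κ_{j₀}; the eigenvalue σ₀ = ⟨v,Sv⟩ satisfies |σ₀| ≤ ⟨v,Kv⟩ ≤ ‖Kv‖ ≤ √(κ²+ε')
≤ κ + √ε'; clamp σ₀ to [-κ,κ] and take ε' with ε' + √ε' ≤ ε. -/
theorem aje (M η q : ℝ) (hη : 0 < η) (hq : 0 < q) : ∃ c' : ℝ, 0 < c' ∧ ∀ ε : ℝ, 0 < ε →
    ∃ c : ℝ, 0 < c ∧ ∀ (m ι : Type) [Fintype m] [Fintype ι] [DecidableEq ι]
      (K S : Matrix ι ι ℂ) (T : Matrix m ι ℂ), Sand K S → Op K M → tr (pw q K) ≤ M → ‖T‖ ≤ M →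
      η ≤ ‖T * K‖ ^ 2 → ‖K * K * S - S * (K * K)‖ ≤ c →
      ∃ (v : Matrix ι Unit ℂ) (κ σ : ℝ), ‖v‖ = 1 ∧ κ ≤ M ∧ |σ| ≤ κ ∧
        ‖K * K * v - κ ^ 2 • v‖ ≤ ε ∧ ‖S * v - σ • v‖ ≤ ε ∧ c' ≤ ‖T * v‖ := by
  classical
  set M' := |M| + 1 with hM'
  have hM0 : 0 < M' := by positivity
  have hMM : M ≤ M' := by have := le_abs_self M; linarith
  set δ := √η / (2 * M') with hδ
  have hδ0 : 0 < δ := by positivity
  have hδ2 : δ ^ 2 * M' ^ 2 = η / 4 := by
    rw [hδ, div_pow, Real.sq_sqrt hη.le]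
    field_simp
    ring
  have hδq : 0 < (δ / 2) ^ q := by positivity
  set N : ℕ := ⌈M' / (δ / 2) ^ q⌉₊ with hN
  have hN0 : 0 < N := Nat.ceil_pos.2 (by positivity)
  have hNr : (0 : ℝ) < N := by exact_mod_cast hN0
  set τ := η / (2 * M' ^ 2 * N) with hτ
  have hτ0 : 0 < τ := by positivity
  refine ⟨√(τ / N), by positivity, fun ε hε => ?_⟩
  set ε₁ := min (ε / 2) 1 with hε₁
  have hε₁0 : 0 < ε₁ := by positivity
  set ω := min (3 * δ ^ 2 / 4) (ε₁ ^ 2) / (N + 1) with hω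
  have hω0 : 0 < ω := by positivity
  have hωN : (N + 1) * ω = min (3 * δ ^ 2 / 4) (ε₁ ^ 2) := by rw [hω]; field_simp
  refine ⟨ω * ε₁, by positivity, fun m ι _ _ _ K S T hS hK htr hT hTK hc => ?_⟩
  obtain ⟨U, κ, hU⟩ := exists_isDiag hS.psd.1
  have hκ0 : ∀ j, 0 ≤ κ j := hU.nonneg hS.psd
  have hκM : ∀ j, κ j ≤ M := fun j => (le_abs_self _).trans (hK.abs_eig_le hU j)
  set B : Finset ι := Finset.univ.filter fun j => δ / 2 < κ j with hB
  have hBN : B.card ≤ N := by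
    have h1 : (B.card : ℝ) * (δ / 2) ^ q ≤ M' := by
      rw [isDiag_tr (isDiag_pw hU q)] at htr
      calc (B.card : ℝ) * (δ / 2) ^ q = ∑ _j ∈ B, (δ / 2) ^ q := by simp
        _ ≤ ∑ j ∈ B, κ j ^ q := Finset.sum_le_sum fun j hj =>
            Real.rpow_le_rpow (by positivity) (Finset.mem_filter.1 hj).2.le hq.le
        _ ≤ ∑ j, κ j ^ q := Finset.sum_le_sum_of_subset_of_nonneg (Finset.subset_univ _)
            fun j _ _ => Real.rpow_nonneg (hκ0 j) q
        _ ≤ M' := htr.trans hMM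
    have h2 : (B.card : ℝ) ≤ N := ((le_div_iff₀ hδq).2 h1).trans (Nat.le_ceil _)
    exact_mod_cast h2
  have hj₀ : ∃ j₀ : ι, δ < κ j₀ ∧ τ ≤ ‖T * U * ev j₀‖ ^ 2 := by
    by_contra hcon
    push Not at hcon
    have h1 : ‖T * K‖ ^ 2 = ∑ j : ι, κ j ^ 2 * ‖T * U * ev j‖ ^ 2 := by
      conv_lhs => rw [hU.eq]
      rw [← Matrix.mul_assoc, norm_mul_coiso (by simpa using hU.uni), norm_sq_eq_ev]
      refine Finset.sum_congr rfl fun j _ => ?_
      rw [Matrix.mul_assoc, Matrix.mul_assoc, diag_mul_ev, Matrix.mul_smul, Matrix.mul_smul,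
        norm_smul, mul_pow, Real.norm_eq_abs, sq_abs, Matrix.mul_assoc]
    have h2 : ∑ j : ι, ‖T * U * ev j‖ ^ 2 ≤ M' ^ 2 := by
      rw [← norm_sq_eq_ev, norm_mul_coiso hU.uni']
      exact pow_le_pow_left₀ (norm_nonneg _) (hT.trans hMM) 2
    have h3 : ∀ j : ι, κ j ^ 2 * ‖T * U * ev j‖ ^ 2 ≤
        δ ^ 2 * ‖T * U * ev j‖ ^ 2 + if j ∈ B then M' ^ 2 * τ else 0 := by
      intro j
      by_cases hj : δ < κ j
      · rw [if_pos (by simp only [hB, Finset.mem_filter, Finset.mem_univ, true_and]; linarith)]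
        have e1 : κ j ^ 2 ≤ M' ^ 2 := pow_le_pow_left₀ (hκ0 j) ((hκM j).trans hMM) 2
        have e2 := mul_le_mul e1 (hcon j hj).le (sq_nonneg _) (sq_nonneg _)
        have e3 : 0 ≤ δ ^ 2 * ‖T * U * ev j‖ ^ 2 := by positivity
        linarith
      · have e1 : κ j ^ 2 ≤ δ ^ 2 := pow_le_pow_left₀ (hκ0 j) (not_lt.1 hj) 2
        have e2 := mul_le_mul_of_nonneg_right e1 (sq_nonneg ‖T * U * ev j‖)
        have e3 : (0 : ℝ) ≤ if j ∈ B then M' ^ 2 * τ else 0 := by
          split_ifs <;> positivity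
        linarith
    have h4 := Finset.sum_le_sum fun j (_ : j ∈ Finset.univ) => h3 j
    rw [← h1, Finset.sum_add_distrib, ← Finset.mul_sum, Finset.sum_ite_mem, Finset.univ_inter,
      Finset.sum_const, nsmul_eq_mul] at h4
    have h5 : (B.card : ℝ) * (M' ^ 2 * τ) ≤ N * (M' ^ 2 * τ) :=
      mul_le_mul_of_nonneg_right (by exact_mod_cast hBN) (by positivity)
    have h6 : N * (M' ^ 2 * τ) = η / 2 := by rw [hτ]; field_simp
    have h7 := mul_le_mul_of_nonneg_left h2 (sq_nonneg δ)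
    linarith
  obtain ⟨j₀, hj₀, hTj⟩ := hj₀
  set φ : ℝ → ℕ := fun t => ⌈|t - κ j₀ * κ j₀| / ω⌉₊ with hφ
  have hφle : ∀ t (i : ℕ), φ t ≤ i ↔ |t - κ j₀ * κ j₀| ≤ i * ω := fun t i => by
    rw [hφ, Nat.ceil_le, div_le_iff₀ hω0]
  have hφB : ∀ j, φ (κ j * κ j) ≤ N + 1 → j ∈ B := by
    intro j hj
    rw [hφle] at hj
    push_cast at hj
    have e1 := (abs_le.1 hj).1
    have e2 := min_le_left (3 * δ ^ 2 / 4) (ε₁ ^ 2)
    simp only [hB, Finset.mem_filter, Finset.mem_univ, true_and]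
    by_contra hcon
    have e3 := not_lt.1 hcon
    have e4 := hκ0 j
    nlinarith
  have hi : ∃ i ≤ N, ∀ j, φ (κ j * κ j) ≠ i + 1 := by
    by_contra hcon
    push Not at hcon
    have hsub : (Finset.range (N + 1)).image (· + 1) ⊆ B.image fun j => φ (κ j * κ j) := by
      intro x hx
      obtain ⟨i, hi, rfl⟩ := Finset.mem_image.1 hx
      have hi' : i ≤ N := Nat.lt_succ_iff.1 (Finset.mem_range.1 hi)
      obtain ⟨j, hj⟩ := hcon i hi'
      exact Finset.mem_image.2 ⟨j, hφB j (by omega), hj⟩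
    have e1 := Finset.card_le_card hsub
    rw [Finset.card_image_of_injective _ (add_left_injective 1), Finset.card_range] at e1
    have e2 := Finset.card_image_le (s := B) (f := fun j => φ (κ j * κ j))
    omega
  obtain ⟨i, hiN, hi⟩ := hi
  have hir : (i : ℝ) ≤ N := by exact_mod_cast hiN
  obtain ⟨v, σ, hv1, hσ, hKv, hSv, hTv⟩ := window T hU hS j₀ (fun t => φ t ≤ i)
    (by rw [hφle]; simp only [sub_self, abs_zero]; positivity) hε₁0 (min_le_right _ _) hω0
    (fun j hj => by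
      rw [hφle] at hj
      have e2 := min_le_right (3 * δ ^ 2 / 4) (ε₁ ^ 2)
      nlinarith)
    (fun j l hj hl => by
      have hl' : ¬ φ (κ l * κ l) ≤ i + 1 := by
        have := hi l
        omega
      rw [hφle] at hj hl'
      push_cast at hl'
      have e1 := abs_sub_le (κ l * κ l) (κ j * κ j) (κ j₀ * κ j₀)
      rw [abs_sub_comm]
      linarith [not_le.1 hl'])
    hc (N := N) (by
      rw [Fintype.card_subtype]
      refine le_trans (Finset.card_le_card fun j hj => hφB j ?_) hBN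
      have := (Finset.mem_filter.1 hj).2
      omega)
  have e1 := min_le_left (ε / 2) 1
  refine ⟨v, κ j₀, σ, hv1, hκM j₀, hσ, by linarith, by linarith, ?_⟩
  refine Real.sqrt_le_iff.2 ⟨norm_nonneg _, ?_⟩
  rw [div_le_iff₀ hNr]
  linarith

/-- Simultaneous diagonalisation by maximality.
Recipe: by induction on k ≤ m there is an isometry U_k : Matrix (Fin m) (Fin k) ℂ (U_kᴴ U_k = 1) whose
columns are profile eigenvectors. Step: Q = 1 - U_k U_kᴴ is a nonzero projection (trace m - k)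
commuting with W x for a.e. x. If some profile eigenvector u has Q u ≠ 0, add Q u/‖Q u‖. Otherwise
the hypothesis gives W x Q = 0 a.e., so a nonzero column u of Q is an eigenvector with profile a₀
and Q u = u ≠ 0, again a new column. -/
theorem simDiag {m : ℕ} {α : Type} (P : α → ℝ → ℝ) (a₀ : α) (h₀ : ∀ x, P a₀ x = 0)
    (W : ℝ → Matrix (Fin m) (Fin m) ℂ) (hW : ∀ x, (W x).IsHermitian)
    (h : ∀ Q : Matrix (Fin m) (Fin m) ℂ, Q.IsHermitian → Q * Q = Q →
      (∀ (u : Matrix (Fin m) Unit ℂ) (a : α), (∀ᵐ x : ℝ, W x * u = P a x • u) → Q * u = 0) →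
      ∀ᵐ x : ℝ, W x * Q = 0) :
    ∃ (U : Matrix.unitaryGroup (Fin m) ℂ) (a : Fin m → α),
      ∀ᵐ x : ℝ, W x = (U : Matrix (Fin m) (Fin m) ℂ) *
        Matrix.diagonal (fun i => ((P (a i) x : ℝ) : ℂ)) * star (U : Matrix (Fin m) (Fin m) ℂ) := by
  classical
  have key : ∀ k, k ≤ m → ∃ (U : Matrix (Fin m) (Fin k) ℂ) (a : Fin k → α), Uᴴ * U = 1 ∧
      ∀ᵐ x : ℝ, W x * U = U * diagonal fun i => ((P (a i) x : ℝ) : ℂ) := by
    intro k
    induction k with
    | zero =>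
      intro _
      exact ⟨0, Fin.elim0, Subsingleton.elim _ _, Eventually.of_forall fun x => by simp⟩
    | succ k ih =>
      intro hk
      obtain ⟨U, a, hU, hWU⟩ := ih (by omega)
      set Q : Matrix (Fin m) (Fin m) ℂ := 1 - U * Uᴴ with hQ
      have hQh : Q.IsHermitian := isHermitian_one.sub (isHermitian_mul_conjTranspose_self U)
      have hUQ : Uᴴ * Q = 0 := by
        rw [hQ, Matrix.mul_sub, Matrix.mul_one, ← Matrix.mul_assoc, hU, Matrix.one_mul, sub_self]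
      have hQQ : Q * Q = Q := by
        conv_lhs => enter [1]; rw [hQ]
        rw [Matrix.sub_mul, Matrix.one_mul, Matrix.mul_assoc, hUQ, Matrix.mul_zero, sub_zero]
      have hQ0 : Q ≠ 0 := by
        intro h0
        have h1 : tr Q = m - k := by
          rw [hQ, tr_sub, tr_mul_comm, hU, tr_one, tr_one]; simp
        rw [h0, tr_zero] at h1
        have : (k : ℝ) + 1 ≤ m := by exact_mod_cast hk
        linarith
      have hWQ : ∀ᵐ x : ℝ, W x * Q = Q * W x := by
        filter_upwards [hWU] with x hx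
        have h1 : Uᴴ * W x = (diagonal fun i => ((P (a i) x : ℝ) : ℂ)) * Uᴴ := by
          have := congrArg conjTranspose hx
          rw [conjTranspose_mul, conjTranspose_mul, (hW x).eq,
            (isDiag_diagonal fun i => P (a i) x).isHermitian.eq] at this
          exact this
        rw [hQ, Matrix.mul_sub, Matrix.sub_mul, Matrix.mul_one, Matrix.one_mul,
          ← Matrix.mul_assoc, hx, Matrix.mul_assoc U Uᴴ, h1, Matrix.mul_assoc]
      have hex : ∃ (u : Matrix (Fin m) Unit ℂ) (b : α), (∀ᵐ x : ℝ, W x * u = P b x • u) ∧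
          Q * u ≠ 0 := by
        by_contra hcon
        push Not at hcon
        have h1 := h Q hQh hQQ hcon
        apply hQ0
        ext i j
        have h2 := hcon (Q * ev j) a₀ (by
          filter_upwards [h1] with x hx
          rw [← Matrix.mul_assoc, hx, h₀, zero_smul, Matrix.zero_mul])
        rw [← Matrix.mul_assoc, hQQ] at h2
        rw [← mul_ev Q j i (), h2]
        rfl
      obtain ⟨u, b, hu, hu0⟩ := hex
      set v : Matrix (Fin m) Unit ℂ := ‖Q * u‖⁻¹ • (Q * u) with hv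
      have hv1 : ‖v‖ = 1 := by
        rw [hv, norm_smul, norm_inv, norm_norm, inv_mul_cancel₀ (norm_ne_zero_iff.2 hu0)]
      have hUv : Uᴴ * v = 0 := by
        rw [hv, Matrix.mul_smul, ← Matrix.mul_assoc, hUQ, Matrix.zero_mul, smul_zero]
      have hvU : vᴴ * U = 0 := by
        have := congrArg conjTranspose hUv
        rwa [conjTranspose_mul, conjTranspose_conjTranspose, conjTranspose_zero] at this
      have hvv : (vᴴ * v) () () = 1 := by
        have h1 := norm_sq_eq v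
        rw [hv1] at h1
        simp only [Matrix.mul_apply, conjTranspose_apply, Complex.star_def,
          ← Complex.normSq_eq_conj_mul_self, ← Complex.ofReal_sum]
        simp only [Finset.univ_unique, Finset.sum_singleton, one_pow] at h1
        exact_mod_cast h1.symm
      have hWv : ∀ᵐ x : ℝ, W x * v = P b x • v := by
        filter_upwards [hWQ, hu] with x hx hx'
        rw [hv, Matrix.mul_smul, ← Matrix.mul_assoc, hx, Matrix.mul_assoc, hx', Matrix.mul_smul,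
          smul_comm]
      refine ⟨Matrix.of fun i j => (Fin.cons (v i ()) (U i) : Fin (k + 1) → ℂ) j, Fin.cons b a,
        ?_, ?_⟩
      · ext j l
        refine Fin.cases ?_ (fun j => ?_) j <;> refine Fin.cases ?_ (fun l => ?_) l
        · simpa [Matrix.mul_apply] using hvv
        · have := congrFun (congrFun hvU ()) l
          simpa [Matrix.mul_apply, (Fin.succ_ne_zero l).symm] using this
        · have := congrFun (congrFun hUv j) ()
          simpa [Matrix.mul_apply, Fin.succ_ne_zero j] using this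
        · have := congrFun (congrFun hU j) l
          simpa [Matrix.mul_apply, Matrix.one_apply] using this
      · filter_upwards [hWU, hWv] with x hx hx'
        ext i j
        rw [mul_diagonal]
        refine Fin.cases ?_ (fun j => ?_) j
        · have := congrFun (congrFun hx' i) ()
          simpa [Matrix.mul_apply, mul_comm] using this
        · have := congrFun (congrFun hx i) j
          rw [mul_diagonal] at this
          simpa [Matrix.mul_apply] using this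
  obtain ⟨U, a, hU, hWU⟩ := key m le_rfl
  refine ⟨⟨U, Matrix.mem_unitaryGroup_iff'.2 hU⟩, a, ?_⟩
  filter_upwards [hWU] with x hx
  simp only [star_eq_conjTranspose]
  rw [← hx, Matrix.mul_assoc, uni_comm hU, Matrix.mul_one]

end Crest.Agent.R332
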