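import Crest.Agent.R332.Defs

/-!
Row 332: reduction of a trial family to a matrix-valued function with negative definite energy.
-/

set_option autoImplicit false
set_option linter.unusedSectionVars false

namespace Crest.Agent.R332

open Matrix Crest.Agent.Lib.QEnt Filter Topology MeasureTheory Set
open scoped ComplexOrder Matrix.Norms.Frobenius

variable {m n : Type} [Fintype m] [Fintype n] [DecidableEq m] [DecidableEq n]

open Crest.MathPhysics.LiebThirring

theorem hasCompactSupport_of_vanish {E : Type*} [Zero E] {f : ℝ → E} {L : ℝ}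
    (hL : ∀ x, x ≤ -L ∨ L ≤ x → f x = 0) : HasCompactSupport f := by
  refine HasCompactSupport.intro (K := Icc (-L) L) isCompact_Icc fun x hx => hL x ?_
  by_contra h
  push Not at h
  exact hx ⟨h.1.le, h.2.le⟩

theorem integrable_of_vanish {E : Type*} [NormedAddCommGroup E] {f : ℝ → E} (hf : Continuous f)
    {L : ℝ} (hL : ∀ x, x ≤ -L ∨ L ≤ x → f x = 0) : Integrable f :=
  hf.integrable_of_hasCompactSupport (hasCompactSupport_of_vanish hL)

theorem interval_integral_of_vanish {f : ℝ → ℝ} {L : ℝ}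
    (hL : ∀ x, x ≤ -L ∨ L ≤ x → f x = 0) : ∫ x in (-L)..L, f x = ∫ x, f x := by
  refine intervalIntegral.integral_eq_integral_of_support_subset fun x hx => ?_
  by_contra h
  refine hx (hL x ?_)
  by_contra h'
  push Not at h'
  exact h ⟨h'.1, h'.2.le⟩

theorem tr_le_card_add_pw {A : Matrix n n ℂ} (hA : A.PosSemidef) {p : ℝ} (hp : 1 ≤ p) :
    tr A ≤ Fintype.card n + tr (pw p A) := by
  obtain ⟨U, a, ha⟩ := exists_isDiag hA.1
  rw [isDiag_tr ha, isDiag_tr (isDiag_pw ha p)]
  have : (Fintype.card n : ℝ) = ∑ _i : n, (1 : ℝ) := by simp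
  rw [this, ← Finset.sum_add_distrib]
  refine Finset.sum_le_sum fun i _ => ?_
  have h0 := ha.nonneg hA i
  rcases le_total (a i) 1 with h | h
  · have := Real.rpow_nonneg h0 p
    linarith
  · have := Real.rpow_le_rpow_of_exponent_le h hp
    rw [Real.rpow_one] at this
    linarith

theorem integrable_W_entry_mul {m : ℕ} {W : ℝ → Matrix (Fin m) (Fin m) ℂ} {p : ℝ} (hp : 1 ≤ p)
    (hW : ∀ i j, Measurable fun x => W x i j) (hWp : ∀ x, (W x).PosSemidef)
    (hWi : Integrable fun x => tracePow (W x) p) {f : ℝ → ℂ} (hf : Continuous f) {L : ℝ}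
    (hL : ∀ x, x ≤ -L ∨ L ≤ x → f x = 0) (i j : Fin m) :
    Integrable fun x => W x i j * f x := by
  obtain ⟨C, hC⟩ := hf.bounded_above_of_compact_support (hasCompactSupport_of_vanish hL)
  have h1 : Integrable fun x => (Fintype.card (Fin m) : ℝ) * ‖f x‖ + C * tracePow (W x) p :=
    ((integrable_of_vanish hf hL).norm.const_mul _).add (hWi.const_mul C)
  refine h1.mono' ((hW i j).mul hf.measurable).aestronglyMeasurable (.of_forall fun x => ?_)
  have h2 : ‖W x i j‖ ≤ Fintype.card (Fin m) + tr (pw p (W x)) :=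
    (norm_entry_le _ i j).trans ((norm_le_tr (hWp x)).trans (tr_le_card_add_pw (hWp x) hp))
  have h3 : 0 ≤ tr (pw p (W x)) := tr_nonneg (psd_pw (hWp x) p)
  rw [norm_mul, tracePow_eq]
  have h4 := mul_le_mul_of_nonneg_right h2 (norm_nonneg (f x))
  have h5 := mul_le_mul_of_nonneg_left (hC x) h3
  linarith

theorem tr_mul_eq_sum (A : Matrix m n ℂ) (B : Matrix n m ℂ) :
    tr (A * B) = ∑ i, ∑ j, (A i j * B j i).re := by
  rw [tr_eq_sum]
  refine Finset.sum_congr rfl fun i _ => ?_
  rw [Matrix.mul_apply, Complex.re_sum]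

/-- Traces against a fixed matrix commute with entrywise integration. -/
theorem integral_tr_mul {E : ℝ → Matrix n n ℂ} (hE : ∀ k l, Integrable fun x => E x k l)
    (P : Matrix n n ℂ) : (Integrable fun x => tr (E x * P)) ∧
      ∫ x, tr (E x * P) = tr ((Matrix.of fun k l => ∫ x, E x k l) * P) := by
  have h1 : ∀ k l, Integrable fun x => (E x k l * P l k).re := fun k l =>
    ((hE k l).mul_const _).re
  simp only [tr_mul_eq_sum]
  refine ⟨integrable_finsetSum _ fun k _ => integrable_finsetSum _ fun l _ => h1 k l, ?_⟩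
  rw [integral_finsetSum _ fun k _ => integrable_finsetSum _ fun l _ => h1 k l]
  refine Finset.sum_congr rfl fun k _ => ?_
  rw [integral_finsetSum _ fun l _ => h1 k l]
  refine Finset.sum_congr rfl fun l _ => ?_
  have h2 := integral_re (𝕜 := ℂ) ((hE k l).mul_const (P l k))
  rw [integral_mul_const] at h2
  exact h2

/-- The matrix whose columns are the given vectors. -/
def colMat {m N : ℕ} (v : Fin N → Vec m) : Matrix (Fin m) (Fin N) ℂ := Matrix.of fun i k => v k i

theorem inner_eq_colMat {m N : ℕ} (u v : Fin N → Vec m) (k l : Fin N) :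
    inner ℂ (u k) (v l) = ((colMat u)ᴴ * colMat v) k l := by
  simp [colMat, Matrix.mul_apply, PiLp.inner_apply, mul_comm]

theorem inner_W_eq_colMat {m N : ℕ} (u : Fin N → Vec m) (W : Matrix (Fin m) (Fin m) ℂ)
    (k l : Fin N) :
    inner ℂ (u k) (Matrix.toEuclideanLin W (u l)) = ((colMat u)ᴴ * W * colMat u) k l := by
  have := inner_eq_colMat u (fun l => Matrix.toEuclideanLin W (u l)) k l
  rw [this, Matrix.mul_assoc]
  congr 2

/-- Entries of W are locally integrable: `‖W x i j‖ ≤ ‖W x‖ ≤ tr (W x) ≤ m + tr (W x)^p` (`norm_entry_le`,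
`norm_le_tr`, `t ≤ 1 + t^p` for p ≥ 1). So tr (W x * F x) is integrable for every continuous
compactly supported F. -/
theorem integrable_tr_W_mul {m : ℕ} {W : ℝ → Matrix (Fin m) (Fin m) ℂ} {p : ℝ} (hp : 1 ≤ p)
    (hW : ∀ i j, Measurable fun x => W x i j) (hWp : ∀ x, (W x).PosSemidef)
    (hWi : Integrable fun x => tracePow (W x) p) {F : ℝ → Matrix (Fin m) (Fin m) ℂ}
    (hF : Continuous F) {L : ℝ} (hL : ∀ x, x ≤ -L ∨ L ≤ x → F x = 0) :
    Integrable fun x => tr (W x * F x) := by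
  simp only [tr_mul_eq_sum]
  refine integrable_finsetSum _ fun i _ => integrable_finsetSum _ fun j _ => ?_
  exact (integrable_W_entry_mul hp hW hWp hWi (f := fun x => F x j i) (hF.matrix_elem j i) (L := L)
    (fun x hx => by simp [hL x hx]) i j).re

/-- Recipe. Let Φ₀ x = Matrix.of fun i k => φ k x i and Φ₀' x = Matrix.of fun i k => deriv (φ k) x i.
Then A = energyMatrix W φ has entries ∫ (Φ₀'ᴴ Φ₀' - Φ₀ᴴ W Φ₀)_{kl}, so it is Hermitian and
tr (A P) = ∫ tr ((Φ₀'ᴴ Φ₀' - Φ₀ᴴ W Φ₀) P) for every P (finite sums, integrability as in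
`integrable_tr_W_mul`); similarly ∫ tr (Φ₀ᴴ Φ₀ P) = tr P. Diagonalise A = U diag(λ) Uᴴ, let
ι = {k // λ k < 0}, J = U.submatrix id Subtype.val (JᴴJ = 1, Jᴴ A J = diag λ|ι), Ψ = Φ₀ J, Ψ' = Φ₀' J,
K₀ = diagonal √(-λ). Choose L with all supports (tsupport, which also carries the derivative)
inside (-L, L). negMoment A γ = Σ_k (max (-λ_k) 0)^γ = Σ_{k : ι} (√(-λ_k))^(2γ) (γ > 0). -/
theorem reduce {γ : ℝ} (hγ : 1 / 2 < γ) {m : ℕ} {W : ℝ → Matrix (Fin m) (Fin m) ℂ}
    (hW : ∀ i j, Measurable fun x => W x i j) (hWp : ∀ x, (W x).PosSemidef)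
    (hWi : Integrable fun x => tracePow (W x) (γ + 1 / 2))
    {N : ℕ} {φ : Fin N → ℝ → Vec m} (hφ : IsTrialFamily φ) :
    ∃ (ι : Type) (_ : Fintype ι) (_ : DecidableEq ι) (Ψ Ψ' : ℝ → Matrix (Fin m) ι ℂ)
      (K₀ : Matrix ι ι ℂ) (L : ℝ), 0 ≤ L ∧ (∀ x, HasDerivAt Ψ (Ψ' x) x) ∧ Continuous Ψ' ∧
      (∀ x, x ≤ -L ∨ L ≤ x → Ψ x = 0 ∧ Ψ' x = 0) ∧
      (∀ P : Matrix ι ι ℂ, ∫ x in (-L)..L, tr ((Ψ x)ᴴ * Ψ x * P) = tr P) ∧ K₀.PosDef ∧
      negMoment (energyMatrix W φ) γ = tr (pw (2 * γ) K₀) ∧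
      ∀ B : Matrix ι ι ℂ, ∫ x, tr (W x * (Ψ x * B * (Ψ x * B)ᴴ)) =
        (∫ x in (-L)..L, ‖Ψ' x * B‖ ^ 2) + tr (Bᴴ * (K₀ * K₀) * B) := by
  obtain ⟨hs, hc, ho⟩ := hφ
  obtain ⟨L, hL0, hL⟩ := (isCompact_iUnion (f := fun k => tsupport (φ k)) hc).isBounded.subset_ball_lt
    0 0
  have hout : ∀ x, x ≤ -L ∨ L ≤ x → ∀ k, x ∉ tsupport (φ k) := by
    intro x hx k hk
    have := hL (mem_iUnion.2 ⟨k, hk⟩)
    rw [mem_ball_zero_iff, Real.norm_eq_abs, abs_lt] at this
    rcases hx with hx | hx <;> linarith [this.1, this.2]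
  set Φ : ℝ → Matrix (Fin m) (Fin N) ℂ := fun x => colMat fun k => φ k x with hΦ
  set Φ' : ℝ → Matrix (Fin m) (Fin N) ℂ := fun x => colMat fun k => deriv (φ k) x with hΦ'
  have hz : ∀ x, x ≤ -L ∨ L ≤ x → Φ x = 0 := by
    intro x hx
    ext i k
    simp [hΦ, colMat, image_eq_zero_of_notMem_tsupport (hout x hx k)]
  have hz' : ∀ x, x ≤ -L ∨ L ≤ x → Φ' x = 0 := by
    intro x hx
    ext i k
    have : deriv (φ k) x = 0 := by
      by_contra h
      exact hout x hx k (support_deriv_subset h)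
    simp [hΦ', colMat, this]
  have hd : ∀ x, HasDerivAt Φ (Φ' x) x := by
    intro x
    rw [hasDerivAt_matrix]
    intro i k
    have h1 : HasDerivAt (φ k) (deriv (φ k) x) x :=
      (((hs k).differentiable (by simp)) x).hasDerivAt
    exact ((EuclideanSpace.proj i : Vec m →L[ℂ] ℂ).restrictScalars ℝ).hasFDerivAt.comp_hasDerivAt x h1
  have hcΦ : Continuous Φ := continuous_iff_continuousAt.2 fun x => (hd x).continuousAt
  have hcΦ' : Continuous Φ' := by
    refine continuous_matrix fun i k => ?_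
    exact (EuclideanSpace.proj i : Vec m →L[ℂ] ℂ).continuous.comp
      ((hs k).continuous_deriv (by simp))
  have i0 : ∀ k l, Integrable fun x => ((Φ x)ᴴ * Φ x) k l := fun k l =>
    integrable_of_vanish ((hcΦ.matrix_conjTranspose.matrix_mul hcΦ).matrix_elem k l) (L := L)
      fun x hx => by simp [hz x hx]
  have i1 : ∀ k l, Integrable fun x => ((Φ' x)ᴴ * Φ' x) k l := fun k l =>
    integrable_of_vanish ((hcΦ'.matrix_conjTranspose.matrix_mul hcΦ').matrix_elem k l) (L := L)
      fun x hx => by simp [hz' x hx]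
  have i2 : ∀ k l, Integrable fun x => ((Φ x)ᴴ * W x * Φ x) k l := by
    intro k l
    have : ∀ x, ((Φ x)ᴴ * W x * Φ x) k l = ∑ j, ∑ i, W x i j * ((Φ x)ᴴ k i * Φ x j l) := by
      intro x
      simp only [Matrix.mul_apply, Finset.sum_mul]
      refine Finset.sum_congr rfl fun j _ => Finset.sum_congr rfl fun i _ => ?_
      ring
    simp only [this]
    refine integrable_finsetSum _ fun j _ => integrable_finsetSum _ fun i _ => ?_
    exact integrable_W_entry_mul (by linarith) hW hWp hWi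
      ((hcΦ.matrix_conjTranspose.matrix_elem k i).mul (hcΦ.matrix_elem j l)) (L := L)
      (fun x hx => by simp [hz x hx]) i j
  set E : ℝ → Matrix (Fin N) (Fin N) ℂ := fun x => (Φ' x)ᴴ * Φ' x - (Φ x)ᴴ * W x * Φ x with hE
  have iE : ∀ k l, Integrable fun x => E x k l := fun k l => (i1 k l).sub (i2 k l)
  have hA : energyMatrix W φ = Matrix.of fun k l => ∫ x, E x k l := by
    ext k l
    simp only [energyMatrix, of_apply]
    refine integral_congr_ae (.of_forall fun x => ?_)
    simp only [hE, Matrix.sub_apply]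
    rw [inner_eq_colMat (fun k => deriv (φ k) x) (fun k => deriv (φ k) x),
      inner_W_eq_colMat (fun k => φ k x)]
  have hG : (Matrix.of fun k l => ∫ x, ((Φ x)ᴴ * Φ x) k l) = 1 := by
    ext k l
    rw [of_apply, one_apply, ← ho k l]
    refine integral_congr_ae (.of_forall fun x => ?_)
    exact (inner_eq_colMat (fun k => φ k x) (fun k => φ k x) k l).symm
  have hEh : ∀ x, (E x).IsHermitian := fun x =>
    (isHermitian_conjTranspose_mul_self _).sub (isHermitian_conjTranspose_mul_mul _ (hWp x).1)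
  have hAh : (energyMatrix W φ).IsHermitian := by
    rw [hA]
    ext k l
    rw [conjTranspose_apply, of_apply, of_apply, Complex.star_def, ← integral_conj]
    refine integral_congr_ae (.of_forall fun x => ?_)
    exact (hEh x).apply k l
  obtain ⟨U, lam, hU⟩ := exists_isDiag hAh
  set J : Matrix (Fin N) {k // lam k < 0} ℂ := U.submatrix id Subtype.val with hJ
  have hJM : ∀ M : Matrix (Fin N) (Fin N) ℂ,
      Jᴴ * M * J = (Uᴴ * M * U).submatrix Subtype.val Subtype.val := fun M => rfl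
  have hJ1 : Jᴴ * J = 1 := by
    have := hJM 1
    rwa [Matrix.mul_one, Matrix.mul_one, hU.uni, submatrix_one _ Subtype.val_injective] at this
  set κ : {k // lam k < 0} → ℝ := fun k => √(-lam k) with hκ
  have hJA : Jᴴ * energyMatrix W φ * J =
      -((diagonal fun k => (κ k : ℂ)) * diagonal fun k => (κ k : ℂ)) := by
    rw [hJM, hU.conj, submatrix_diagonal _ _ Subtype.val_injective, diag_mul_diag, diagonal_neg]
    congr 1
    ext k
    simp only [hκ, Function.comp_apply]
    rw [Real.mul_self_sqrt (by linarith [k.2])]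
    simp
  refine ⟨{k // lam k < 0}, inferInstance, inferInstance, fun x => Φ x * J, fun x => Φ' x * J,
    diagonal fun k => (κ k : ℂ), L, hL0.le, fun x => HasDerivAt.matmul_const (hd x) J,
    hcΦ'.matrix_mul continuous_const, fun x hx => ⟨by simp [hz x hx], by simp [hz' x hx]⟩,
    fun P => ?_, isDiag_posDef (isDiag_diagonal κ) fun k => Real.sqrt_pos.2 (by linarith [k.2]),
    ?_, fun B => ?_⟩
  · rw [interval_integral_of_vanish fun x hx => by simp [hz x hx]]
    have h1 : ∀ x, tr ((Φ x * J)ᴴ * (Φ x * J) * P) = tr ((Φ x)ᴴ * Φ x * (J * P * Jᴴ)) := by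
      intro x
      rw [conjTranspose_mul, Matrix.mul_assoc, Matrix.mul_assoc, tr_mul_comm]
      simp only [Matrix.mul_assoc]
    simp only [h1]
    rw [(integral_tr_mul i0 _).2, hG, Matrix.one_mul, tr_mul_cycle, hJ1, Matrix.one_mul]
  · have h1 : negMoment (energyMatrix W φ) γ = ∑ k, (max (-lam k) 0) ^ γ :=
      tr_cfc hU (fun t : ℝ => (max (-t) 0) ^ γ)
    rw [h1, isDiag_tr (isDiag_pw (isDiag_diagonal κ) _),
      ← Fintype.sum_subtype_add_sum_subtype (fun k => lam k < 0)]
    have h2 : ∑ k : {k // ¬ lam k < 0}, (max (-lam k) 0) ^ γ = 0 := by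
      refine Finset.sum_eq_zero fun k _ => ?_
      rw [max_eq_right (by linarith [not_lt.1 k.2]), Real.zero_rpow (by linarith)]
    rw [h2, add_zero]
    refine Finset.sum_congr rfl fun k _ => ?_
    have h3 : 0 ≤ -lam k := by linarith [k.2]
    simp only [hκ]
    rw [max_eq_left h3, Real.sqrt_eq_rpow, ← Real.rpow_mul h3]
    congr 1
    ring
  · rw [interval_integral_of_vanish fun x hx => by simp [hz' x hx]]
    set P := J * B * (J * B)ᴴ with hP
    have h1 : ∀ x, tr (W x * (Φ x * J * B * (Φ x * J * B)ᴴ)) = tr ((Φ x)ᴴ * W x * Φ x * P) := by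
      intro x
      rw [Matrix.mul_assoc (Φ x) J, conjTranspose_mul (Φ x), ← Matrix.mul_assoc,
        ← Matrix.mul_assoc, tr_mul_comm]
      simp only [hP, Matrix.mul_assoc]
    have h2 : ∀ x, ‖Φ' x * J * B‖ ^ 2 = tr ((Φ' x)ᴴ * Φ' x * P) := by
      intro x
      rw [← tr_mul_ct_self, Matrix.mul_assoc (Φ' x) J, conjTranspose_mul (Φ' x),
        ← Matrix.mul_assoc, tr_mul_comm]
      simp only [hP, Matrix.mul_assoc]
    have h3 := (integral_tr_mul iE P).2
    rw [← hA] at h3
    simp only [hE, Matrix.sub_mul, tr_sub] at h3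
    rw [integral_sub (integral_tr_mul i1 P).1 (integral_tr_mul i2 P).1] at h3
    have h4 : tr (energyMatrix W φ * P) = tr (Bᴴ * (Jᴴ * energyMatrix W φ * J) * B) := by
      rw [hP, conjTranspose_mul, ← Matrix.mul_assoc, tr_mul_comm]
      simp only [Matrix.mul_assoc]
    rw [h4, hJA, Matrix.mul_neg, Matrix.neg_mul, tr_neg] at h3
    simp only [h1, h2]
    linarith

end Crest.Agent.R332
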