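import Crest.Agent.R332.NearDef
import Crest.Agent.R332.Lin
import Crest.Agent.R332.Scalar

/-!
Row 332: rigidity. A potential with almost extremal data of every accuracy is a sum of solitons.
-/

set_option autoImplicit false
set_option linter.unusedSectionVars false

namespace Crest.Agent.R332

open Matrix Crest.Agent.Lib.QEnt Filter Topology MeasureTheory Set
open scoped ComplexOrder Matrix.Norms.Frobenius

variable {m n : Type} [Fintype m] [Fintype n] [DecidableEq m] [DecidableEq n]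

open Crest.MathPhysics.LiebThirring

theorem le_sqrt_add {t ε : ℝ} (hε : 0 < ε) : t ≤ √ε + t ^ 2 / √ε := by
  have h : 0 < √ε := Real.sqrt_pos.2 hε
  rw [← sub_le_iff_le_add', le_div_iff₀ h]
  nlinarith [sq_nonneg (t - √ε), sq_nonneg t]

theorem dfc_nonneg (θ : ℝ) (K S : Matrix n n ℂ) (Φ Φ' : Matrix m n ℂ) : 0 ≤ dfc θ K S Φ Φ' := by
  unfold dfc; positivity

theorem norm_S_add_le {S : Matrix n n ℂ} {M s : ℝ} (oS : Op S M) (hs : |s| ≤ M)
    (A : Matrix n Unit ℂ) : ‖S * A + s • A‖ ≤ 2 * M * ‖A‖ := by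
  refine (norm_add_le _ _).trans ?_
  rw [norm_smul, Real.norm_eq_abs]
  have a1 := oS.mul_le A
  have a2 := mul_le_mul_of_nonneg_right hs (norm_nonneg A)
  linarith

theorem norm_mul_unit {A : Matrix m n ℂ} {v : Matrix n Unit ℂ} (hv : ‖v‖ = 1) : ‖A * v‖ ≤ ‖A‖ := by
  simpa [hv] using norm_mul_le' A v

/-- Propagation of an approximate joint eigenvector along the flow. r = θ⁻¹.
Recipe: F x = ((S x - s x) v, Φ x v - f x u) in the product (sup norm). With U = (ΦᴴΦ)^r, D = K² - S²: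
first component' = (1+r)(D - U) v - r (K² - κ²) v + r (S + s)(S - s) v,
second component' = (Φ' - ΦS) v + Φ (S - s) v + s (Φ v - f u).
So ‖F'‖ ≤ L ‖F‖ + g with L = 2(r+1)M, g = (1+r)‖U - D‖ + ‖Φ' - ΦS‖ + r e, and
`t ≤ √ε + t²/√ε` bounds ∫ g by (2+r) √ε (|x - x₀| + 1) + r e |x - x₀| (`N.leD`); `gronwall_L1`. -/
theorem propagate {θ : ℝ} (h0 : 0 < θ) (M : ℝ) (x₀ x : ℝ) : ∃ C : ℝ, 0 < C ∧
    ∀ {m : ℕ} (w : ℝ → Matrix (Fin m) (Fin m) ℂ) (ε : ℝ) (N : Near θ w M ε), 0 < ε →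
      ∀ (v : Matrix N.ι Unit ℂ) (u : Matrix (Fin m) Unit ℂ) (κ e : ℝ) (s f : ℝ → ℝ), ‖v‖ = 1 →
      (∀ y, |s y| ≤ M) → (∀ y, HasDerivAt s (-θ⁻¹ * (κ ^ 2 - s y ^ 2)) y) →
      (∀ y, HasDerivAt f (s y * f y) y) → ‖N.K * N.K * v - κ ^ 2 • v‖ ≤ e →
      ‖N.S x₀ * v - s x₀ • v‖ ≤ e → ‖N.Φ x₀ * v - f x₀ • u‖ ≤ e →
      ‖N.S x * v - s x • v‖ ≤ C * (e + √ε) ∧ ‖N.Φ x * v - f x • u‖ ≤ C * (e + √ε) := by
  have hr : 0 < θ⁻¹ := inv_pos.2 h0
  refine ⟨Real.exp (2 * (θ⁻¹ + 1) * M * |x - x₀|) * ((2 + θ⁻¹) * (|x - x₀| + 1)), by positivity, ?_⟩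
  intro m w ε N hε v u κ e s f hv hs ds df eK eS eΦ
  have hM := N.opK.nonneg
  have he : 0 ≤ e := (norm_nonneg _).trans eK
  have cS : Continuous N.S := continuous_iff_continuousAt.2 fun x => (N.derS x).continuousAt
  have cΦ : Continuous N.Φ := continuous_iff_continuousAt.2 fun x => (N.derΦ x).continuousAt
  have cU : Continuous fun y => pw θ⁻¹ ((N.Φ y)ᴴ * N.Φ y) :=
    continuous_pw hr.le (cΦ.matrix_conjTranspose.matrix_mul cΦ)
      fun y => (posSemidef_conjTranspose_mul_self _).1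
  set a : ℝ → ℝ := fun y => ‖pw θ⁻¹ ((N.Φ y)ᴴ * N.Φ y) - (N.K * N.K - N.S y * N.S y)‖ with ha
  set b : ℝ → ℝ := fun y => ‖N.Φ' y - N.Φ y * N.S y‖ with hb
  have ca : Continuous a := (cU.sub (continuous_const.sub (cS.mul cS))).norm
  have cb : Continuous b := (N.contΦ'.sub (cΦ.matrix_mul cS)).norm
  set g : ℝ → ℝ := fun y => (1 + θ⁻¹) * a y + b y + θ⁻¹ * e with hg
  have cg : Continuous g := ((ca.const_mul _).add cb).add continuous_const
  have g0 : ∀ y, 0 ≤ g y := fun y => by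
    have := norm_nonneg (pw θ⁻¹ ((N.Φ y)ᴴ * N.Φ y) - (N.K * N.K - N.S y * N.S y))
    have := norm_nonneg (N.Φ' y - N.Φ y * N.S y)
    simp only [hg, ha, hb]; positivity
  have key := gronwall_L1 (E := Matrix N.ι Unit ℂ × Matrix (Fin m) Unit ℂ)
    (F := fun y => (N.S y * v - s y • v, N.Φ y * v - f y • u))
    (F' := fun y => ((N.K * N.K - N.S y * N.S y - (1 + θ⁻¹) • pw θ⁻¹ ((N.Φ y)ᴴ * N.Φ y)) * v -
      (-θ⁻¹ * (κ ^ 2 - s y ^ 2)) • v, N.Φ' y * v - (s y * f y) • u))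
    (g := g) (L := 2 * (θ⁻¹ + 1) * M) (by positivity)
    (fun y => ((HasDerivAt.matmul_const (N.derS y) v).sub ((ds y).smul_const v)).prodMk
      ((HasDerivAt.matmul_const (N.derΦ y) v).sub ((df y).smul_const u))) cg g0 ?_ x₀ x
  · have T0 := abs_nonneg (x - x₀)
    have hsq : 0 < √ε := Real.sqrt_pos.2 hε
    have i1 : |∫ t in x₀..x, g t| ≤ ((2 + θ⁻¹) * √ε + θ⁻¹ * e) * |x - x₀| + (1 + θ⁻¹) * √ε := by
      rw [intervalIntegral.abs_integral_eq_abs_integral_uIoc,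
        abs_of_nonneg (setIntegral_nonneg measurableSet_uIoc fun y _ => g0 y)]
      have hvol : volume (uIoc x₀ x) ≠ ⊤ := by rw [Real.volume_uIoc]; exact ENNReal.ofReal_ne_top
      have ic : IntegrableOn (fun _ : ℝ => (2 + θ⁻¹) * √ε + θ⁻¹ * e) (uIoc x₀ x) :=
        integrableOn_const hvol
      have id' : IntegrableOn (fun y => (1 + θ⁻¹) / √ε *
          dfc θ N.K (N.S y) (N.Φ y) (N.Φ' y)) (uIoc x₀ x) := (N.intD.const_mul _).integrableOn
      calc ∫ t in uIoc x₀ x, g t ≤ ∫ y in uIoc x₀ x, (((2 + θ⁻¹) * √ε + θ⁻¹ * e) +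
            (1 + θ⁻¹) / √ε * dfc θ N.K (N.S y) (N.Φ y) (N.Φ' y)) := by
            refine setIntegral_mono_on (cg.intervalIntegrable x₀ x).def' (ic.add id')
              measurableSet_uIoc fun y _ => ?_
            have a1 := mul_le_mul_of_nonneg_left (le_sqrt_add (t := a y) hε)
              (show 0 ≤ 1 + θ⁻¹ by positivity)
            have a2 := le_sqrt_add (t := b y) hε
            have a3 : (1 + θ⁻¹) * (a y ^ 2 / √ε) + b y ^ 2 / √ε ≤
                (1 + θ⁻¹) / √ε * dfc θ N.K (N.S y) (N.Φ y) (N.Φ' y) := by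
              have a4 : (1 + θ⁻¹) * a y ^ 2 + b y ^ 2 ≤
                  (1 + θ⁻¹) * dfc θ N.K (N.S y) (N.Φ y) (N.Φ' y) := by
                have a5 := mul_nonneg hr.le (sq_nonneg (b y))
                have a6 := mul_nonneg (show 0 ≤ 1 + θ⁻¹ by positivity)
                  (sq_nonneg ‖N.K * N.K * N.S y - N.S y * (N.K * N.K)‖)
                simp only [dfc, ha, hb] at a5 a6 ⊢
                linarith
              calc (1 + θ⁻¹) * (a y ^ 2 / √ε) + b y ^ 2 / √ε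
                  = ((1 + θ⁻¹) * a y ^ 2 + b y ^ 2) / √ε := by ring
                _ ≤ (1 + θ⁻¹) * dfc θ N.K (N.S y) (N.Φ y) (N.Φ' y) / √ε :=
                    div_le_div_of_nonneg_right a4 hsq.le
                _ = _ := by ring
            simp only [hg]
            linarith
        _ = ((2 + θ⁻¹) * √ε + θ⁻¹ * e) * |x - x₀| + (1 + θ⁻¹) / √ε *
              ∫ y in uIoc x₀ x, dfc θ N.K (N.S y) (N.Φ y) (N.Φ' y) := by
            rw [integral_add ic id', integral_const_mul, setIntegral_const, smul_eq_mul,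
              Measure.real, Real.volume_uIoc, ENNReal.toReal_ofReal T0, mul_comm]
        _ ≤ _ := by
            have a1 : ∫ y in uIoc x₀ x, dfc θ N.K (N.S y) (N.Φ y) (N.Φ' y) ≤ ε :=
              (setIntegral_le_integral N.intD
                (Eventually.of_forall fun y => dfc_nonneg _ _ _ _ _)).trans N.leD
            have a2 := mul_le_mul_of_nonneg_left a1 (show 0 ≤ (1 + θ⁻¹) / √ε by positivity)
            have a3 : (1 + θ⁻¹) / √ε * ε = (1 + θ⁻¹) * √ε := by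
              rw [div_mul_eq_mul_div, mul_div_assoc, Real.div_sqrt]
            linarith
    have i2 : ‖(N.S x₀ * v - s x₀ • v, N.Φ x₀ * v - f x₀ • u)‖ ≤ e := by
      rw [Prod.norm_def]; exact max_le eS eΦ
    have i3 : ‖(N.S x * v - s x • v, N.Φ x * v - f x • u)‖ ≤
        Real.exp (2 * (θ⁻¹ + 1) * M * |x - x₀|) * ((2 + θ⁻¹) * (|x - x₀| + 1)) * (e + √ε) := by
      refine key.trans ?_
      rw [mul_assoc (Real.exp _)]
      refine mul_le_mul_of_nonneg_left ?_ (Real.exp_pos _).le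
      have b1 := mul_nonneg he T0
      have b2 := mul_nonneg hr.le he
      nlinarith
    rw [Prod.norm_def] at i3
    exact ⟨(le_max_left _ _).trans i3, (le_max_right _ _).trans i3⟩
  · intro y
    have oS := (N.sand y).op N.opK
    set A := N.S y * v - s y • v with hA
    set B := N.Φ y * v - f y • u with hB
    have nA : ‖A‖ ≤ ‖(A, B)‖ := norm_fst_le (A, B)
    have nB : ‖B‖ ≤ ‖(A, B)‖ := norm_snd_le (A, B)
    have n0 := norm_nonneg (A, B)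
    have a0 : 0 ≤ a y := norm_nonneg _
    have b0 : 0 ≤ b y := norm_nonneg _
    rw [Prod.norm_def]
    refine max_le ?_ ?_
    · have e1 : (N.K * N.K - N.S y * N.S y - (1 + θ⁻¹) • pw θ⁻¹ ((N.Φ y)ᴴ * N.Φ y)) * v -
          (-θ⁻¹ * (κ ^ 2 - s y ^ 2)) • v =
          -((1 + θ⁻¹) • ((pw θ⁻¹ ((N.Φ y)ᴴ * N.Φ y) - (N.K * N.K - N.S y * N.S y)) * v)) -
            θ⁻¹ • (N.K * N.K * v - κ ^ 2 • v) + θ⁻¹ • (N.S y * A + s y • A) := by
        simp only [hA, Matrix.sub_mul, Matrix.mul_sub, Matrix.smul_mul, Matrix.mul_smul,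
          Matrix.mul_assoc]
        module
      have n1 : ‖-((1 + θ⁻¹) •
          ((pw θ⁻¹ ((N.Φ y)ᴴ * N.Φ y) - (N.K * N.K - N.S y * N.S y)) * v))‖ ≤ (1 + θ⁻¹) * a y := by
        rw [norm_neg, norm_smul, Real.norm_of_nonneg (by positivity)]
        exact mul_le_mul_of_nonneg_left (norm_mul_unit hv) (by positivity)
      have n2 : ‖θ⁻¹ • (N.K * N.K * v - κ ^ 2 • v)‖ ≤ θ⁻¹ * e := by
        rw [norm_smul, Real.norm_of_nonneg hr.le]
        exact mul_le_mul_of_nonneg_left eK hr.le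
      have n3 : ‖θ⁻¹ • (N.S y * A + s y • A)‖ ≤ θ⁻¹ * (2 * M * ‖(A, B)‖) := by
        rw [norm_smul, Real.norm_of_nonneg hr.le]
        exact mul_le_mul_of_nonneg_left ((norm_S_add_le oS (hs y) A).trans
          (mul_le_mul_of_nonneg_left nA (by positivity))) hr.le
      simp only [e1]
      refine (norm_add_le _ _).trans ((add_le_add_left (norm_sub_le _ _) _).trans ?_)
      have := mul_nonneg hM n0
      simp only [hg]
      linarith
    · have e1 : N.Φ' y * v - (s y * f y) • u =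
          (N.Φ' y - N.Φ y * N.S y) * v + N.Φ y * A + s y • B := by
        simp only [hA, hB, Matrix.sub_mul, Matrix.mul_sub, Matrix.mul_smul, Matrix.mul_assoc]
        module
      have n1 : ‖(N.Φ' y - N.Φ y * N.S y) * v‖ ≤ b y := norm_mul_unit hv
      have n2 : ‖N.Φ y * A‖ ≤ M * ‖(A, B)‖ :=
        (norm_mul_le' _ _).trans (mul_le_mul (N.bdΦ y) nA (norm_nonneg _) hM)
      have n3 : ‖s y • B‖ ≤ M * ‖(A, B)‖ := by
        rw [norm_smul, Real.norm_eq_abs]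
        exact mul_le_mul (hs y) nB (norm_nonneg _) hM
      simp only [e1]
      refine (norm_add_le _ _).trans ((add_le_add_left (norm_add_le _ _) _).trans ?_)
      have := mul_nonneg hr.le (mul_nonneg hM n0)
      have := mul_nonneg hr.le he
      have := mul_nonneg hr.le a0
      simp only [hg]
      linarith


theorem ae_tendsto_zero {g : ℕ → ℝ → ℝ} (hi : ∀ k, Integrable (g k)) (h0 : ∀ k x, 0 ≤ g k x)
    (hb : ∀ k, ∫ x, g k x ≤ (1 / 2 : ℝ) ^ k) :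
    ∀ᵐ x : ℝ, Tendsto (fun k => g k x) atTop (𝓝 0) := by
  have hm : ∀ k, AEMeasurable fun x => ENNReal.ofReal (g k x) := fun k =>
    (hi k).aemeasurable.ennreal_ofReal
  have h1 : ∫⁻ x, ∑' k, ENNReal.ofReal (g k x) ≠ ⊤ := by
    rw [lintegral_tsum hm]
    refine ne_top_of_le_ne_top (b := ∑' k, ENNReal.ofReal ((1 / 2 : ℝ) ^ k)) ?_
      (ENNReal.tsum_le_tsum fun k => ?_)
    · rw [← ENNReal.ofReal_tsum_of_nonneg (fun _ => by positivity) summable_geometric_two]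
      exact ENNReal.ofReal_ne_top
    · rw [← ofReal_integral_eq_lintegral_ofReal (hi k) (Eventually.of_forall (h0 k))]
      exact ENNReal.ofReal_le_ofReal (hb k)
  filter_upwards [ae_lt_top' (AEMeasurable.tsum hm) h1] with x hx
  have h2 := ENNReal.tendsto_atTop_zero_of_tsum_ne_top hx.ne
  have h3 := (ENNReal.tendsto_toReal ENNReal.zero_ne_top).comp h2
  simpa [Function.comp_def, ENNReal.toReal_ofReal (h0 _ x)] using h3

theorem tendsto_zero_of_sq_le {a b : ℕ → ℝ} (ha : ∀ k, 0 ≤ a k) (hab : ∀ k, a k ^ 2 ≤ b k)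
    (hb : Tendsto b atTop (𝓝 0)) : Tendsto a atTop (𝓝 0) := by
  have h := hb.sqrt
  rw [Real.sqrt_zero] at h
  exact squeeze_zero ha (fun k => Real.le_sqrt_of_sq_le (hab k)) h

theorem op_proj {Q : Matrix n n ℂ} (hQ : Q.IsHermitian) (hQQ : Q * Q = Q) : Op Q 1 := by
  refine ⟨zero_le_one, fun k _ X => ?_⟩
  have h1 : ‖Q * X‖ ^ 2 ≤ ‖X‖ * ‖Q * X‖ := by
    rw [← tr_ct_mul_self, conjTranspose_mul, hQ.eq, Matrix.mul_assoc, ← Matrix.mul_assoc Q, hQQ]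
    refine (tr_mul_le _ _).trans ?_
    rw [norm_ct]
  rcases (norm_nonneg (Q * X)).eq_or_lt with h0 | h0
  · rw [← h0]; positivity
  · nlinarith

theorem op_pw {A : Matrix n n ℂ} (hA : A.PosSemidef) {c q : ℝ} (oA : Op A c) (hq : 0 ≤ q) :
    Op (pw q A) (c ^ q) := by
  obtain ⟨V, a, ha⟩ := exists_isDiag hA.1
  refine op_cfc ha (Real.rpow_nonneg oA.nonneg _) fun i => ?_
  rw [abs_of_nonneg (Real.rpow_nonneg (ha.nonneg hA i) _)]
  exact Real.rpow_le_rpow (ha.nonneg hA i) ((le_abs_self _).trans (oA.abs_eig_le ha i)) hq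

theorem op_rho {Φ : Matrix m n ℂ} {M : ℝ} (h : ‖Φ‖ ≤ M) : Op (Φ * Φᴴ) (M * M) :=
  (op_of_norm_le h).mul (op_of_norm_le h).ct

theorem pw_intertwine (q : ℝ) (Φ : Matrix m n ℂ) : pw q (Φ * Φᴴ) * Φ = Φ * pw q (Φᴴ * Φ) :=
  cfc_intertwine (posSemidef_self_mul_conjTranspose Φ).1 (posSemidef_conjTranspose_mul_self Φ).1
    (by simp only [Matrix.mul_assoc]) _

theorem eig_est {w R : Matrix m m ℂ} {Φ : Matrix m n ℂ} {K S U : Matrix n n ℂ}
    {v : Matrix n Unit ℂ} {M s : ℝ} (u : Matrix m Unit ℂ) (κ : ℝ) (hR : R * Φ = Φ * U)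
    (hΦ : ‖Φ‖ ≤ M) (hv : ‖v‖ = 1) (oS : Op S M) (hs : |s| ≤ M) :
    ‖w * u - (κ ^ 2 - s ^ 2) • u‖ ≤ (‖w‖ + |κ ^ 2 - s ^ 2|) * ‖Φ * v - u‖ + M * ‖w - R‖ +
      M * ‖U - (K * K - S * S)‖ + M * (‖K * K * v - κ ^ 2 • v‖ + 2 * M * ‖S * v - s • v‖) := by
  have hM := oS.nonneg
  have hR' : R * (Φ * v) = Φ * (U * v) := by rw [← Matrix.mul_assoc, hR, Matrix.mul_assoc]
  have e : w * u - (κ ^ 2 - s ^ 2) • u = (κ ^ 2 - s ^ 2) • (Φ * v - u) - w * (Φ * v - u) +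
      (w - R) * (Φ * v) + Φ * ((U - (K * K - S * S)) * v) +
      Φ * ((K * K * v - κ ^ 2 • v) - (S * (S * v - s • v) + s • (S * v - s • v))) := by
    simp only [Matrix.sub_mul, Matrix.mul_sub, Matrix.mul_add, Matrix.mul_smul, Matrix.mul_assoc,
      hR']
    module
  have n1 : ‖(κ ^ 2 - s ^ 2) • (Φ * v - u)‖ = |κ ^ 2 - s ^ 2| * ‖Φ * v - u‖ := by
    rw [norm_smul, Real.norm_eq_abs]
  have n2 := norm_mul_le' w (Φ * v - u)
  have n3 : ‖(w - R) * (Φ * v)‖ ≤ ‖w - R‖ * M := (norm_mul_le' _ _).trans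
    (mul_le_mul_of_nonneg_left ((norm_mul_unit hv).trans hΦ) (norm_nonneg _))
  have n4 : ‖Φ * ((U - (K * K - S * S)) * v)‖ ≤ M * ‖U - (K * K - S * S)‖ :=
    (norm_mul_le' _ _).trans (mul_le_mul hΦ (norm_mul_unit hv) (norm_nonneg _) hM)
  have n5 : ‖Φ * ((K * K * v - κ ^ 2 • v) - (S * (S * v - s • v) + s • (S * v - s • v)))‖ ≤
      M * (‖K * K * v - κ ^ 2 • v‖ + 2 * M * ‖S * v - s • v‖) :=
    (norm_mul_le' _ _).trans (mul_le_mul hΦ ((norm_sub_le _ _).trans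
      (add_le_add_right (norm_S_add_le oS hs _) _)) (norm_nonneg _) hM)
  rw [e]
  refine (norm_add_le _ _).trans ((add_le_add_left ((norm_add_le _ _).trans (add_le_add_left
    ((norm_add_le _ _).trans (add_le_add_left (norm_sub_le _ _) _)) _)) _).trans ?_)
  rw [n1]
  linarith

theorem rho_est {Q : Matrix m m ℂ} (hQ : Q.IsHermitian) (hQQ : Q * Q = Q) {Φ : Matrix m n ℂ}
    {K S : Matrix n n ℂ} (hK : K.IsHermitian) (hS : S.IsHermitian) {M r : ℝ} (hr : 1 ≤ r)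
    (hΦ : ‖Φ‖ ≤ M) :
    ‖pw r (Φ * Φᴴ) * Q‖ ^ 2 ≤ (M * M) ^ (r - 1) *
      (‖Q * Φ * K‖ ^ 2 + M * M * ‖pw r (Φᴴ * Φ) - (K * K - S * S)‖) := by
  have hρ := posSemidef_self_mul_conjTranspose Φ
  have oρ := op_rho hΦ
  have hM : 0 ≤ M := (norm_nonneg _).trans hΦ
  have pQ : Q.PosSemidef := hQQ ▸ psd_mul_self hQ
  obtain ⟨V, a, ha⟩ := exists_isDiag hρ.1
  have hR : (pw r (Φ * Φᴴ)).IsHermitian := herm_cfc _ _
  have p1 : ((M * M) ^ (r - 1) • (pw r (Φ * Φᴴ) * (Φ * Φᴴ)) -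
      pw r (Φ * Φᴴ) * pw r (Φ * Φᴴ)).PosSemidef := by
    refine isDiag_psd (isDiag_sub (isDiag_smul (isDiag_mul (isDiag_pw ha r) ha) _)
      (isDiag_mul (isDiag_pw ha r) (isDiag_pw ha r))) fun i => ?_
    have a0 := ha.nonneg hρ i
    have a1 : a i ≤ M * M := (le_abs_self _).trans (oρ.abs_eig_le ha i)
    have a2 : a i ^ r = a i ^ (r - 1) * a i := by
      rw [← Real.rpow_add_one' a0 (by linarith), sub_add_cancel]
    have a3 : a i ^ (r - 1) ≤ (M * M) ^ (r - 1) := Real.rpow_le_rpow a0 a1 (by linarith)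
    have a4 : a i ^ r ≤ (M * M) ^ (r - 1) * a i := a2 ▸ mul_le_mul_of_nonneg_right a3 a0
    have a5 := mul_le_mul_of_nonneg_left a4 (Real.rpow_nonneg a0 r)
    linarith
  have e1 : ‖pw r (Φ * Φᴴ) * Q‖ ^ 2 = tr (Q * (pw r (Φ * Φᴴ) * pw r (Φ * Φᴴ))) := by
    rw [← tr_ct_mul_self, conjTranspose_mul, hQ.eq, hR.eq, ← Matrix.mul_assoc, tr_mul_cycle,
      ← Matrix.mul_assoc, hQQ, Matrix.mul_assoc]
  have e2 : tr (Q * (pw r (Φ * Φᴴ) * (Φ * Φᴴ))) = tr ((Q * Φ)ᴴ * (Q * Φ) * pw r (Φᴴ * Φ)) := by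
    rw [conjTranspose_mul, hQ.eq, ← Matrix.mul_assoc (pw r _), pw_intertwine,
      Matrix.mul_assoc Φᴴ, ← Matrix.mul_assoc Q Q, hQQ, ← Matrix.mul_assoc, tr_mul_comm]
    simp only [Matrix.mul_assoc]
  have e3 : tr ((Q * Φ)ᴴ * (Q * Φ) * (K * K)) = ‖Q * Φ * K‖ ^ 2 := by
    rw [← tr_ct_mul_self, conjTranspose_mul (Q * Φ), hK.eq, ← Matrix.mul_assoc _ K K, tr_mul_comm]
    simp only [Matrix.mul_assoc]
  have e4 : 0 ≤ tr ((Q * Φ)ᴴ * (Q * Φ) * (S * S)) :=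
    tr_mul_nonneg (posSemidef_conjTranspose_mul_self _) (psd_mul_self hS)
  have nT : ‖Q * Φ‖ ≤ M := by
    have := (op_proj hQ hQQ).mul_le Φ
    linarith
  have e5 : tr ((Q * Φ)ᴴ * (Q * Φ) * (pw r (Φᴴ * Φ) - (K * K - S * S))) ≤
      M * M * ‖pw r (Φᴴ * Φ) - (K * K - S * S)‖ := by
    refine (tr_mul_le _ _).trans (mul_le_mul_of_nonneg_right ((norm_mul_le' _ _).trans ?_)
      (norm_nonneg _))
    rw [norm_ct]
    exact mul_le_mul nT nT (norm_nonneg _) hM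
  rw [Matrix.mul_sub, Matrix.mul_sub, tr_sub, tr_sub, e3] at e5
  have e6 := tr_mul_mono pQ p1
  rw [Matrix.mul_smul, tr_smul, e2] at e6
  rw [e1]
  refine e6.trans (mul_le_mul_of_nonneg_left (by linarith) (Real.rpow_nonneg oρ.nonneg _))

/-- At a good point all defects of the sequence `N` tend to zero. -/
structure Good {θ : ℝ} {m : ℕ} {w : ℝ → Matrix (Fin m) (Fin m) ℂ} {M : ℝ} {ε : ℕ → ℝ}
    (N : ∀ k, Near θ w M (ε k)) (x : ℝ) : Prop where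
  pot : Tendsto (fun k => ‖w x - pw θ⁻¹ ((N k).Φ x * ((N k).Φ x)ᴴ)‖) atTop (𝓝 0)
  ode : Tendsto (fun k => ‖pw θ⁻¹ (((N k).Φ x)ᴴ * (N k).Φ x) -
    ((N k).K * (N k).K - (N k).S x * (N k).S x)‖) atTop (𝓝 0)
  com : Tendsto (fun k => ‖(N k).K * (N k).K * (N k).S x - (N k).S x * ((N k).K * (N k).K)‖)
    atTop (𝓝 0)

theorem ae_good {θ : ℝ} (h0 : 0 < θ) (h1 : θ < 1) {m : ℕ} {w : ℝ → Matrix (Fin m) (Fin m) ℂ}
    (hw : ∀ x, (w x).PosSemidef) {M : ℝ} (N : ∀ k : ℕ, Near θ w M ((1 / 2) ^ k)) :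
    ∀ᵐ x : ℝ, Good N x := by
  have g1 := ae_tendsto_zero (fun k => (N k).intD) (fun k x => dfc_nonneg _ _ _ _ _)
    fun k => (N k).leD
  have g2 := ae_tendsto_zero (fun k => (N k).intY)
    (fun k x => gY_nonneg h0 (hw x) (posSemidef_self_mul_conjTranspose _)) fun k => (N k).leY
  filter_upwards [g1, g2] with x d y
  refine ⟨?_, tendsto_zero_of_sq_le (fun _ => norm_nonneg _) (fun k => ?_) d,
    tendsto_zero_of_sq_le (fun _ => norm_nonneg _) (fun k => ?_) d⟩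
  · obtain ⟨C, -, H⟩ := gY_lower h0 h1 (max ‖w x‖ ((M * M) ^ θ⁻¹))
    refine tendsto_zero_of_sq_le (fun _ => norm_nonneg _) (fun k => H _ (w x) _ (hw x)
      (posSemidef_self_mul_conjTranspose _) ((op_norm _).mono (le_max_left _ _))
      ((op_pw (posSemidef_self_mul_conjTranspose _) (op_rho ((N k).bdΦ x))
        (inv_pos.2 h0).le).mono (le_max_right _ _))) ?_
    simpa using y.const_mul C
  · unfold dfc
    have := sq_nonneg ‖(N k).Φ' x - (N k).Φ x * (N k).S x‖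
    have := sq_nonneg ‖(N k).K * (N k).K * (N k).S x - (N k).S x * ((N k).K * (N k).K)‖
    linarith
  · unfold dfc
    have := sq_nonneg ‖(N k).Φ' x - (N k).Φ x * (N k).S x‖
    have := sq_nonneg ‖pw θ⁻¹ (((N k).Φ x)ᴴ * (N k).Φ x) -
      ((N k).K * (N k).K - (N k).S x * (N k).S x)‖
    linarith

theorem norm_sub_smul_le {A v : Matrix n Unit ℂ} (hv : ‖v‖ = 1) (a b : ℝ) :
    ‖A - b • v‖ ≤ ‖A - a • v‖ + |a - b| := by
  have e : A - b • v = (A - a • v) + (a - b) • v := by module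
  rw [e]
  refine (norm_add_le _ _).trans (le_of_eq ?_)
  rw [norm_smul, hv, mul_one, Real.norm_eq_abs]

/-- Limits of approximate joint eigenvectors are profile eigenvectors. -/
theorem limit_eig {θ : ℝ} (h0 : 0 < θ) {m : ℕ} {w : ℝ → Matrix (Fin m) (Fin m) ℂ}
    {M : ℝ} (N : ∀ k : ℕ, Near θ w M ((1 / 2) ^ k)) (hg : ∀ᵐ x : ℝ, Good N x) (x : ℝ)
    {k : ℕ → ℕ} (hk : Tendsto k atTop atTop) (v : ∀ j, Matrix (N (k j)).ι Unit ℂ)
    (hv : ∀ j, ‖v j‖ = 1) {κ σ : ℝ} (hσ : |σ| ≤ κ) (hκ : κ ≤ M) (u : Matrix (Fin m) Unit ℂ)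
    (e : ℕ → ℝ) (he : Tendsto e atTop (𝓝 0))
    (eK : ∀ j, ‖(N (k j)).K * (N (k j)).K * v j - κ ^ 2 • v j‖ ≤ e j)
    (eS : ∀ j, ‖(N (k j)).S x * v j - σ • v j‖ ≤ e j)
    (eΦ : ∀ j, ‖(N (k j)).Φ x * v j - u‖ ≤ e j) :
    ∃ a c : ℝ, 0 ≤ a ∧ ∀ᵐ y : ℝ, ((1 + θ⁻¹) • w y) * u = soliton θ⁻¹ a c y • u := by
  obtain ⟨s, f, a, c, ha, sx, fx, fpos, sb, ds, df, hsol⟩ := exists_profile (inv_pos.2 h0) hσ x
  refine ⟨a, c, ha, ?_⟩
  filter_upwards [hg] with y gy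
  obtain ⟨C, -, H⟩ := propagate h0 M x y
  have hs : ∀ y, |s y| ≤ M := fun y => (sb y).trans hκ
  have P := fun j => H w _ (N (k j)) (by positivity) (v j) u κ (e j) s f (hv j) hs ds df (eK j)
    (by rw [sx]; exact eS j) (by rw [fx, one_smul]; exact eΦ j)
  have t0 : Tendsto (fun j => C * (e j + √((1 / 2 : ℝ) ^ k j))) atTop (𝓝 0) := by
    have t1 := ((tendsto_pow_atTop_nhds_zero_of_lt_one (r := (1 / 2 : ℝ)) (by norm_num)
      (by norm_num)).comp hk).sqrt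
    simpa using (he.add t1).const_mul C
  have tA := squeeze_zero (fun _ => norm_nonneg _) (fun j => (P j).1) t0
  have tB := squeeze_zero (fun _ => norm_nonneg _) (fun j => (P j).2) t0
  have tK := squeeze_zero (fun _ => norm_nonneg _) eK he
  have est := fun j => eig_est (w := w y) (K := (N (k j)).K) (f y • u) κ
    (pw_intertwine θ⁻¹ ((N (k j)).Φ y)) ((N (k j)).bdΦ y) (hv j)
    (((N (k j)).sand y).op (N (k j)).opK) (hs y)
  have lim := (((tB.const_mul (‖w y‖ + |κ ^ 2 - s y ^ 2|)).add ((gy.pot.comp hk).const_mul M)).add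
    ((gy.ode.comp hk).const_mul M)).add ((tK.add (tA.const_mul (2 * M))).const_mul M)
  simp only [mul_zero, add_zero] at lim
  have z := norm_le_zero_iff.1 (ge_of_tendsto' lim est)
  have z2 : f y • (w y * u - (κ ^ 2 - s y ^ 2) • u) = 0 := by
    rw [← z, Matrix.mul_smul]; module
  have z3 := sub_eq_zero.1 ((smul_eq_zero.1 z2).resolve_left (fpos y).ne')
  rw [Matrix.smul_mul, z3, smul_smul, hsol]

theorem tendsto_QΦK {θ : ℝ} (h0 : 0 < θ) {m : ℕ} {w : ℝ → Matrix (Fin m) (Fin m) ℂ}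
    {M : ℝ} (N : ∀ k : ℕ, Near θ w M ((1 / 2) ^ k)) (hg : ∀ᵐ x : ℝ, Good N x)
    {Q : Matrix (Fin m) (Fin m) ℂ} (oQ : Op Q 1)
    (hQ : ∀ (u : Matrix (Fin m) Unit ℂ) (a c : ℝ), 0 ≤ a →
      (∀ᵐ y : ℝ, ((1 + θ⁻¹) • w y) * u = soliton θ⁻¹ a c y • u) → Q * u = 0)
    {x : ℝ} (gx : Good N x) :
    Tendsto (fun k => ‖Q * (N k).Φ x * (N k).K‖ ^ 2) atTop (𝓝 0) := by
  by_contra hcon
  obtain ⟨η, hη, hfr⟩ : ∃ η : ℝ, 0 < η ∧ ∃ᶠ k in atTop, η ≤ ‖Q * (N k).Φ x * (N k).K‖ ^ 2 := by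
    by_contra h2
    push Not at h2
    refine hcon (tendsto_order.2 ⟨fun a ha => Eventually.of_forall fun k =>
      ha.trans_le (sq_nonneg _), fun a ha => ?_⟩)
    simpa using h2 a ha
  obtain ⟨c', hc', H⟩ := aje M η (2 * θ + 1) hη (by positivity)
  have step : ∀ j : ℕ, ∃ k, j ≤ k ∧ ∃ (v : Matrix (N k).ι Unit ℂ) (κ σ : ℝ), ‖v‖ = 1 ∧ κ ≤ M ∧
      |σ| ≤ κ ∧ ‖(N k).K * (N k).K * v - κ ^ 2 • v‖ ≤ 1 / ((j : ℝ) + 1) ∧
      ‖(N k).S x * v - σ • v‖ ≤ 1 / ((j : ℝ) + 1) ∧ c' ≤ ‖Q * (N k).Φ x * v‖ := by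
    intro j
    obtain ⟨c, hc, H2⟩ := H (1 / ((j : ℝ) + 1)) (by positivity)
    obtain ⟨k, hk, a1, a2⟩ := frequently_atTop.1
      (hfr.and_eventually ((tendsto_order.1 gx.com).2 c hc)) j
    refine ⟨k, hk, H2 _ _ (N k).K ((N k).S x) (Q * (N k).Φ x) ((N k).sand x) (N k).opK (N k).trK
      ?_ a1 a2.le⟩
    have := oQ.mul_le ((N k).Φ x)
    have := (N k).bdΦ x
    linarith
  choose k hk v κ σ hv hκ hσ eK eS hc using step
  have : ProperSpace (Matrix (Fin m) Unit ℂ) := FiniteDimensional.proper ℝ _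
  have hM := (N 0).opK.nonneg
  obtain ⟨⟨κ₀, σ₀, u⟩, -, φ, hφ, hlim⟩ := (isCompact_closedBall
    (0 : ℝ × ℝ × Matrix (Fin m) Unit ℂ) M).tendsto_subseq
    (x := fun j => (κ j, σ j, (N (k j)).Φ x * v j)) fun j => by
      rw [mem_closedBall_zero_iff, Prod.norm_def, Prod.norm_def]
      refine max_le ?_ (max_le ((hσ j).trans (hκ j)) ?_)
      · rw [Real.norm_of_nonneg ((abs_nonneg _).trans (hσ j))]; exact hκ j
      · exact (norm_mul_unit (hv j)).trans ((N (k j)).bdΦ x)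
  have lκ : Tendsto (fun j => κ (φ j)) atTop (𝓝 κ₀) := (continuous_fst.tendsto _).comp hlim
  have lσ : Tendsto (fun j => σ (φ j)) atTop (𝓝 σ₀) :=
    ((continuous_fst.comp continuous_snd).tendsto _).comp hlim
  have lu : Tendsto (fun j => (N (k (φ j))).Φ x * v (φ j)) atTop (𝓝 u) :=
    ((continuous_snd.comp continuous_snd).tendsto _).comp hlim
  have hkφ : Tendsto (fun j => k (φ j)) atTop atTop :=
    tendsto_atTop_mono (fun j => hk (φ j)) hφ.tendsto_atTop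
  have t1 : Tendsto (fun j => 1 / ((φ j : ℝ) + 1)) atTop (𝓝 0) :=
    tendsto_one_div_add_atTop_nhds_zero_nat.comp hφ.tendsto_atTop
  have t2 : Tendsto (fun j => |κ (φ j) ^ 2 - κ₀ ^ 2|) atTop (𝓝 0) := by
    have := ((lκ.pow 2).sub_const (κ₀ ^ 2)).abs
    rwa [sub_self, abs_zero] at this
  have t3 : Tendsto (fun j => |σ (φ j) - σ₀|) atTop (𝓝 0) := by
    simpa using (lσ.sub_const σ₀).abs
  have t4 : Tendsto (fun j => ‖(N (k (φ j))).Φ x * v (φ j) - u‖) atTop (𝓝 0) :=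
    tendsto_iff_norm_sub_tendsto_zero.1 lu
  obtain ⟨a, c, ha, hae⟩ := limit_eig h0 N hg x hkφ (fun j => v (φ j)) (fun j => hv _)
    (κ := κ₀) (σ := σ₀) (le_of_tendsto_of_tendsto' lσ.abs lκ fun j => hσ _)
    (le_of_tendsto' lκ fun j => hκ _) u
    (fun j => 1 / ((φ j : ℝ) + 1) + |κ (φ j) ^ 2 - κ₀ ^ 2| + |σ (φ j) - σ₀| +
      ‖(N (k (φ j))).Φ x * v (φ j) - u‖)
    (by simpa using ((t1.add t2).add t3).add t4)
    (fun j => by
      have a1 := norm_sub_smul_le (A := (N (k (φ j))).K * (N (k (φ j))).K * v (φ j)) (hv (φ j))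
        (κ (φ j) ^ 2) (κ₀ ^ 2)
      have a2 := eK (φ j)
      have a3 := abs_nonneg (σ (φ j) - σ₀)
      have a4 := norm_nonneg ((N (k (φ j))).Φ x * v (φ j) - u)
      linarith)
    (fun j => by
      have a1 := norm_sub_smul_le (A := (N (k (φ j))).S x * v (φ j)) (hv (φ j)) (σ (φ j)) σ₀
      have a2 := eS (φ j)
      have a3 := abs_nonneg (κ (φ j) ^ 2 - κ₀ ^ 2)
      have a4 := norm_nonneg ((N (k (φ j))).Φ x * v (φ j) - u)
      linarith)
    (fun j => by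
      have a2 : (0 : ℝ) ≤ 1 / ((φ j : ℝ) + 1) := by positivity
      have a3 := abs_nonneg (κ (φ j) ^ 2 - κ₀ ^ 2)
      have a4 := abs_nonneg (σ (φ j) - σ₀)
      linarith)
  have z := hQ u a c ha hae
  have l5 : c' ≤ 0 := by
    refine ge_of_tendsto' t4 fun j => (hc (φ j)).trans ?_
    have := oQ.mul_le ((N (k (φ j))).Φ x * v (φ j) - u)
    rwa [Matrix.mul_sub, z, sub_zero, one_mul, ← Matrix.mul_assoc] at this
  linarith

/-- Rigidity.
Recipe. Choose N_k : Near θ w M (2^(-k)). (1) For a.e. x both defects tend to 0 (Σ_k ∫ < ∞: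
`lintegral_tsum`, `ae_lt_top'`, `ENNReal.tendsto_atTop_zero_of_tsum_ne_top`; the defects are ≥ 0 by
`gY_nonneg`); call such x good. At good x, with ρ_k = Φ_k Φ_kᴴ (Op ρ_k M², Op (pw r ρ_k) (M²)^r):
‖w x - pw r ρ_k‖ → 0 (`gY_lower`), ‖U_k - D_k‖ → 0, ‖[K_k², S_k x]‖ → 0; and
`pw r ρ * Φ = Φ * pw r (ΦᴴΦ)` (`cfc_intertwine`).
(2) Apply `simDiag` to W x = (1+r) • w x with α = {a // 0 ≤ a} × ℝ, P (a,c) = soliton r a c,
a₀ = (0,0). Fix Q killing all profile eigenvectors and a good x.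
Claim ‖Q Φ_k K_k‖² → 0. Otherwise it is ≥ η > 0 along a subsequence; `aje` (T = Q Φ_k x, ‖T‖ ≤ M since
Op Q 1, q = 2θ+1) yields along a further subsequence unit v_k, κ_k, σ_k with errors → 0 and
‖Q Φ_k v_k‖ ≥ c'; extract (κ_k, σ_k, Φ_k x v_k) → (κ, σ, u) (bounded in a finite-dimensional space),
|σ| ≤ κ ≤ M, ‖Q u‖ ≥ c'. Take the profile (s, f, a, c) of `exists_profile` at x₀ = x. By `propagate`, for
every y: (S_k y - s y) v_k → 0 and Φ_k y v_k → f y • u. At good y: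
w y (f y • u) = lim pw r ρ Φ v = lim Φ U v = lim Φ (K² - S²) v = (κ² - s²) f y • u, so u is a profile
eigenvector and Q u = 0, contradiction.
(3) Then tr (Q ρ^(1+r) Q) = tr (QΦ U ΦᴴQ) ≤ tr (QΦ K² ΦᴴQ) + M² ‖U - D‖ → 0 (D ≤ K²), and
‖ρ^r Q‖² = tr (Q ρ^(2r) Q) ≤ (M²)^(r-1) tr (Q ρ^(1+r) Q) (r ≥ 1), so w x Q = lim ρ^r Q = 0. -/
theorem rigid {θ : ℝ} (h0 : 0 < θ) (h1 : θ < 1) {m : ℕ} (w : ℝ → Matrix (Fin m) (Fin m) ℂ)
    (hw : ∀ x, (w x).PosSemidef) (M : ℝ) (h : ∀ ε : ℝ, 0 < ε → Nonempty (Near θ w M ε)) :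
    ∃ (U : Matrix.unitaryGroup (Fin m) ℂ) (a c : Fin m → ℝ), (∀ i, 0 ≤ a i) ∧
      ∀ᵐ x : ℝ, (1 + θ⁻¹) • w x = (U : Matrix (Fin m) (Fin m) ℂ) *
        Matrix.diagonal (fun i => ((soliton θ⁻¹ (a i) (c i) x : ℝ) : ℂ)) *
          star (U : Matrix (Fin m) (Fin m) ℂ) := by
  have N : ∀ k : ℕ, Near θ w M ((1 / 2) ^ k) := fun k => (h _ (by positivity)).some
  have hg := ae_good h0 h1 hw N
  have hr : 1 ≤ θ⁻¹ := (one_le_inv₀ h0).2 h1.le
  obtain ⟨U, p, hp⟩ := simDiag (α := {a : ℝ // 0 ≤ a} × ℝ)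
    (fun p x => soliton θ⁻¹ p.1 p.2 x) (⟨0, le_rfl⟩, 0) (fun x => by simp [soliton])
    (fun x => (1 + θ⁻¹) • w x) (fun x => herm_smul (hw x).1 _) (by
      intro Q hQ hQQ hk
      have oQ := op_proj hQ hQQ
      filter_upwards [hg] with x gx
      have t1 := tendsto_QΦK h0 N hg oQ (fun u a c ha hae => hk u (⟨a, ha⟩, c) hae) gx
      have t2 := tendsto_zero_of_sq_le (fun _ => norm_nonneg _)
        (fun k => rho_est hQ hQQ ((N k).sand x).psd.1 ((N k).sand x).herm hr ((N k).bdΦ x))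
        (by simpa using (t1.add (gx.ode.const_mul (M * M))).const_mul ((M * M) ^ (θ⁻¹ - 1)))
      have t3 := gx.pot.add t2
      rw [add_zero] at t3
      have z : ‖w x * Q‖ ≤ 0 := by
        refine ge_of_tendsto' t3 fun k => ?_
        have e : w x * Q = (w x - pw θ⁻¹ ((N k).Φ x * ((N k).Φ x)ᴴ)) * Q +
            pw θ⁻¹ ((N k).Φ x * ((N k).Φ x)ᴴ) * Q := by rw [Matrix.sub_mul]; abel
        have a1 := oQ.le_mul (w x - pw θ⁻¹ ((N k).Φ x * ((N k).Φ x)ᴴ))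
        rw [e]
        refine (norm_add_le _ _).trans ?_
        linarith
      rw [Matrix.smul_mul, norm_le_zero_iff.1 z, smul_zero])
  exact ⟨U, fun i => (p i).1, fun i => (p i).2, fun i => (p i).1.2, hp⟩

end Crest.Agent.R332
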