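import Crest.Agent.R332.Shoot
import Crest.Agent.R332.Keller
import Crest.Agent.R332.Reduce
import Crest.Agent.R332.Rigid

/-!
Row 332: assembling the inequality and the almost extremal data.
-/

set_option autoImplicit false
set_option linter.unusedSectionVars false

namespace Crest.Agent.R332

open Matrix Crest.Agent.Lib.QEnt Filter Topology MeasureTheory Set Crest.MathPhysics.LiebThirring
open scoped ComplexOrder Matrix.Norms.Frobenius

theorem integral_of_supp {f : ℝ → ℝ} (hf : Continuous f) {L : ℝ}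
    (h0 : ∀ x, x ≤ -L ∨ L ≤ x → f x = 0) : Integrable f ∧ ∫ x, f x = ∫ x in (-L)..L, f x := by
  refine ⟨hf.integrable_of_hasCompactSupport (HasCompactSupport.intro (isCompact_Icc (a := -L) (b := L))
    fun x hx => h0 x ?_), (intervalIntegral.integral_eq_integral_of_support_subset fun x hx => ?_).symm⟩
  · by_contra h
    push Not at h
    exact hx ⟨h.1.le, h.2.le⟩
  · by_contra h
    refine hx (h0 x ?_)
    by_contra h'
    push Not at h'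
    exact h ⟨h'.1, h'.2.le⟩

section
variable {n : Type} [Fintype n] [DecidableEq n]

theorem tr_pw_smul {A : Matrix n n ℂ} (hA : A.PosSemidef) {c : ℝ} (hc : 0 ≤ c) (q : ℝ) :
    tr (pw q (c • A)) = c ^ q * tr (pw q A) := by
  obtain ⟨U, a, ha⟩ := exists_isDiag hA.1
  rw [isDiag_tr (isDiag_pw (isDiag_smul ha c) q), isDiag_tr (isDiag_pw ha q), Finset.mul_sum]
  exact Finset.sum_congr rfl fun i _ => Real.mul_rpow hc (ha.nonneg hA i)

theorem pw_pw {A : Matrix n n ℂ} (hA : A.PosSemidef) (p q : ℝ) : pw p (pw q A) = pw (q * p) A := by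
  obtain ⟨U, a, ha⟩ := exists_isDiag hA.1
  exact isDiag_eq_of (isDiag_pw (isDiag_pw ha q) p) (isDiag_pw ha _) fun i =>
    (Real.rpow_mul (ha.nonneg hA i) q p).symm

theorem op_pw_le {A : Matrix n n ℂ} (hA : A.PosSemidef) {c q : ℝ} (hc : Op A c) (hq : 0 ≤ q) :
    Op (pw q A) (c ^ q) := by
  obtain ⟨U, a, ha⟩ := exists_isDiag hA.1
  refine op_cfc ha (Real.rpow_nonneg hc.1 q) fun i => ?_
  rw [abs_of_nonneg (Real.rpow_nonneg (ha.nonneg hA i) q)]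
  exact Real.rpow_le_rpow (ha.nonneg hA i) ((le_abs_self _).trans (hc.abs_eig_le ha i)) hq

theorem le_max_of_rpow_le {y q c : ℝ} (hq : 1 ≤ q) (h : y ^ q ≤ c) : y ≤ max 1 c := by
  rcases le_total y 1 with h1 | h1
  · exact h1.trans (le_max_left _ _)
  · have := Real.rpow_le_rpow_of_exponent_le h1 hq
    rw [Real.rpow_one] at this
    exact (this.trans h).trans (le_max_right _ _)

theorem op_of_tr_pw {K : Matrix n n ℂ} (hK : K.PosSemidef) {q c : ℝ} (hq : 1 ≤ q)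
    (h : tr (pw q K) ≤ c) : Op K (max 1 c) := by
  obtain ⟨U, a, ha⟩ := exists_isDiag hK.1
  refine op_of_isDiag ha (zero_le_one.trans (le_max_left _ _)) fun i => ?_
  rw [abs_of_nonneg (ha.nonneg hK i)]
  refine le_max_of_rpow_le hq (le_trans ?_ h)
  rw [isDiag_tr (isDiag_pw ha q)]
  exact Finset.single_le_sum (f := fun i => a i ^ q)
    (fun j _ => Real.rpow_nonneg (ha.nonneg hK j) q) (Finset.mem_univ i)

end

/-- The critical data attached to a trial family. -/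
theorem crit {γ : ℝ} (hγ : 1 / 2 < γ) (hγ' : γ < 3 / 2) {m : ℕ}
    {W : ℝ → Matrix (Fin m) (Fin m) ℂ}
    (hW : ∀ i j, Measurable fun x => W x i j) (hWp : ∀ x, (W x).PosSemidef)
    (hWi : Integrable fun x => tracePow (W x) (γ + 1 / 2))
    {N : ℕ} {φ : Fin N → ℝ → Vec m} (hφ : IsTrialFamily φ) :
    ∃ (ι : Type) (_ : Fintype ι) (_ : DecidableEq ι) (Φ Φ' : ℝ → Matrix (Fin m) ι ℂ)
      (K : Matrix ι ι ℂ) (S : ℝ → Matrix ι ι ℂ) (L : ℝ), 0 ≤ L ∧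
      (∀ x, HasDerivAt Φ (Φ' x) x) ∧ Continuous Φ' ∧
      (∀ x, x ≤ -L ∨ L ≤ x → Φ x = 0 ∧ Φ' x = 0) ∧ (∀ x, Sand K (S x)) ∧
      (∀ x, HasDerivAt S (K * K - S x * S x -
        (1 + (γ - 1 / 2)⁻¹) • pw (γ - 1 / 2)⁻¹ ((Φ x)ᴴ * Φ x)) x) ∧
      (∀ x, x ≤ -L → S x = K) ∧ (∀ x, L ≤ x → S x = -K) ∧
      negMoment (energyMatrix W φ) γ ≤ tr (pw (2 * (γ - 1 / 2) + 1) K) ∧
      (∫ x, tr (W x * (Φ x * (Φ x)ᴴ)) = (∫ x in (-L)..L, ‖Φ' x - Φ x * S x‖ ^ 2) +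
        (1 + (γ - 1 / 2)⁻¹) * ∫ x in (-L)..L, tr (pw (1 + (γ - 1 / 2)⁻¹) ((Φ x)ᴴ * Φ x))) ∧
      (∫ x in (-L)..L, ‖Φ' x‖ ^ 2) ≤ ∫ x, tr (W x * (Φ x * (Φ x)ᴴ)) := by
  obtain ⟨ι, i1, i2, Ψ, Ψ', K₀, L, hL, hd, hc, hs, hon, hK₀, hneg, hen⟩ := reduce hγ hW hWp hWi hφ
  have hr : 1 ≤ (γ - 1 / 2)⁻¹ := (one_le_inv₀ (by linarith)).2 (by linarith)
  have hx : -L ≤ L := by linarith
  obtain ⟨B, K, S, hB, hK, hKK, hBK, hsand, hS, hl, hr'⟩ :=
    shoot hr hx hd hc (fun x hx => (hs x hx).1) hon hK₀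
  have h1 := energy_identity (Φ := fun x => Ψ x * B) (Φ' := fun x => Ψ' x * B) (by linarith) hx
    (fun x => HasDerivAt.matmul_const (hd x) B) (hc.matrix_mul continuous_const)
    (fun x _ => hS x) (fun x _ => (hsand x).herm)
    (by simp [(hs _ (Or.inl le_rfl)).1]) (by simp [(hs _ (Or.inr le_rfl)).1])
  have h2 : ∫ x in (-L)..L, tr ((Ψ x * B)ᴴ * (Ψ x * B) * (K * K)) = tr (Bᴴ * (K₀ * K₀) * B) := by
    have h3 : B * (K * K) = B * (K₀ * K₀) := by rwa [Matrix.mul_sub, sub_eq_zero] at hBK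
    rw [hB.1.eq, ← h3, ← hon]
    refine intervalIntegral.integral_congr fun x _ => ?_
    simp only [conjTranspose_mul, hB.1.eq, Matrix.mul_assoc]
    rw [tr_mul_comm]
    simp only [Matrix.mul_assoc]
  refine ⟨ι, i1, i2, fun x => Ψ x * B, fun x => Ψ' x * B, K, S, L, hL,
    fun x => HasDerivAt.matmul_const (hd x) B, hc.matrix_mul continuous_const,
    fun x hx => by simp [(hs x hx).1, (hs x hx).2], hsand, hS, hl, hr', ?_, ?_, ?_⟩
  · rw [hneg, show 2 * (γ - 1 / 2) + 1 = 2 * γ by ring]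
    exact tr_pw_mono hK₀ hK hKK (by linarith)
  · rw [hen B, ← h1, h2]
  · rw [hen B]
    have := tr_nonneg ((psd_mul_self hK₀.1).conjTranspose_mul_mul_same B)
    linarith

/-- The inequality, together with almost extremal data. -/
theorem main {γ : ℝ} (hγ : 1 / 2 < γ) (hγ' : γ < 3 / 2) {m : ℕ}
    {W : ℝ → Matrix (Fin m) (Fin m) ℂ}
    (hW : ∀ i j, Measurable fun x => W x i j) (hWp : ∀ x, (W x).PosSemidef)
    (hWi : Integrable fun x => tracePow (W x) (γ + 1 / 2)) :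
    ∃ M C : ℝ, 0 < C ∧ ∀ (N : ℕ) (φ : Fin N → ℝ → Vec m), IsTrialFamily φ →
      negMoment (energyMatrix W φ) γ ≤ sharpConst γ * (∫ x, tracePow (W x) (γ + 1 / 2)) ∧
      ∀ ε : ℝ, 0 < ε →
        sharpConst γ * (∫ x, tracePow (W x) (γ + 1 / 2)) - ε < negMoment (energyMatrix W φ) γ →
        Nonempty (Near (γ - 1 / 2) (fun x => (1 + (γ - 1 / 2)⁻¹)⁻¹ • W x) M (C * ε)) := by
  have hsc := sharpConst_mul_Bc hγ
  obtain ⟨θ, hθ⟩ : ∃ θ, θ = γ - 1 / 2 := ⟨_, rfl⟩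
  have h0 : 0 < θ := by linarith
  have h1 : θ < 1 := by linarith
  have hp : γ + 1 / 2 = 1 + θ := by linarith
  have hr : 1 ≤ θ⁻¹ := (one_le_inv₀ h0).2 h1.le
  have hB := Bc_pos h0
  rw [← hθ] at hsc ⊢
  obtain ⟨I, hI⟩ : ∃ I, I = sharpConst γ * (∫ x, tracePow (W x) (γ + 1 / 2)) := ⟨_, rfl⟩
  rw [← hI]
  obtain ⟨M₁, hM₁⟩ : ∃ M₁, M₁ = max 1 ((1 + θ⁻¹ + 1) / 2 *
    ((Fintype.card (Fin m) : ℝ) ^ (1 + θ⁻¹ - 1) * (Bc θ * I) + 2 * (Bc θ * I))) := ⟨_, rfl⟩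
  have hM₁1 : 1 ≤ M₁ := hM₁ ▸ le_max_left _ _
  obtain ⟨M, hM⟩ : ∃ M, M = max (max 1 I) (max M₁ (M₁ ^ θ⁻¹)) := ⟨_, rfl⟩
  obtain ⟨c, hc, hkel⟩ := keller h0 h1 M
  refine ⟨M, Bc θ * (1 + c⁻¹), by positivity, fun N φ hφ => ?_⟩
  obtain ⟨ι, i1, i2, Φ, Φ', K, S, L, hL, hd, hc', hs, hsand, hS, hl, hr', hneg, hen, hen'⟩ :=
    crit hγ hγ' hW hWp hWi hφ
  rw [← hθ] at hS hneg hen
  have hx : -L ≤ L := by linarith
  have hΦ : Continuous Φ := continuous_of_hasDerivAt hd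
  have hSc : Continuous S := continuous_of_hasDerivAt hS
  have hρ : Continuous fun x => Φ x * (Φ x)ᴴ := hΦ.matrix_mul hΦ.matrix_conjTranspose
  have hA : Continuous fun x => (Φ x)ᴴ * Φ x := hΦ.matrix_conjTranspose.matrix_mul hΦ
  have hρp : ∀ x, (Φ x * (Φ x)ᴴ).PosSemidef := fun x => posSemidef_self_mul_conjTranspose _
  have hAp : ∀ x, ((Φ x)ᴴ * Φ x).PosSemidef := fun x => posSemidef_conjTranspose_mul_self _
  have hUc : Continuous fun x => pw θ⁻¹ ((Φ x)ᴴ * Φ x) :=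
    continuous_pw (by linarith) hA fun x => (hAp x).1
  obtain ⟨J, hJ⟩ : ∃ J, J = ∫ x in (-L)..L, tr (pw (1 + θ⁻¹) ((Φ x)ᴴ * Φ x)) := ⟨_, rfl⟩
  obtain ⟨g₁, hg₁⟩ : ∃ g₁, g₁ = ∫ x in (-L)..L, ‖Φ' x - Φ x * S x‖ ^ 2 := ⟨_, rfl⟩
  rw [← hJ, ← hg₁] at hen
  have hJ0 : 0 ≤ J := hJ ▸ intervalIntegral.integral_nonneg hx fun x _ => tr_nonneg (psd_pw (hAp x) _)
  have hg₁0 : 0 ≤ g₁ := hg₁ ▸ intervalIntegral.integral_nonneg hx fun x _ => by positivity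
  -- Young
  have hPc : Continuous fun x => tr (pw (1 + θ⁻¹) (Φ x * (Φ x)ᴴ)) :=
    Continuous.tr' (continuous_pw (by linarith) hρ fun x => (hρp x).1)
  obtain ⟨iP, eP⟩ := integral_of_supp hPc (L := L) fun x hx => by
    rw [(hs x hx).1, Matrix.zero_mul, pw_zero (by linarith), tr_zero]
  have eP' : ∫ x in (-L)..L, tr (pw (1 + θ⁻¹) (Φ x * (Φ x)ᴴ)) = J := by
    rw [hJ]
    exact intervalIntegral.integral_congr fun x _ => (tr_pw_swap (Φ x) (by linarith)).symm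
  have iW : Integrable fun x => tr (W x * (Φ x * (Φ x)ᴴ)) :=
    integrable_tr_W_mul (by linarith) hW hWp hWi hρ (L := L) fun x hx => by
      rw [(hs x hx).1, Matrix.zero_mul]
  have hgY : ∀ x, gY θ ((1 + θ⁻¹)⁻¹ • W x) (Φ x * (Φ x)ᴴ) =
      sharpConst γ * Bc θ * tracePow (W x) (γ + 1 / 2) + tr (pw (1 + θ⁻¹) (Φ x * (Φ x)ᴴ)) -
        tr (W x * (Φ x * (Φ x)ᴴ)) := fun x => by
    rw [gY, tr_pw_smul (hWp x) (by positivity), hsc, tracePow_eq, hp, Matrix.smul_mul, tr_smul,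
      ← mul_assoc (1 + θ⁻¹), mul_inv_cancel₀ (by positivity), one_mul, mul_assoc]
  have iY : Integrable fun x => gY θ ((1 + θ⁻¹)⁻¹ • W x) (Φ x * (Φ x)ᴴ) := by
    simp only [hgY]
    exact ((hWi.const_mul _).add iP).sub iW
  have eY : ∫ x, gY θ ((1 + θ⁻¹)⁻¹ • W x) (Φ x * (Φ x)ᴴ) = Bc θ * I - g₁ - θ⁻¹ * J := by
    simp only [hgY]
    have i3 : Integrable fun x => sharpConst γ * Bc θ * tracePow (W x) (γ + 1 / 2) +
        tr (pw (1 + θ⁻¹) (Φ x * (Φ x)ᴴ)) := (hWi.const_mul _).add iP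
    rw [integral_sub i3 iW, integral_add (hWi.const_mul _) iP,
      integral_const_mul, eP, eP', hen, hI]
    ring
  have pY : 0 ≤ Bc θ * I - g₁ - θ⁻¹ * J := eY ▸ integral_nonneg fun x =>
    gY_nonneg h0 (psd_smul (hWp x) (by positivity)) (hρp x)
  have hJI : J ≤ Bc θ * I := by nlinarith
  -- sup bound
  have hbd : ∀ x, ‖Φ x‖ ^ 2 ≤ M₁ := by
    intro x
    rw [hM₁]
    refine le_max_of_rpow_le (q := (1 + θ⁻¹ + 1) / 2) (by linarith)
      ((sup_bound (q := 1 + θ⁻¹) (by linarith) hx hd hc' (fun x hx => (hs x hx).1) x).trans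
        (mul_le_mul_of_nonneg_left ?_ (by linarith)))
    have c1 : Continuous fun x => (‖Φ x‖ ^ 2) ^ (1 + θ⁻¹) :=
      (hΦ.norm.pow 2).rpow_const fun _ => Or.inr (by linarith)
    have c2 : Continuous fun x => ‖Φ' x‖ ^ 2 := hc'.norm.pow 2
    rw [intervalIntegral.integral_add (c1.intervalIntegrable _ _) (c2.intervalIntegrable _ _)]
    have h2 : ∫ x in (-L)..L, (‖Φ x‖ ^ 2) ^ (1 + θ⁻¹) ≤
        (Fintype.card (Fin m) : ℝ) ^ (1 + θ⁻¹ - 1) * J := by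
      rw [← eP', ← intervalIntegral.integral_const_mul]
      exact intervalIntegral.integral_mono_on hx (c1.intervalIntegrable _ _)
        ((continuous_const.mul hPc).intervalIntegrable _ _) fun x _ =>
          norm_sq_rpow_le (Φ x) (by linarith)
    have h3 := mul_le_mul_of_nonneg_left hJI
      (show 0 ≤ (Fintype.card (Fin m) : ℝ) ^ (1 + θ⁻¹ - 1) by positivity)
    rw [hen] at hen'
    linarith
  have hU : ∀ x, Op (pw θ⁻¹ ((Φ x)ᴴ * Φ x)) (M₁ ^ θ⁻¹) := fun x =>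
    op_pw_le (hAp x) (op_of_norm_le ((norm_mul_le' _ _).trans (by rw [norm_ct, ← sq]; exact hbd x)))
      (by linarith)
  have eU : ∫ x in (-L)..L, tr (pw (1 + θ) (pw θ⁻¹ ((Φ x)ᴴ * Φ x))) = J := by
    rw [hJ]
    refine intervalIntegral.integral_congr fun x _ => ?_
    rw [pw_pw (hAp x), mul_add, mul_one, inv_mul_cancel₀ h0.ne', add_comm]
  have hδ0 : 0 ≤ ∫ x in (-L)..L, (‖pw θ⁻¹ ((Φ x)ᴴ * Φ x) - (K * K - S x * S x)‖ ^ 2 +
      ‖K * K * S x - S x * (K * K)‖ ^ 2) :=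
    intervalIntegral.integral_nonneg hx fun x _ => by positivity
  -- first use of Keller's inequality
  have hKI : tr (pw (2 * θ + 1) K) ≤ I := by
    obtain ⟨c', hc'0, hk'⟩ := keller h0 h1 (max ‖K‖ (M₁ ^ θ⁻¹))
    have h2 := hk' ι K S (fun x => pw θ⁻¹ ((Φ x)ᴴ * Φ x)) (-L) L hx hsand
      (op_of_norm_le (le_max_left _ _)) hUc (fun x => psd_pw (hAp x) _)
      (fun x => (hU x).mono (le_max_right _ _)) hS (hl _ le_rfl) (hr' _ le_rfl)
    rw [eU] at h2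
    have h3 := mul_nonneg hc'0.le hδ0
    exact le_of_mul_le_mul_left (by linarith) hB
  refine ⟨hneg.trans hKI, fun ε hε hlt => ?_⟩
  have hopK : Op K M :=
    (op_of_tr_pw (hsand 0).psd (by linarith) hKI).mono (hM ▸ le_max_left _ _)
  have h2 := hkel ι K S (fun x => pw θ⁻¹ ((Φ x)ᴴ * Φ x)) (-L) L hx hsand hopK hUc
    (fun x => psd_pw (hAp x) _)
    (fun x => (hU x).mono (hM ▸ (le_max_right _ _).trans (le_max_right _ _))) hS
    (hl _ le_rfl) (hr' _ le_rfl)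
  rw [eU] at h2
  have c1 : Continuous fun x => ‖Φ' x - Φ x * S x‖ ^ 2 := (hc'.sub (hΦ.matrix_mul hSc)).norm.pow 2
  have c2 : Continuous fun x => ‖pw θ⁻¹ ((Φ x)ᴴ * Φ x) - (K * K - S x * S x)‖ ^ 2 +
      ‖K * K * S x - S x * (K * K)‖ ^ 2 :=
    ((hUc.sub (continuous_const.sub (hSc.matrix_mul hSc))).norm.pow 2).add
      (((continuous_const.matrix_mul hSc).sub (hSc.matrix_mul continuous_const)).norm.pow 2)
  have hdfc : ∀ x, dfc θ K (S x) (Φ x) (Φ' x) = ‖Φ' x - Φ x * S x‖ ^ 2 +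
      (‖pw θ⁻¹ ((Φ x)ᴴ * Φ x) - (K * K - S x * S x)‖ ^ 2 + ‖K * K * S x - S x * (K * K)‖ ^ 2) :=
    fun x => by rw [dfc, add_assoc]
  obtain ⟨iD, eD⟩ := integral_of_supp (c1.add c2) (L := L) fun x hx => by
    have h3 := (hs x hx).1
    have h4 := (hs x hx).2
    rcases hx with hx | hx
    · simp [h3, h4, hl x hx, pw_zero (inv_pos.2 h0).ne', Matrix.mul_assoc]
    · simp [h3, h4, hr' x hx, pw_zero (inv_pos.2 h0).ne', Matrix.mul_assoc]
  obtain ⟨δ, hδ⟩ : ∃ δ, δ = ∫ x in (-L)..L,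
      (‖pw θ⁻¹ ((Φ x)ᴴ * Φ x) - (K * K - S x * S x)‖ ^ 2 + ‖K * K * S x - S x * (K * K)‖ ^ 2) :=
    ⟨_, rfl⟩
  rw [← hδ] at h2 hδ0
  have h3 : Bc θ * (I - ε) ≤ Bc θ * tr (pw (2 * θ + 1) K) :=
    mul_le_mul_of_nonneg_left (by linarith) hB.le
  have h4 := mul_nonneg hc.le hδ0
  have h5 : δ ≤ Bc θ * ε * c⁻¹ := by
    rw [← div_eq_mul_inv, le_div_iff₀ hc]
    linarith
  have h6 : 0 ≤ Bc θ * ε * c⁻¹ := by positivity
  refine ⟨{ ι := ι, K := K, S := S, Φ := Φ, Φ' := Φ', sand := hsand, opK := hopK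
            trK := hKI.trans (hM ▸ (le_max_right _ _).trans (le_max_left _ _))
            derS := hS, derΦ := hd, contΦ' := hc', bdΦ := fun x => ?_
            intD := ?_, leD := ?_, intY := iY, leY := ?_ }⟩
  · have h7 := hbd x
    have h8 : M₁ ≤ M := hM ▸ (le_max_left _ _).trans (le_max_right _ _)
    nlinarith [sq_nonneg (‖Φ x‖ - 1)]
  · simp only [hdfc]; exact iD
  · simp only [hdfc]
    simp only [Pi.add_apply] at eD
    rw [eD, intervalIntegral.integral_add (c1.intervalIntegrable _ _) (c2.intervalIntegrable _ _),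
      ← hδ, ← hg₁]
    linarith
  · rw [eY]
    linarith

end Crest.Agent.R332
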