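import Crest.Agent.R332.Defs

/-!
Row 332: the data extracted from an almost extremal trial family.
-/

set_option autoImplicit false
set_option linter.unusedSectionVars false

namespace Crest.Agent.R332

open Matrix Crest.Agent.Lib.QEnt Filter Topology MeasureTheory Set
open scoped ComplexOrder Matrix.Norms.Frobenius

variable {m n : Type} [Fintype m] [Fintype n] [DecidableEq m] [DecidableEq n]

/-- The ODE/commutator defect. -/
noncomputable def dfc (θ : ℝ) (K S : Matrix n n ℂ) (Φ Φ' : Matrix m n ℂ) : ℝ :=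
  ‖Φ' - Φ * S‖ ^ 2 + ‖pw θ⁻¹ (Φᴴ * Φ) - (K * K - S * S)‖ ^ 2 + ‖K * K * S - S * (K * K)‖ ^ 2

/-- Almost extremal data for the normalised potential `w = W / (1 + θ⁻¹)`. -/
structure Near (θ : ℝ) {m : ℕ} (w : ℝ → Matrix (Fin m) (Fin m) ℂ) (M ε : ℝ) where
  ι : Type
  [fin : Fintype ι]
  [dec : DecidableEq ι]
  K : Matrix ι ι ℂ
  S : ℝ → Matrix ι ι ℂ
  Φ : ℝ → Matrix (Fin m) ι ℂ
  Φ' : ℝ → Matrix (Fin m) ι ℂ
  sand : ∀ x, Sand K (S x)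
  opK : Op K M
  trK : tr (pw (2 * θ + 1) K) ≤ M
  derS : ∀ x, HasDerivAt S (K * K - S x * S x - (1 + θ⁻¹) • pw θ⁻¹ ((Φ x)ᴴ * Φ x)) x
  derΦ : ∀ x, HasDerivAt Φ (Φ' x) x
  contΦ' : Continuous Φ'
  bdΦ : ∀ x, ‖Φ x‖ ≤ M
  intD : Integrable fun x => dfc θ K (S x) (Φ x) (Φ' x)
  leD : ∫ x, dfc θ K (S x) (Φ x) (Φ' x) ≤ ε
  intY : Integrable fun x => gY θ (w x) (Φ x * (Φ x)ᴴ)
  leY : ∫ x, gY θ (w x) (Φ x * (Φ x)ᴴ) ≤ ε

attribute [instance] Near.fin Near.dec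

end Crest.Agent.R332
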