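import Mathlib

/-!
Row 332: a radial cap, parametrised solutions of capped ODEs, scalar comparison lemmas.
-/

set_option autoImplicit false
set_option linter.unusedSectionVars false

namespace Crest.Agent.R332

open Filter Topology Set Metric

variable {E : Type*} [NormedAddCommGroup E] [NormedSpace ℝ E]

/-- Radial retraction onto the ball of radius `ρ`. -/
noncomputable def cap (ρ : ℝ) (y : E) : E := (ρ / max ρ ‖y‖) • y

theorem cap_of_le {ρ : ℝ} (hρ : 0 < ρ) {y : E} (h : ‖y‖ ≤ ρ) : cap ρ y = y := by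
  rw [cap, max_eq_left h, div_self hρ.ne', one_smul]

theorem cap_coeff {ρ : ℝ} (hρ : 0 < ρ) (y : E) : 0 < ρ / max ρ ‖y‖ ∧ ρ / max ρ ‖y‖ ≤ 1 :=
  ⟨div_pos hρ (lt_max_of_lt_left hρ), (div_le_one (lt_max_of_lt_left hρ)).2 (le_max_left _ _)⟩

theorem norm_cap_le {ρ : ℝ} (hρ : 0 < ρ) (y : E) : ‖cap ρ y‖ ≤ ρ := by
  have h : 0 < max ρ ‖y‖ := lt_max_of_lt_left hρ
  rw [cap, norm_smul, Real.norm_eq_abs, abs_of_pos (div_pos hρ h), div_mul_eq_mul_div,
    div_le_iff₀ h]
  exact mul_le_mul_of_nonneg_left (le_max_right _ _) hρ.le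

theorem cap_lip {ρ : ℝ} (hρ : 0 < ρ) (y z : E) : ‖cap ρ y - cap ρ z‖ ≤ 2 * ‖y - z‖ := by
  set a := max ρ ‖y‖ with ha
  set b := max ρ ‖z‖ with hb
  have ha0 : 0 < a := lt_max_of_lt_left hρ
  have hb0 : 0 < b := lt_max_of_lt_left hρ
  have hab : |b - a| ≤ ‖y - z‖ := by
    have h1 := abs_max_sub_max_le_abs ‖z‖ ‖y‖ ρ
    rw [max_comm ‖z‖, max_comm ‖y‖] at h1
    refine h1.trans ?_
    rw [abs_sub_comm]
    exact abs_norm_sub_norm_le y z
  have h1 : cap ρ y - cap ρ z = (ρ / a) • (y - z) + (ρ / a * ((b - a) / b)) • z := by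
    simp only [cap, ← ha, ← hb, smul_sub]
    rw [sub_add_eq_add_sub, add_sub_assoc, ← sub_smul, sub_eq_add_neg, ← neg_smul]
    congr 2
    field_simp
    ring
  have h2 : ρ / a ≤ 1 := (div_le_one ha0).2 (le_max_left _ _)
  have h3 : 0 ≤ ρ / a := by positivity
  rw [h1]
  refine (norm_add_le _ _).trans ?_
  rw [norm_smul, norm_smul, Real.norm_eq_abs, Real.norm_eq_abs, abs_mul, abs_of_nonneg h3, abs_div,
    abs_of_pos hb0]
  have h4 : |b - a| / b * ‖z‖ ≤ ‖y - z‖ := by
    rw [div_mul_eq_mul_div, div_le_iff₀ hb0]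
    exact mul_le_mul hab (le_max_right _ _) (norm_nonneg _) (norm_nonneg _)
  have h5 : ρ / a * ‖y - z‖ ≤ ‖y - z‖ := mul_le_of_le_one_left (norm_nonneg _) h2
  have h6 : ρ / a * (|b - a| / b * ‖z‖) ≤ |b - a| / b * ‖z‖ :=
    mul_le_of_le_one_left (by positivity) h2
  rw [mul_assoc]
  linarith

/-- Solutions of a capped ODE depending continuously on a parameter. -/
theorem exists_param_solution [CompleteSpace E] [ProperSpace E] {P : Type*} [TopologicalSpace P]
    (g : P → ℝ → E → E) (T : E → E) {ρ : ℝ} (hT : ∀ y, ‖T y‖ ≤ ρ)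
    (hTl : ∀ y z, ‖T y - T z‖ ≤ 2 * ‖y - z‖)
    (hg : Continuous fun q : P × ℝ × E => g q.1 q.2.1 q.2.2)
    (hl : ∀ p, ∃ L, 0 ≤ L ∧ ∀ t y z, ‖y‖ ≤ ρ → ‖z‖ ≤ ρ → ‖g p t y - g p t z‖ ≤ L * ‖y - z‖)
    {a b : ℝ} (hab : a ≤ b) :
    ∃ β : P → ℝ → E, (∀ p, β p a = 0) ∧
      (∀ p, ∀ t ∈ Icc a b, HasDerivAt (β p) (g p t (T (β p t))) t) ∧ Continuous fun p => β p b := by
  choose L hL0 hL using hl
  have hlip : ∀ p t, LipschitzWith (Real.toNNReal (2 * L p)) (fun y => g p t (T y)) := by
    intro p t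
    refine LipschitzWith.of_dist_le_mul fun y z => ?_
    rw [dist_eq_norm, dist_eq_norm, Real.coe_toNNReal _ (by have := hL0 p; positivity)]
    refine (hL p t _ _ (hT y) (hT z)).trans ?_
    have := mul_le_mul_of_nonneg_left (hTl y z) (hL0 p)
    linarith
  have hK : IsCompact (Icc (a - 1) (b + 1) ×ˢ closedBall (0 : E) ρ) :=
    isCompact_Icc.prod (isCompact_closedBall _ _)
  have hex : ∀ p, ∃ β : ℝ → E, β a = 0 ∧ ∀ t ∈ Icc a b, HasDerivAt β (g p t (T (β t))) t := by
    intro p
    have hc : Continuous fun q : ℝ × E => g p q.1 q.2 :=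
      hg.comp (continuous_const.prodMk continuous_id)
    obtain ⟨C, hC⟩ := hK.exists_bound_of_continuousOn hc.continuousOn
    have hpl : IsPicardLindelof (fun t y => g p t (T y))
        (tmin := a - 1) (tmax := b + 1) ⟨a, by constructor <;> linarith⟩ 0
        (Real.toNNReal (max C 0 * (b - a + 1))) 0 (Real.toNNReal (max C 0))
        (Real.toNNReal (2 * L p)) := by
      refine ⟨fun t _ => (hlip p t).lipschitzOnWith, fun y _ => ?_, fun t ht y _ => ?_, ?_⟩
      · exact (hc.comp (continuous_id.prodMk continuous_const)).continuousOn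
      · rw [Real.coe_toNNReal _ (le_max_right _ _)]
        exact (hC (t, T y) ⟨ht, by simpa using hT y⟩).trans (le_max_left _ _)
      · rw [Real.coe_toNNReal _ (le_max_right _ _),
          Real.coe_toNNReal _ (mul_nonneg (le_max_right _ _) (by linarith))]
        simp only [NNReal.coe_zero, sub_zero]
        refine mul_le_mul_of_nonneg_left (max_le (by linarith) (by linarith)) (le_max_right _ _)
    obtain ⟨α, hα0, hα⟩ := hpl.exists_eq_forall_mem_Icc_hasDerivWithinAt₀
    refine ⟨α, hα0, fun t ht => ?_⟩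
    exact (hα t ⟨by linarith [ht.1], by linarith [ht.2]⟩).hasDerivAt
      (Icc_mem_nhds (by linarith [ht.1]) (by linarith [ht.2]))
  choose β hβ0 hβ using hex
  refine ⟨β, hβ0, hβ, continuous_iff_continuousAt.2 fun p₀ => ?_⟩
  rw [ContinuousAt, Metric.tendsto_nhds]
  intro ε hε
  have hcε : Continuous fun e => gronwallBound 0 (Real.toNNReal (2 * L p₀)) e (b - a) :=
    gronwallBound_continuous_ε _ _ _
  have h0 : ∀ᶠ e in 𝓝 (0 : ℝ), gronwallBound 0 (Real.toNNReal (2 * L p₀)) e (b - a) < ε :=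
    hcε.continuousAt.eventually_lt continuousAt_const (by rw [gronwallBound_ε0_δ0]; exact hε)
  obtain ⟨e, he, he0⟩ := ((h0.filter_mono nhdsWithin_le_nhds).and
    (self_mem_nhdsWithin (a := (0 : ℝ)) (s := Ioi 0))).exists
  have hnear : ∀ᶠ p in 𝓝 p₀, ∀ q ∈ Icc (a - 1) (b + 1) ×ˢ closedBall (0 : E) ρ,
      dist (g p q.1 q.2) (g p₀ q.1 q.2) < e := by
    refine hK.eventually_forall_of_forall_eventually fun q _ => ?_
    have hc : Continuous fun z : P × ℝ × E => dist (g z.1 z.2.1 z.2.2) (g p₀ z.2.1 z.2.2) :=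
      hg.dist (hg.comp (continuous_const.prodMk continuous_snd))
    exact hc.continuousAt.eventually_lt continuousAt_const (by simpa using he0)
  filter_upwards [hnear] with p hp
  have := dist_le_of_approx_trajectories_ODE (v := fun t y => g p₀ t (T y)) (hlip p₀)
    (f := β p) (g := β p₀) (f' := fun t => g p t (T (β p t))) (g' := fun t => g p₀ t (T (β p₀ t)))
    (a := a) (b := b) (εf := e) (εg := 0) (δ := 0)
    (fun t ht => (hβ p t ht).continuousAt.continuousWithinAt)
    (fun t ht => (hβ p t (Ico_subset_Icc_self ht)).hasDerivWithinAt)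
    (fun t ht => (hp (t, T (β p t)) ⟨⟨by linarith [ht.1], by linarith [ht.2]⟩,
      by simpa using hT _⟩).le)
    (fun t ht => (hβ p₀ t ht).continuousAt.continuousWithinAt)
    (fun t ht => (hβ p₀ t (Ico_subset_Icc_self ht)).hasDerivWithinAt)
    (fun t _ => by simp) (by simp [hβ0]) b ⟨hab, le_rfl⟩
  rw [add_zero] at this
  exact this.trans_lt he

/-- A function that starts `≤ 0` and is nonincreasing while it is small stays `≤ 0`. -/
theorem nonpos_of_deriv_small {y y' : ℝ → ℝ} {a b δ : ℝ} (hδ : 0 < δ)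
    (hy : ∀ t ∈ Icc a b, HasDerivAt y (y' t) t) (h0 : y a ≤ 0)
    (h : ∀ t ∈ Icc a b, y t < δ → y' t ≤ 0) : ∀ t ∈ Icc a b, y t ≤ 0 := by
  intro t ht
  have hba : 0 < 2 + (b - a) := by linarith [ht.1, ht.2]
  refine le_of_forall_pos_le_add fun η hη => ?_
  set ε := min δ η / (2 + (b - a)) with hε
  have hε0 : 0 < ε := div_pos (lt_min hδ hη) hba
  have hε1 : ε * (2 + (b - a)) = min δ η := div_mul_cancel₀ _ hba.ne'
  have key := image_le_of_deriv_right_lt_deriv_boundary (f := y) (f' := y') (a := a) (b := b)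
    (fun t ht => (hy t ht).continuousAt.continuousWithinAt)
    (fun t ht => (hy t (Ico_subset_Icc_self ht)).hasDerivWithinAt)
    (B := fun t => ε * (1 + (t - a))) (B' := fun _ => ε) (by simp; linarith)
    (fun t => by simpa using (((hasDerivAt_id t).sub_const a).const_add 1).const_mul ε)
    (fun t ht hB => by
      refine (h t (Ico_subset_Icc_self ht) ?_).trans_lt hε0
      rw [hB]
      have := min_le_left δ η
      nlinarith [ht.1, ht.2]) ht
  have := min_le_right δ η
  nlinarith [ht.1, ht.2]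

/-- Backward version. -/
theorem nonpos_of_deriv_small' {y y' : ℝ → ℝ} {a b δ : ℝ} (hδ : 0 < δ)
    (hy : ∀ t ∈ Icc a b, HasDerivAt y (y' t) t) (h0 : y b ≤ 0)
    (h : ∀ t ∈ Icc a b, y t < δ → 0 ≤ y' t) : ∀ t ∈ Icc a b, y t ≤ 0 := by
  intro t ht
  have hm : ∀ t ∈ Icc (-b) (-a), -t ∈ Icc a b := fun t ht => ⟨by linarith [ht.2], by linarith [ht.1]⟩
  have := nonpos_of_deriv_small (y := fun t => y (-t)) (y' := fun t => - y' (-t)) (a := -b)
    (b := -a) hδ (fun t ht => by
      have := (hy (-t) (hm t ht)).comp t (hasDerivAt_neg t)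
      rw [mul_neg, mul_one] at this
      exact this) (by simpa using h0)
    (fun t ht h' => by simpa using h (-t) (hm t ht) h') (-t) ⟨by linarith [ht.2], by linarith [ht.1]⟩
  simpa using this

/-- Scalar Gronwall from zero. -/
theorem nonpos_of_deriv_le_mul {y y' : ℝ → ℝ} {a b K : ℝ}
    (hy : ∀ t ∈ Icc a b, HasDerivAt y (y' t) t) (h0 : y a ≤ 0)
    (h : ∀ t ∈ Icc a b, y' t ≤ K * y t) : ∀ t ∈ Icc a b, y t ≤ 0 := by
  intro t ht
  have := le_gronwallBound_of_liminf_deriv_right_le (f := y) (f' := y') (δ := 0) (K := K) (ε := 0)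
    (fun t ht => (hy t ht).continuousAt.continuousWithinAt)
    (fun t ht r hr => by
      have := (hy t (Ico_subset_Icc_self ht)).hasDerivWithinAt (s := Ici t) |>.liminf_right_slope_le hr
      simpa [slope_def_field, div_eq_inv_mul] using this)
    h0 (fun t ht => by simpa using h t (Ico_subset_Icc_self ht)) t ht
  rwa [gronwallBound_ε0_δ0] at this

/-- Extending a solution by constants. -/
theorem hasDerivAt_clamp {β β' : ℝ → E} {a b : ℝ} (hab : a ≤ b)
    (h : ∀ t ∈ Icc a b, HasDerivAt β (β' t) t) (ha : β' a = 0) (hb : β' b = 0) (t : ℝ) :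
    HasDerivAt (fun t => β (max a (min t b))) (β' (max a (min t b))) t := by
  have key : ∀ c ∈ Icc a b, β' c = 0 → max a (min t b) = c →
      HasDerivAt (fun t => β (max a (min t b))) 0 t := by
    intro c hc hc0 htc
    have h1 := h c hc
    rw [hc0, hasDerivAt_iff_isLittleO] at h1
    rw [hasDerivAt_iff_isLittleO]
    simp only [smul_zero, sub_zero] at h1 ⊢
    have hcont : Tendsto (fun t => max a (min t b)) (𝓝 t) (𝓝 c) := by
      rw [← htc]
      exact (by fun_prop : Continuous fun t => max a (min t b)).continuousAt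
    rw [htc]
    refine (h1.comp_tendsto hcont).trans_isBigO ?_
    refine Asymptotics.IsBigO.of_bound 1 (Eventually.of_forall fun s => ?_)
    simp only [Function.comp, Real.norm_eq_abs, one_mul]
    rw [← htc, max_comm a, max_comm a]
    refine (abs_max_sub_max_le_abs _ _ a).trans ?_
    simpa using abs_min_sub_min_le_max s b t b
  rcases le_or_gt t a with h1 | h1
  · have : max a (min t b) = a := max_eq_left ((min_le_left _ _).trans h1)
    rw [this, ha]
    exact key a ⟨le_rfl, hab⟩ ha this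
  rcases le_or_gt b t with h2 | h2
  · have : max a (min t b) = b := by rw [min_eq_right h2, max_eq_right hab]
    rw [this, hb]
    exact key b ⟨hab, le_rfl⟩ hb this
  · have : max a (min t b) = t := by rw [min_eq_left h2.le, max_eq_right h1.le]
    rw [this]
    refine (h t ⟨h1.le, h2.le⟩).congr_of_eventuallyEq ?_
    filter_upwards [Ioo_mem_nhds h1 h2] with s hs
    rw [min_eq_left hs.2.le, max_eq_right hs.1.le]

end Crest.Agent.R332
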