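import Crest.Agent.R332.Basic
import Crest.Agent.R332.Cont

/-!
Row 332: operator-norm bounds `Op A c`, continuity of the functional calculus, derivatives of
matrix-valued functions, Klein's inequality and the derivative of trace functions.
-/

set_option autoImplicit false
set_option linter.unusedSectionVars false

namespace Crest.Agent.R332

open Matrix Crest.Agent.Lib.QEnt Filter Topology
open scoped ComplexOrder Matrix.Norms.Frobenius

variable {k l m n : Type} [Fintype k] [Fintype l] [Fintype m] [Fintype n]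

/-- The operator norm of `A` is at most `c`. -/
def Op (A : Matrix m n ℂ) (c : ℝ) : Prop :=
  0 ≤ c ∧ ∀ (k : Type) [Fintype k] (M : Matrix n k ℂ), ‖A * M‖ ≤ c * ‖M‖

theorem Op.nonneg {A : Matrix m n ℂ} {c : ℝ} (h : Op A c) : 0 ≤ c := h.1

theorem Op.mul_le {A : Matrix m n ℂ} {c : ℝ} (h : Op A c) (M : Matrix n k ℂ) :
    ‖A * M‖ ≤ c * ‖M‖ := h.2 k M

theorem Op.ct {A : Matrix m n ℂ} {c : ℝ} (h : Op A c) : Op Aᴴ c := by
  refine ⟨h.1, fun k _ M => ?_⟩
  have h1 : ‖Aᴴ * M‖ ^ 2 ≤ ‖M‖ * (c * ‖Aᴴ * M‖) := by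
    rw [← tr_ct_mul_self, conjTranspose_mul, conjTranspose_conjTranspose, Matrix.mul_assoc]
    refine (tr_mul_le _ _).trans ?_
    rw [norm_ct]
    exact mul_le_mul_of_nonneg_left (h.mul_le _) (norm_nonneg _)
  rcases (norm_nonneg (Aᴴ * M)).eq_or_lt with h0 | h0
  · rw [← h0]; exact mul_nonneg h.1 (norm_nonneg _)
  · nlinarith

theorem Op.le_mul {A : Matrix m n ℂ} {c : ℝ} (h : Op A c) (M : Matrix k m ℂ) :
    ‖M * A‖ ≤ c * ‖M‖ := by
  rw [← norm_ct, conjTranspose_mul, ← norm_ct M]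
  exact h.ct.mul_le _

theorem Op.mono {A : Matrix m n ℂ} {c d : ℝ} (h : Op A c) (hcd : c ≤ d) : Op A d :=
  ⟨h.1.trans hcd, fun _ _ M => (h.mul_le M).trans (mul_le_mul_of_nonneg_right hcd (norm_nonneg _))⟩

theorem op_norm (A : Matrix m n ℂ) : Op A ‖A‖ := ⟨norm_nonneg _, fun _ _ M => norm_mul_le' A M⟩

theorem op_of_norm_le {A : Matrix m n ℂ} {c : ℝ} (h : ‖A‖ ≤ c) : Op A c := (op_norm A).mono h

theorem Op.add {A B : Matrix m n ℂ} {c d : ℝ} (hA : Op A c) (hB : Op B d) : Op (A + B) (c + d) := by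
  refine ⟨add_nonneg hA.1 hB.1, fun k _ M => ?_⟩
  rw [Matrix.add_mul, add_mul]
  exact (norm_add_le _ _).trans (add_le_add (hA.mul_le M) (hB.mul_le M))

theorem Op.neg {A : Matrix m n ℂ} {c : ℝ} (hA : Op A c) : Op (-A) c := by
  refine ⟨hA.1, fun k _ M => ?_⟩
  rw [Matrix.neg_mul, norm_neg]
  exact hA.mul_le M

theorem Op.sub {A B : Matrix m n ℂ} {c d : ℝ} (hA : Op A c) (hB : Op B d) : Op (A - B) (c + d) := by
  rw [sub_eq_add_neg]; exact hA.add hB.neg

theorem Op.smul {A : Matrix m n ℂ} {c : ℝ} (hA : Op A c) (t : ℝ) : Op (t • A) (|t| * c) := by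
  refine ⟨mul_nonneg (abs_nonneg _) hA.1, fun k _ M => ?_⟩
  rw [Matrix.smul_mul, norm_smul, Real.norm_eq_abs, mul_assoc]
  exact mul_le_mul_of_nonneg_left (hA.mul_le M) (abs_nonneg _)

theorem Op.mul {A : Matrix m n ℂ} {B : Matrix n l ℂ} {c d : ℝ} (hA : Op A c) (hB : Op B d) :
    Op (A * B) (c * d) := by
  refine ⟨mul_nonneg hA.1 hB.1, fun k _ M => ?_⟩
  rw [Matrix.mul_assoc, mul_assoc]
  exact (hA.mul_le _).trans (mul_le_mul_of_nonneg_left (hB.mul_le M) hA.1)

theorem Op.sandwich {A : Matrix m n ℂ} {B : Matrix k l ℂ} {c d : ℝ} (hA : Op A c) (hB : Op B d)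
    (M : Matrix n k ℂ) : ‖A * M * B‖ ≤ c * d * ‖M‖ := by
  refine (hB.le_mul _).trans ?_
  rw [mul_comm c, mul_assoc]
  exact mul_le_mul_of_nonneg_left (hA.mul_le M) hB.1

variable [DecidableEq n]

theorem op_one : Op (1 : Matrix n n ℂ) 1 := ⟨zero_le_one, fun _ _ M => by simp⟩

theorem op_smul_one (c : ℝ) : Op (c • (1 : Matrix n n ℂ)) |c| := by
  simpa using op_one.smul (m := n) c

theorem op_iso {U : Matrix m n ℂ} (hU : Uᴴ * U = 1) : Op U 1 :=
  ⟨zero_le_one, fun _ _ M => by rw [norm_iso_mul hU, one_mul]⟩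

theorem op_diagonal {d : n → ℝ} {c : ℝ} (hc : 0 ≤ c) (h : ∀ i, |d i| ≤ c) :
    Op (diagonal fun i => (d i : ℂ)) c := by
  refine ⟨hc, fun k _ M => le_of_sq_le' ?_ (mul_nonneg hc (norm_nonneg _))⟩
  rw [mul_pow, norm_sq_eq, norm_sq_eq, Finset.mul_sum]
  refine Finset.sum_le_sum fun i _ => ?_
  rw [Finset.mul_sum]
  refine Finset.sum_le_sum fun j _ => ?_
  rw [diagonal_mul, map_mul, Complex.normSq_ofReal]
  refine mul_le_mul_of_nonneg_right ?_ (Complex.normSq_nonneg _)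
  have := sq_le_sq' (abs_le.1 (h i)).1 (abs_le.1 (h i)).2
  nlinarith

theorem op_of_isDiag {A U : Matrix n n ℂ} {a : n → ℝ} (hA : IsDiag A U a) {c : ℝ} (hc : 0 ≤ c)
    (h : ∀ i, |a i| ≤ c) : Op A c := by
  rw [hA.eq]
  have h2 : Op Uᴴ 1 := (op_iso hA.uni).ct
  simpa using ((op_iso hA.uni).mul (op_diagonal hc h)).mul h2

theorem Op.abs_eig_le {A U : Matrix n n ℂ} {a : n → ℝ} {c : ℝ} (h : Op A c) (hA : IsDiag A U a)
    (i : n) : |a i| ≤ c := by
  have h1 : Op (diagonal fun i => (a i : ℂ)) c := by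
    rw [← hA.conj]
    simpa using ((op_iso hA.uni).ct.mul h).mul (op_iso hA.uni)
  let e : Matrix n Unit ℂ := Matrix.of fun j _ => if j = i then 1 else 0
  have he : ‖e‖ = 1 := by
    rw [← sq_eq_sq₀ (norm_nonneg _) zero_le_one, norm_sq_eq]
    simp [e, apply_ite Complex.normSq]
  have h2 := h1.mul_le e
  have h3 := norm_entry_le ((diagonal fun i => (a i : ℂ)) * e) i ()
  rw [diagonal_mul] at h3
  simp only [e, of_apply, if_true, mul_one, Complex.norm_real, Real.norm_eq_abs] at h3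
  rw [he, mul_one] at h2
  exact h3.trans h2

theorem op_cfc {A U : Matrix n n ℂ} {a : n → ℝ} (hA : IsDiag A U a) {f : ℝ → ℝ} {c : ℝ}
    (hc : 0 ≤ c) (h : ∀ i, |f (a i)| ≤ c) : Op (cfc f A) c :=
  op_of_isDiag (isDiag_cfc hA f) hc h

/-- `-c ≤ A ≤ c` gives `Op A c`. -/
theorem op_of_psd {A : Matrix n n ℂ} (hA : A.IsHermitian) {c : ℝ} (hc : 0 ≤ c)
    (h1 : (c • (1 : Matrix n n ℂ) - A).PosSemidef)
    (h2 : (c • (1 : Matrix n n ℂ) + A).PosSemidef) : Op A c := by
  obtain ⟨U, a, ha⟩ := exists_isDiag hA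
  refine op_of_isDiag ha hc fun i => abs_le.2 ⟨?_, isDiag_le ha h1 i⟩
  have := (isDiag_add (isDiag_smul_one ha.uni c) ha).nonneg h2 i
  linarith

theorem Op.psd_sub {A : Matrix n n ℂ} {c : ℝ} (h : Op A c) (hA : A.IsHermitian) :
    (c • (1 : Matrix n n ℂ) - A).PosSemidef := by
  obtain ⟨U, a, ha⟩ := exists_isDiag hA
  exact isDiag_psd (isDiag_sub (isDiag_smul_one ha.uni c) ha) fun i => by
    have := (abs_le.1 (h.abs_eig_le ha i)).2; linarith

theorem Op.psd_add {A : Matrix n n ℂ} {c : ℝ} (h : Op A c) (hA : A.IsHermitian) :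
    (c • (1 : Matrix n n ℂ) + A).PosSemidef := by
  simpa using h.neg.psd_sub hA.neg

/-- `-K ≤ S ≤ K` and `‖K‖ ≤ c` give `‖S‖ ≤ c`. -/
theorem op_of_sandwich {K S : Matrix n n ℂ} {c : ℝ} (hK : Op K c) (hKh : K.IsHermitian)
    (hS : S.IsHermitian) (h1 : (K - S).PosSemidef) (h2 : (K + S).PosSemidef) : Op S c := by
  refine op_of_psd hS hK.1 ?_ ?_
  · have := (hK.psd_sub hKh).add h1
    rwa [sub_add_sub_cancel] at this
  · have := (hK.psd_sub hKh).add h2
    rwa [show c • (1 : Matrix n n ℂ) - K + (K + S) = c • 1 + S by abel] at this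

theorem Op.tr_mul_le {P A : Matrix n n ℂ} {c : ℝ} (h : Op A c) (hA : A.IsHermitian)
    (hP : P.PosSemidef) : tr (P * A) ≤ c * tr P := by
  have := tr_mul_mono hP (h.psd_sub hA)
  simpa using this

theorem Op.norm_le {A : Matrix n n ℂ} {c : ℝ} (h : Op A c) :
    ‖A‖ ≤ c * Real.sqrt (Fintype.card n) := by
  have := h.mul_le (1 : Matrix n n ℂ)
  rw [Matrix.mul_one] at this
  have h1 : ‖(1 : Matrix n n ℂ)‖ = Real.sqrt (Fintype.card n) := by
    rw [← Real.sqrt_sq (norm_nonneg (1 : Matrix n n ℂ)), ← tr_ct_mul_self]; simp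
  rwa [h1] at this

/-- Lipschitz functions of a Hermitian matrix contract commutators (rectangular form). -/
theorem norm_cfc_comm_le [DecidableEq m] {A U : Matrix m m ℂ} {a : m → ℝ} {B V : Matrix n n ℂ}
    {b : n → ℝ} (hA : IsDiag A U a) (hB : IsDiag B V b) {f : ℝ → ℝ} {L : ℝ} (hL : 0 ≤ L)
    (hf : ∀ i j, |f (a i) - f (b j)| ≤ L * |a i - b j|) (X : Matrix m n ℂ) :
    ‖cfc f A * X - X * cfc f B‖ ≤ L * ‖A * X - X * B‖ := by
  have key : ∀ {A' : Matrix m m ℂ} {a' : m → ℝ} {B' : Matrix n n ℂ} {b' : n → ℝ},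
      IsDiag A' U a' → IsDiag B' V b' → ‖A' * X - X * B'‖ ^ 2 =
        ∑ i, ∑ j, (a' i - b' j) ^ 2 * Complex.normSq ((Uᴴ * X * V) i j) := by
    intro A' a' B' b' hA' hB'
    have h1 : Uᴴ * (A' * X - X * B') * V = diagonal (fun i => (a' i : ℂ)) * (Uᴴ * X * V) -
        (Uᴴ * X * V) * diagonal (fun i => (b' i : ℂ)) := by
      rw [← hA'.conj, ← hB'.conj, Matrix.mul_sub, Matrix.sub_mul]
      congr 1
      · calc Uᴴ * (A' * X) * V = Uᴴ * A' * (U * Uᴴ) * X * V := by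
              rw [hA.uni']; simp only [Matrix.mul_one, Matrix.mul_assoc]
          _ = _ := by simp only [Matrix.mul_assoc]
      · calc Uᴴ * (X * B') * V = Uᴴ * X * (V * Vᴴ) * B' * V := by
              rw [hB.uni']; simp only [Matrix.mul_one, Matrix.mul_assoc]
          _ = _ := by simp only [Matrix.mul_assoc]
    rw [← norm_iso_mul (U := Uᴴ) (by simpa using hA.uni'), ← norm_mul_coiso hB.uni', h1,
      norm_sq_eq]
    refine Finset.sum_congr rfl fun i _ => Finset.sum_congr rfl fun j _ => ?_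
    rw [Matrix.sub_apply, diagonal_mul, mul_diagonal, mul_comm _ ((b' j : ℝ) : ℂ), ← sub_mul,
      map_mul, ← Complex.ofReal_sub, Complex.normSq_ofReal, sq]
  refine le_of_sq_le' ?_ (mul_nonneg hL (norm_nonneg _))
  rw [mul_pow, key (isDiag_cfc hA f) (isDiag_cfc hB f), key hA hB, Finset.mul_sum]
  refine Finset.sum_le_sum fun i _ => ?_
  rw [Finset.mul_sum]
  refine Finset.sum_le_sum fun j _ => ?_
  rw [← mul_assoc]
  refine mul_le_mul_of_nonneg_right ?_ (Complex.normSq_nonneg _)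
  rw [← mul_pow, ← sq_abs, ← sq_abs (L * _), abs_mul, abs_of_nonneg hL]
  exact pow_le_pow_left₀ (abs_nonneg _) (hf i j) 2

/-! ### continuity -/


theorem spectrum_subset {A U : Matrix n n ℂ} {a : n → ℝ} (hA : IsDiag A U a) {s : Set ℝ}
    (h : ∀ i, a i ∈ s) : spectrum ℝ A ⊆ s := by
  intro t ht
  by_contra hts
  apply ht
  have h1 := isDiag_sub (isDiag_smul_one hA.uni t) hA
  rw [spectrum.mem_resolventSet_iff, Algebra.algebraMap_eq_smul_one, isUnit_iff_isUnit_det, h1.det]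
  refine IsUnit.mk0 _ ?_
  have : ∏ i, (t - a i) ≠ 0 := Finset.prod_ne_zero_iff.2 fun i _ h0 => hts (by
    have : t = a i := by linarith
    exact this ▸ h i)
  exact_mod_cast this

/-- Continuity of `cfc f` for globally continuous `f`. -/
theorem continuousOn_cfc' {X : Type*} [TopologicalSpace X] {A : X → Matrix n n ℂ} {t : Set X}
    {f : ℝ → ℝ} (hf : Continuous f) (hA : ContinuousOn A t) (hh : ∀ x ∈ t, (A x).IsHermitian) :
    ContinuousOn (fun x => cfc f (A x)) t :=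
  continuousOn_cfc_aux isOpen_univ hf.continuousOn hA hh fun _ _ => Set.subset_univ _

theorem continuous_cfc' {X : Type*} [TopologicalSpace X] {A : X → Matrix n n ℂ}
    {f : ℝ → ℝ} (hf : Continuous f) (hA : Continuous A) (hh : ∀ x, (A x).IsHermitian) :
    Continuous (fun x => cfc f (A x)) := by
  rw [← continuousOn_univ] at hA ⊢
  exact continuousOn_cfc' hf hA fun x _ => hh x

/-- Continuity of `cfc f` on positive definite matrices for `f` continuous on `(0, ∞)`. -/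
theorem continuousOn_cfc_pos {X : Type*} [TopologicalSpace X] {A : X → Matrix n n ℂ} {t : Set X}
    {f : ℝ → ℝ} (hf : ContinuousOn f (Set.Ioi 0)) (hA : ContinuousOn A t)
    (hh : ∀ x ∈ t, (A x).PosDef) : ContinuousOn (fun x => cfc f (A x)) t :=
  continuousOn_cfc_aux isOpen_Ioi hf hA (fun x hx => (hh x hx).1) fun x hx => by
    obtain ⟨U, a, ha⟩ := exists_isDiag (hh x hx).1
    exact spectrum_subset ha fun i => isDiag_pos ha (hh x hx) i

/-! ### derivatives -/

omit [DecidableEq n] in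
theorem hasDerivAt_matrix {F : ℝ → Matrix m n ℂ} {F' : Matrix m n ℂ} {x : ℝ} :
    HasDerivAt F F' x ↔ ∀ i j, HasDerivAt (fun t => F t i j) (F' i j) x := by
  have h1 : HasDerivAt F F' x ↔ HasDerivAt (F := m → n → ℂ) F F' x := Iff.rfl
  rw [h1, hasDerivAt_pi]
  refine forall_congr' fun i => ?_
  rw [hasDerivAt_pi]

omit [DecidableEq n] in
theorem HasDerivAt.matmul {F : ℝ → Matrix m n ℂ} {F' : Matrix m n ℂ} {G : ℝ → Matrix n k ℂ}
    {G' : Matrix n k ℂ} {x : ℝ} (hF : HasDerivAt F F' x) (hG : HasDerivAt G G' x) :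
    HasDerivAt (fun t => F t * G t) (F' * G x + F x * G') x := by
  rw [hasDerivAt_matrix] at hF hG ⊢
  intro i j
  simp only [Matrix.mul_apply, Matrix.add_apply, ← Finset.sum_add_distrib]
  exact HasDerivAt.fun_sum fun p _ => (hF i p).mul (hG p j)

omit [DecidableEq n] in
theorem HasDerivAt.matmul_const {F : ℝ → Matrix m n ℂ} {F' : Matrix m n ℂ} {x : ℝ}
    (hF : HasDerivAt F F' x) (G : Matrix n k ℂ) : HasDerivAt (fun t => F t * G) (F' * G) x := by
  simpa using HasDerivAt.matmul hF (hasDerivAt_const x G)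

omit [DecidableEq n] in
theorem HasDerivAt.const_matmul {G : ℝ → Matrix n k ℂ} {G' : Matrix n k ℂ} {x : ℝ}
    (F : Matrix m n ℂ) (hG : HasDerivAt G G' x) : HasDerivAt (fun t => F * G t) (F * G') x := by
  simpa using HasDerivAt.matmul (hasDerivAt_const x F) hG

omit [DecidableEq n] in
theorem HasDerivAt.ct {F : ℝ → Matrix m n ℂ} {F' : Matrix m n ℂ} {x : ℝ}
    (hF : HasDerivAt F F' x) : HasDerivAt (fun t => (F t)ᴴ) F'ᴴ x := by
  rw [hasDerivAt_matrix] at hF ⊢
  intro i j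
  simp only [conjTranspose_apply]
  exact (hF j i).star

omit [DecidableEq n] in
theorem HasDerivAt.tr' {F : ℝ → Matrix n n ℂ} {F' : Matrix n n ℂ} {x : ℝ}
    (hF : HasDerivAt F F' x) : HasDerivAt (fun t => tr (F t)) (tr F') x :=
  (trL n).hasFDerivAt.comp_hasDerivAt x hF

omit [DecidableEq n] in
theorem HasDerivAt.norm_sq' {F : ℝ → Matrix m n ℂ} {F' : Matrix m n ℂ} {x : ℝ}
    (hF : HasDerivAt F F' x) : HasDerivAt (fun t => ‖F t‖ ^ 2) (2 * tr ((F x)ᴴ * F')) x := by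
  have h := HasDerivAt.tr' (HasDerivAt.matmul (HasDerivAt.ct hF) hF)
  simp only [tr_ct_mul_self] at h
  convert h using 1
  have : tr (F'ᴴ * F x) = tr ((F x)ᴴ * F') := by rw [← tr_conjTranspose]; simp
  rw [tr_add, this]; ring

/-- Derivative of `t ↦ cfc (f t) A` for a fixed matrix `A`. -/
theorem hasDerivAt_cfc_fun {A U : Matrix n n ℂ} {a : n → ℝ} (hA : IsDiag A U a)
    {f : ℝ → ℝ → ℝ} {f' : ℝ → ℝ} {x : ℝ} (hf : ∀ i, HasDerivAt (fun t => f t (a i)) (f' (a i)) x) :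
    HasDerivAt (fun t => cfc (f t) A) (cfc f' A) x := by
  simp only [fun t => (isDiag_cfc hA (f t)).eq]
  rw [(isDiag_cfc hA f').eq]
  refine HasDerivAt.matmul_const (HasDerivAt.const_matmul U ?_) _
  rw [hasDerivAt_matrix]
  intro i j
  by_cases hij : i = j
  · subst hij
    simp only [diagonal_apply_eq]
    exact (hf i).ofReal_comp
  · simp only [diagonal_apply_ne _ hij]
    exact hasDerivAt_const _ _

/-- Klein's inequality: a tangent-line inequality over pairs of eigenvalues. -/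
theorem klein {A U B V : Matrix n n ℂ} {a b : n → ℝ} (hA : IsDiag A U a) (hB : IsDiag B V b)
    {φ φ' : ℝ → ℝ} (h : ∀ i j, φ (a i) + φ' (a i) * (b j - a i) ≤ φ (b j)) :
    tr (cfc φ A) + tr (cfc φ' A * (B - A)) ≤ tr (cfc φ B) := by
  rw [Matrix.mul_sub, tr_sub, tr_left_pair (isDiag_cfc hA φ) hB.uni,
    tr_right_pair hA.uni (isDiag_cfc hB φ), tr_mul_pair (isDiag_cfc hA φ') hB,
    tr_left_pair (isDiag_mul (isDiag_cfc hA φ') hA) hB.uni]
  simp only [← Finset.sum_sub_distrib, ← Finset.sum_add_distrib]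
  refine Finset.sum_le_sum fun i _ => Finset.sum_le_sum fun j _ => ?_
  have := mul_le_mul_of_nonneg_left (h i j) (ov_nonneg U V i j)
  linarith

/-- Derivative of a convex trace function. `s` contains all eigenvalues near `x`. -/
theorem hasDerivAt_tr_cfc {A : ℝ → Matrix n n ℂ} {A' : Matrix n n ℂ} {x : ℝ}
    (hA : HasDerivAt A A' x) {φ φ' : ℝ → ℝ} {s : Set ℝ}
    (hs : ∀ᶠ t in 𝓝 x, ∃ U a, IsDiag (A t) U a ∧ ∀ i, a i ∈ s)
    (hφ : ∀ u ∈ s, ∀ v ∈ s, φ u + φ' u * (v - u) ≤ φ v)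
    (hc : ContinuousAt (fun t => cfc φ' (A t)) x) :
    HasDerivAt (fun t => tr (cfc φ (A t))) (tr (cfc φ' (A x) * A')) x := by
  obtain ⟨U, a, ha, has⟩ := hs.self_of_nhds
  have h1 : HasDerivAt (fun t => tr (cfc φ' (A x) * A t)) (tr (cfc φ' (A x) * A')) x :=
    HasDerivAt.tr' (HasDerivAt.const_matmul _ hA)
  -- the difference is `o(t - x)`
  have h2 : HasDerivAt (fun t => tr (cfc φ (A t)) - tr (cfc φ' (A x) * A t)) 0 x := by
    rw [hasDerivAt_iff_isLittleO]
    simp only [smul_zero, sub_zero]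
    have hb : (fun t => A t - A x) =O[𝓝 x] fun t => t - x := hA.isBigO_sub
    have hl : (fun t => cfc φ' (A t) - cfc φ' (A x)) =o[𝓝 x] fun _ => (1 : ℝ) := by
      rw [Asymptotics.isLittleO_one_iff]
      exact tendsto_sub_nhds_zero_iff.2 hc
    have h3 : (fun t => ‖cfc φ' (A t) - cfc φ' (A x)‖ * ‖A t - A x‖) =o[𝓝 x] fun t => t - x := by
      have := hl.norm_left.mul_isBigO hb.norm_left
      simpa using this
    refine Asymptotics.IsBigO.trans_isLittleO ?_ h3
    refine Asymptotics.IsBigO.of_bound 1 ?_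
    filter_upwards [hs] with t ⟨V, b, hb, hbs⟩
    have k1 := klein ha hb (φ := φ) (φ' := φ') fun i j => hφ _ (has i) _ (hbs j)
    have k2 := klein hb ha (φ := φ) (φ' := φ') fun i j => hφ _ (hbs i) _ (has j)
    have k3 := tr_mul_le (cfc φ' (A t) - cfc φ' (A x)) (A t - A x)
    simp only [Matrix.mul_sub, Matrix.sub_mul, tr_sub] at k1 k2 k3
    rw [one_mul, Real.norm_eq_abs, Real.norm_eq_abs, abs_of_nonneg (by linarith),
      abs_of_nonneg (by positivity)]
    linarith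
  simpa using h2.fun_add h1

end Crest.Agent.R332
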