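import Crest.Agent.R332.Square
import Crest.Agent.R332.ODE

/-!
Row 332: positivity properties of the capped matrix Riccati equation and a-priori bounds.
-/

set_option autoImplicit false
set_option linter.unusedSectionVars false

namespace Crest.Agent.R332

open Matrix Crest.Agent.Lib.QEnt Filter Topology MeasureTheory Set
open scoped ComplexOrder Matrix.Norms.Frobenius

variable {k m n : Type} [Fintype k] [Fintype m] [Fintype n] [DecidableEq m] [DecidableEq n]

/-- The Riccati vector field for `b = K - S`. -/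
def fld (K V c : Matrix n n ℂ) : Matrix n n ℂ := -(c * K + K * c) + c * c + V

/-- `tr (a₋²)`. -/
noncomputable def nsq (a : Matrix n n ℂ) : ℝ := tr (cfc (fun t : ℝ => (min t 0) ^ 2) a)

theorem hasDerivAt_nsq {a : ℝ → Matrix n n ℂ} {a' : Matrix n n ℂ} {x : ℝ}
    (ha : HasDerivAt a a' x) (hh : ∀ t, (a t).IsHermitian) :
    HasDerivAt (fun t => nsq (a t)) (tr (cfc (fun t : ℝ => 2 * min t 0) (a x) * a')) x := by
  refine hasDerivAt_tr_cfc ha (s := univ) (Eventually.of_forall fun t => ?_) ?_ ?_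
  · obtain ⟨U, l, h⟩ := exists_isDiag (hh t)
    exact ⟨U, l, h, fun _ => trivial⟩
  · intro u _ v _
    rcases le_total u 0 with hu | hu <;> rcases le_total v 0 with hv | hv <;>
      simp only [min_eq_left, min_eq_right, hu, hv] <;> nlinarith [sq_nonneg (u - v)]
  · have h1 : ContinuousAt (fun A : {A : Matrix n n ℂ // A.IsHermitian} =>
        cfc (fun t : ℝ => 2 * min t 0) A.1) ⟨a x, hh x⟩ :=
      (continuous_cfc' (by fun_prop) continuous_subtype_val fun A => A.2).continuousAt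
    exact h1.comp (f := fun t => (⟨a t, hh t⟩ : {A : Matrix n n ℂ // A.IsHermitian}))
      (tendsto_subtype_rng.2 ha.continuousAt)

theorem psd_of_nsq {a : Matrix n n ℂ} (ha : a.IsHermitian) (h : nsq a ≤ 0) : a.PosSemidef := by
  obtain ⟨U, l, hl⟩ := exists_isDiag ha
  rw [nsq, tr_cfc hl] at h
  refine isDiag_psd hl fun i => ?_
  have h1 : (min (l i) 0) ^ 2 ≤ 0 :=
    (Finset.single_le_sum (f := fun i => (min (l i) 0) ^ 2) (fun _ _ => sq_nonneg _)
      (Finset.mem_univ i)).trans h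
  have h2 : min (l i) 0 = 0 := pow_eq_zero_iff (two_ne_zero) |>.1 (le_antisymm h1 (sq_nonneg _))
  exact min_eq_right_iff.1 h2

theorem nsq_of_psd {a : Matrix n n ℂ} (ha : a.PosSemidef) : nsq a ≤ 0 := by
  obtain ⟨U, l, hl⟩ := exists_isDiag ha.1
  rw [nsq, tr_cfc hl]
  exact Finset.sum_nonpos fun i _ => by rw [min_eq_right (hl.nonneg ha i)]; simp

theorem tr_ge_of_nsq {a : Matrix n n ℂ} (ha : a.IsHermitian) (h : nsq a < 1) :
    -(Fintype.card n : ℝ) ≤ tr a := by
  obtain ⟨U, l, hl⟩ := exists_isDiag ha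
  rw [nsq, tr_cfc hl] at h
  rw [isDiag_tr hl]
  have : ∀ i, -1 ≤ l i := fun i => by
    have h1 : (min (l i) 0) ^ 2 < 1 :=
      (Finset.single_le_sum (f := fun i => (min (l i) 0) ^ 2) (fun _ _ => sq_nonneg _)
        (Finset.mem_univ i)).trans_lt h
    have h2 : -1 < min (l i) 0 := by nlinarith
    exact h2.le.trans (min_le_left _ _)
  calc -(Fintype.card n : ℝ) = ∑ _i : n, (-1 : ℝ) := by simp
    _ ≤ _ := Finset.sum_le_sum fun i _ => this i

theorem nsq_fld_nonpos {a K V : Matrix n n ℂ} (ha : a.IsHermitian) (hK : K.PosSemidef)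
    (hV : V.PosSemidef) {l : ℝ} (hl : 0 ≤ l) :
    tr (cfc (fun t : ℝ => 2 * min t 0) a * fld K V (l • a)) ≤ 0 := by
  obtain ⟨U, α, hα⟩ := exists_isDiag ha
  set P := cfc (fun t : ℝ => 2 * min t 0) a with hP
  have hPd : IsDiag P U fun i => 2 * min (α i) 0 := isDiag_cfc hα _
  have h1 : (P * a).PosSemidef := isDiag_psd (isDiag_mul hPd hα) fun i => by
    rcases le_total (α i) 0 with h | h <;> simp only [min_eq_left, min_eq_right, h] <;> nlinarith
  have h2 : P * a = a * P := isDiag_eq_of (isDiag_mul hPd hα) (isDiag_mul hα hPd) fun i => mul_comm _ _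
  have h3 : tr (P * (a * a)) ≤ 0 := by
    rw [isDiag_tr (isDiag_mul hPd (isDiag_mul hα hα))]
    exact Finset.sum_nonpos fun i _ => mul_nonpos_of_nonpos_of_nonneg
      (by have := min_le_right (α i) 0; linarith) (mul_self_nonneg _)
  have h4 : tr (P * V) ≤ 0 := by
    have : (-P).PosSemidef := isDiag_psd (isDiag_neg hPd) fun i => by
      have := min_le_right (α i) 0; linarith
    have := tr_mul_nonneg this hV
    rw [Matrix.neg_mul, tr_neg] at this
    linarith
  have h5 : 0 ≤ tr (P * (a * K)) := by rw [← Matrix.mul_assoc]; exact tr_mul_nonneg h1 hK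
  have h6 : 0 ≤ tr (P * (K * a)) := by
    rw [← Matrix.mul_assoc, tr_mul_cycle, ← h2]; exact tr_mul_nonneg h1 hK
  simp only [fld, Matrix.mul_add, Matrix.mul_neg, Matrix.smul_mul, Matrix.mul_smul, tr_add, tr_neg,
    tr_smul]
  have := mul_nonneg hl h5
  have := mul_nonneg hl h6
  have := mul_nonpos_of_nonneg_of_nonpos hl (mul_nonpos_of_nonneg_of_nonpos hl h3)
  linarith

section riccati

variable {K : Matrix n n ℂ} {V b : ℝ → Matrix n n ℂ} {x₀ x₁ ρ : ℝ}

theorem riccati_psd (hK : K.PosSemidef) (hV : ∀ x, (V x).PosSemidef) (hb : ∀ x, (b x).IsHermitian)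
    (hρ : 0 < ρ) (hd : ∀ x ∈ Icc x₀ x₁, HasDerivAt b (fld K (V x) (cap ρ (b x))) x)
    (h0 : b x₀ = 0) : ∀ x ∈ Icc x₀ x₁, (b x).PosSemidef := by
  intro x hx
  refine psd_of_nsq (hb x) (nonpos_of_deriv_small (y := fun t => nsq (b t)) one_pos
    (fun t ht => hasDerivAt_nsq (hd t ht) hb) (by rw [h0]; exact nsq_of_psd PosSemidef.zero)
    (fun t _ _ => ?_) x hx)
  exact nsq_fld_nonpos (hb t) hK (hV t) (cap_coeff hρ (b t)).1.le

theorem riccati_back (hK : K.PosSemidef) (hV : ∀ x, (V x).PosSemidef)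
    (hb : ∀ x, (b x).IsHermitian) (hρ : 0 < ρ) (hρK : 2 * tr K + Fintype.card n ≤ ρ)
    (hd : ∀ x ∈ Icc x₀ x₁, HasDerivAt b (fld K (V x) (cap ρ (b x))) x)
    (hp : ∀ x ∈ Icc x₀ x₁, (b x).PosSemidef) (h1 : ((2 : ℝ) • K - b x₁).PosSemidef) :
    ∀ x ∈ Icc x₀ x₁, ((2 : ℝ) • K - b x).PosSemidef ∧ cap ρ (b x) = b x := by
  have hh : ∀ t, ((2 : ℝ) • K - b t).IsHermitian := fun t => (herm_smul hK.1 2).sub (hb t)
  have hcap : ∀ t ∈ Icc x₀ x₁, nsq ((2 : ℝ) • K - b t) < 1 → cap ρ (b t) = b t := by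
    intro t ht h
    refine cap_of_le hρ ((norm_le_tr (hp t ht)).trans ?_)
    have := tr_ge_of_nsq (hh t) h
    rw [tr_sub, tr_smul] at this
    linarith
  have key := nonpos_of_deriv_small' (y := fun t => nsq ((2 : ℝ) • K - b t)) one_pos
    (fun t ht => hasDerivAt_nsq ((hd t ht).const_sub _) hh) (nsq_of_psd h1) (fun t ht h => by
      rw [hcap t ht h]
      have h2 := nsq_fld_nonpos (hh t) hK (hV t) zero_le_one
      have h3 : fld K (V t) ((1 : ℝ) • ((2 : ℝ) • K - b t)) = fld K (V t) (b t) := by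
        simp only [fld, one_smul, two_smul, Matrix.add_mul, Matrix.mul_add, Matrix.sub_mul,
          Matrix.mul_sub]
        abel
      rw [h3] at h2
      rw [Matrix.mul_neg, tr_neg]
      linarith)
  intro x hx
  exact ⟨psd_of_nsq (hh x) (key x hx), hcap x hx ((key x hx).trans_lt one_pos)⟩

theorem riccati_kernel {N : Matrix n n ℂ} (hN : N.PosSemidef) (hNK : (N * K).PosSemidef)
    (hc : N * K = K * N) (hV : ∀ x, N * V x = 0) (hρ : 0 < ρ)
    (hd : ∀ x ∈ Icc x₀ x₁, HasDerivAt b (fld K (V x) (cap ρ (b x))) x)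
    (hp : ∀ x ∈ Icc x₀ x₁, (b x).PosSemidef) (h0 : b x₀ = 0) :
    ∀ x ∈ Icc x₀ x₁, tr (N * b x) ≤ 0 := by
  refine nonpos_of_deriv_le_mul (K := ρ)
    (fun t ht => HasDerivAt.tr' (HasDerivAt.const_matmul N (hd t ht))) (by simp [h0]) fun t ht => ?_
  have hc0 : (cap ρ (b t)).PosSemidef := psd_smul (hp t ht) (cap_coeff hρ _).1.le
  set c := cap ρ (b t) with hcdef
  have h1 : 0 ≤ tr (N * (c * K)) := by
    rw [← Matrix.mul_assoc, tr_mul_cycle, ← hc]; exact tr_mul_nonneg hNK hc0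
  have h2 : 0 ≤ tr (N * (K * c)) := by rw [← Matrix.mul_assoc]; exact tr_mul_nonneg hNK hc0
  have h3 : tr (N * (c * c)) ≤ ρ * tr (N * c) := by
    obtain ⟨U, γ, hγ⟩ := exists_isDiag hc0.1
    have : (ρ • c - c * c).PosSemidef :=
      isDiag_psd (isDiag_sub (isDiag_smul hγ ρ) (isDiag_mul hγ hγ)) fun i => by
        have h4 := (abs_le.1 ((op_of_norm_le (norm_cap_le hρ (b t))).abs_eig_le hγ i)).2
        have h5 := hγ.nonneg hc0 i
        nlinarith
    simpa using tr_mul_mono hN this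
  have h4 : tr (N * c) ≤ tr (N * b t) := by
    rw [hcdef, cap, Matrix.mul_smul, tr_smul]
    exact mul_le_of_le_one_left (tr_mul_nonneg hN (hp t ht)) (cap_coeff hρ _).2
  simp only [fld, Matrix.mul_add, Matrix.mul_neg, tr_add, tr_neg, hV, tr_zero]
  nlinarith

end riccati

/-! ### positive and negative parts -/

/-- Positive part. -/
noncomputable def posP (H : Matrix n n ℂ) : Matrix n n ℂ := cfc (fun t : ℝ => max t 0) H
/-- Negative part. -/
noncomputable def negP (H : Matrix n n ℂ) : Matrix n n ℂ := cfc (fun t : ℝ => max (-t) 0) H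

theorem psd_posP (H : Matrix n n ℂ) : (posP H).PosSemidef := psd_cfc (fun _ => le_max_right _ _) H
theorem psd_negP (H : Matrix n n ℂ) : (negP H).PosSemidef := psd_cfc (fun _ => le_max_right _ _) H

theorem posP_sub_negP {H : Matrix n n ℂ} (hH : H.IsHermitian) : posP H - negP H = H := by
  obtain ⟨U, l, h⟩ := exists_isDiag hH
  exact isDiag_eq_of (isDiag_sub (isDiag_cfc h _) (isDiag_cfc h _)) h fun i =>
    max_zero_sub_max_neg_zero_eq_self _

theorem posP_mul_negP {H : Matrix n n ℂ} (hH : H.IsHermitian) : posP H * negP H = 0 := by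
  obtain ⟨U, l, h⟩ := exists_isDiag hH
  have := isDiag_eq_of (isDiag_mul (isDiag_cfc h fun t : ℝ => max t 0)
    (isDiag_cfc h fun t : ℝ => max (-t) 0)) (isDiag_smul_one h.uni 0) fun i => by
      rcases le_total (l i) 0 with h' | h'
      · rw [max_eq_right h', zero_mul]
      · rw [max_eq_right (neg_nonpos.2 h'), mul_zero]
  rwa [zero_smul] at this

theorem negP_mul_posP {H : Matrix n n ℂ} (hH : H.IsHermitian) : negP H * posP H = 0 := by
  have := congrArg conjTranspose (posP_mul_negP hH)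
  rwa [conjTranspose_mul, (psd_posP H).1.eq, (psd_negP H).1.eq, conjTranspose_zero] at this

theorem pw_zero {r : ℝ} (hr : r ≠ 0) : pw r (0 : Matrix n n ℂ) = 0 := by
  have h := isDiag_smul_one (U := (1 : Matrix n n ℂ)) (by simp) 0
  have := isDiag_eq_of (isDiag_pw h r) h fun _ => Real.zero_rpow hr
  rwa [zero_smul] at this

theorem mul_pw_eq_zero {N A : Matrix n n ℂ} (hA : A.IsHermitian) (h : N * A = 0) {r : ℝ}
    (hr : r ≠ 0) : N * pw r A = 0 := by
  have := cfc_intertwine (isHermitian_zero (n := n) (α := ℂ)) hA (X := N) (by simp [h])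
    fun t : ℝ => t ^ r
  rw [pw, ← this]
  change pw r 0 * N = 0
  rw [pw_zero hr, Matrix.zero_mul]

/-! ### a-priori bounds -/

section apriori

variable {Ψ Ψ' : ℝ → Matrix m n ℂ} {x₀ x₁ r : ℝ}

theorem apriori_B (hr : 1 ≤ r) (hx : x₀ ≤ x₁) (hd : ∀ x, HasDerivAt Ψ (Ψ' x) x)
    (hc : Continuous Ψ') (e₀ : Ψ x₀ = 0) (e₁ : Ψ x₁ = 0)
    (hon : ∀ P : Matrix n n ℂ, ∫ x in x₀..x₁, tr ((Ψ x)ᴴ * Ψ x * P) = tr P)
    {B K2 : Matrix n n ℂ} (hB : B.IsHermitian) {c : ℝ} (hc1 : 1 ≤ c)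
    (hK2 : tr (B * K2 * B) ≤ c * ‖B‖ ^ 2) {S : ℝ → Matrix n n ℂ}
    (hS : ∀ x ∈ Icc x₀ x₁,
      HasDerivAt S (K2 - S x * S x - (1 + r) • pw r ((Ψ x * B)ᴴ * (Ψ x * B))) x)
    (hh : ∀ x ∈ Icc x₀ x₁, (S x).IsHermitian) :
    ‖B‖ ^ 2 ≤ 4 * Fintype.card n * (x₁ - x₀) * ((∫ x in x₀..x₁, ‖Ψ' x‖ ^ 2) + c) ∧
    ∫ x in x₀..x₁, tr (pw (1 + r) ((Ψ x * B)ᴴ * (Ψ x * B))) ≤
      ((∫ x in x₀..x₁, ‖Ψ' x‖ ^ 2) + c) * ‖B‖ ^ 2 := by
  have hΨ : Continuous Ψ := continuous_of_hasDerivAt hd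
  have hA : Continuous fun x => (Ψ x * B)ᴴ * (Ψ x * B) :=
    (hΨ.matrix_mul continuous_const).matrix_conjTranspose.matrix_mul (hΨ.matrix_mul continuous_const)
  have hAh : ∀ x, ((Ψ x * B)ᴴ * (Ψ x * B)).PosSemidef := fun x =>
    posSemidef_conjTranspose_mul_self _
  have hP : Continuous fun x => tr (pw (1 + r) ((Ψ x * B)ᴴ * (Ψ x * B))) :=
    Continuous.tr' (continuous_pw (by linarith) hA fun x => (hAh x).1)
  have h1 := energy_identity (Φ := fun x => Ψ x * B) (Φ' := fun x => Ψ' x * B) (by linarith) hx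
    (fun x => HasDerivAt.matmul_const (hd x) B) (hc.matrix_mul continuous_const) hS hh
    (by simp [e₀]) (by simp [e₁])
  have h2 : ∀ P, ∫ x in x₀..x₁, tr ((Ψ x * B)ᴴ * (Ψ x * B) * P) = tr (B * P * B) := by
    intro P
    rw [← hon]
    refine intervalIntegral.integral_congr fun x _ => ?_
    simp only [conjTranspose_mul, hB.eq, Matrix.mul_assoc]
    rw [tr_mul_comm]
    simp only [Matrix.mul_assoc]
  set T := ∫ x in x₀..x₁, ‖Ψ' x‖ ^ 2 with hT
  set I := ∫ x in x₀..x₁, tr (pw (1 + r) ((Ψ x * B)ᴴ * (Ψ x * B))) with hI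
  have hT0 : 0 ≤ T := intervalIntegral.integral_nonneg hx fun x _ => by positivity
  have hI0 : 0 ≤ I := intervalIntegral.integral_nonneg hx fun x _ => tr_nonneg (psd_pw (hAh x) _)
  have h3 : ∫ x in x₀..x₁, ‖Ψ' x * B‖ ^ 2 ≤ T * ‖B‖ ^ 2 := by
    rw [hT, ← intervalIntegral.integral_mul_const]
    refine intervalIntegral.integral_mono_on hx
      (((hc.matrix_mul continuous_const).norm.pow 2).intervalIntegrable _ _)
      (((hc.norm.pow 2).mul continuous_const).intervalIntegrable _ _) fun x _ => ?_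
    rw [← mul_pow]
    exact pow_le_pow_left₀ (norm_nonneg _) (norm_mul_le' _ _) 2
  have h4 : 0 ≤ ∫ x in x₀..x₁, ‖Ψ' x * B - Ψ x * B * S x‖ ^ 2 :=
    intervalIntegral.integral_nonneg hx fun x _ => by positivity
  have h5 : I ≤ (T + c) * ‖B‖ ^ 2 := by
    rw [h2] at h1
    nlinarith
  refine ⟨?_, h5⟩
  set M := 2 * (T + c) with hM
  have hM1 : 1 ≤ M := by linarith
  have h6 : ‖B‖ ^ 2 ≤ (x₁ - x₀) * (Fintype.card n * M) + I / M := by
    have h7 := h2 1
    simp only [Matrix.mul_one] at h7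
    rw [tr_mul_self_herm hB] at h7
    rw [← h7, hI, ← intervalIntegral.integral_div, ← smul_eq_mul,
      ← intervalIntegral.integral_const, ← intervalIntegral.integral_add (by simp)
        ((hP.div_const M).intervalIntegrable _ _)]
    refine intervalIntegral.integral_mono_on hx ((Continuous.tr' hA).intervalIntegrable _ _)
      ((continuous_const.add (hP.div_const M)).intervalIntegrable _ _) fun x _ => ?_
    obtain ⟨U, a, ha⟩ := exists_isDiag (hAh x).1
    rw [isDiag_tr ha, isDiag_tr (isDiag_pw ha _), Finset.sum_div]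
    have : (Fintype.card n : ℝ) * M = ∑ _i : n, M := by simp
    rw [this, ← Finset.sum_add_distrib]
    refine Finset.sum_le_sum fun i _ => ?_
    have h0 := ha.nonneg (hAh x) i
    rcases le_total (a i) M with h | h
    · have : 0 ≤ a i ^ (1 + r) / M := by positivity
      linarith
    · have h8 : a i ^ (2 : ℝ) ≤ a i ^ (1 + r) :=
        Real.rpow_le_rpow_of_exponent_le (hM1.trans h) (by linarith)
      rw [Real.rpow_two] at h8
      have : a i ≤ a i ^ (1 + r) / M := by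
        rw [le_div_iff₀ (by linarith)]
        nlinarith
      linarith
  have h9 : I / M ≤ ‖B‖ ^ 2 / 2 := by
    rw [div_le_iff₀ (by linarith)]
    nlinarith
  nlinarith

theorem apriori_K (hr : 0 ≤ r) (hx : x₀ ≤ x₁) {A : ℝ → Matrix n n ℂ} (hA : Continuous A)
    (hAh : ∀ x, (A x).PosSemidef) {K : Matrix n n ℂ} {S : ℝ → Matrix n n ℂ}
    (hS : ∀ x ∈ Icc x₀ x₁, HasDerivAt S (K * K - S x * S x - (1 + r) • pw r (A x)) x)
    (hh : ∀ x ∈ Icc x₀ x₁, Sand K (S x)) (e₀ : S x₀ = K) (e₁ : S x₁ = -K) :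
    2 * tr K ≤ (1 + r) * ((x₁ - x₀) * Fintype.card n + ∫ x in x₀..x₁, tr (pw (1 + r) (A x))) := by
  have hP : Continuous fun x => tr (pw (1 + r) (A x)) :=
    Continuous.tr' (continuous_pw (by linarith) hA fun x => (hAh x).1)
  have h1 := intervalIntegral.sub_le_integral_of_hasDeriv_right_of_le hx
    (g := fun x => - tr (S x)) (φ := fun x => (1 + r) * (Fintype.card n + tr (pw (1 + r) (A x))))
    (fun x hx => (HasDerivAt.tr' (hS x hx)).neg.continuousAt.continuousWithinAt)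
    (fun x hx => (HasDerivAt.tr' (hS x (Ioo_subset_Icc_self hx))).neg.hasDerivWithinAt)
    ((continuous_const.mul (continuous_const.add hP)).continuousOn.integrableOn_Icc)
    (fun x hx => ?_)
  · simp only [e₀, e₁, tr_neg] at h1
    rw [intervalIntegral.integral_const_mul, intervalIntegral.integral_add (by simp)
      (hP.intervalIntegrable _ _), intervalIntegral.integral_const, smul_eq_mul] at h1
    linarith
  have h2 := (hh x (Ioo_subset_Icc_self hx)).tr_D_nonneg
  have h3 : tr (pw r (A x)) ≤ Fintype.card n + tr (pw (1 + r) (A x)) := by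
    obtain ⟨U, a, ha⟩ := exists_isDiag (hAh x).1
    rw [isDiag_tr (isDiag_pw ha _), isDiag_tr (isDiag_pw ha _)]
    have : (Fintype.card n : ℝ) = ∑ _i : n, (1 : ℝ) := by simp
    rw [this, ← Finset.sum_add_distrib]
    refine Finset.sum_le_sum fun i _ => ?_
    have h0 := ha.nonneg (hAh x) i
    rcases le_total (a i) 1 with h | h
    · have := Real.rpow_le_one h0 h hr
      have := Real.rpow_nonneg h0 (1 + r)
      linarith
    · have := Real.rpow_le_rpow_of_exponent_le h (show r ≤ 1 + r by linarith)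
      linarith
  rw [tr_sub, tr_smul]
  nlinarith

end apriori

end Crest.Agent.R332
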