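import Crest.Agent.R332.Riccati
import Crest.Agent.Lib.Brouwer.Basic

/-!
Row 332: the shooting argument (Brouwer's theorem).
-/

set_option autoImplicit false
set_option linter.unusedSectionVars false

namespace Crest.Agent.R332

open Matrix Crest.Agent.Lib.QEnt Filter Topology MeasureTheory Set Metric
open scoped ComplexOrder Matrix.Norms.Frobenius

variable {k m n : Type} [Fintype k] [Fintype m] [Fintype n] [DecidableEq m] [DecidableEq n]

/-- Hermitian part. -/
noncomputable def hp (H : Matrix n n ℂ) : Matrix n n ℂ := (1 / 2 : ℝ) • (H + Hᴴ)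

theorem herm_hp (H : Matrix n n ℂ) : (hp H).IsHermitian :=
  herm_smul (isHermitian_add_transpose_self H) _

theorem hp_of_herm {H : Matrix n n ℂ} (h : H.IsHermitian) : hp H = H := by
  rw [hp, h.eq, ← two_smul ℝ H, smul_smul]; norm_num

theorem norm_hp_sub_le (A B : Matrix n n ℂ) : ‖hp A - hp B‖ ≤ ‖A - B‖ := by
  have : hp A - hp B = (1 / 2 : ℝ) • ((A - B) + (A - B)ᴴ) := by
    simp only [hp, conjTranspose_sub, ← smul_sub]; congr 1; abel
  rw [this, norm_smul]
  have h := norm_add_le (A - B) (A - B)ᴴ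
  rw [norm_ct] at h
  rw [Real.norm_eq_abs, abs_of_pos (by norm_num)]
  linarith

theorem continuous_hp : Continuous (hp : Matrix n n ℂ → Matrix n n ℂ) :=
  (continuous_id.add continuous_id.matrix_conjTranspose).const_smul (1 / 2 : ℝ)

theorem herm_fld {K V c : Matrix n n ℂ} (hK : K.IsHermitian) (hV : V.IsHermitian)
    (hc : c.IsHermitian) : (fld K V c).IsHermitian := by
  unfold IsHermitian fld
  simp only [conjTranspose_add, conjTranspose_neg, conjTranspose_mul, hK.eq, hV.eq, hc.eq]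
  abel

theorem fld_lip (K V y z : Matrix n n ℂ) {ρ : ℝ} (hy : ‖y‖ ≤ ρ) (hz : ‖z‖ ≤ ρ) :
    ‖fld K V y - fld K V z‖ ≤ (2 * ‖K‖ + 2 * ρ) * ‖y - z‖ := by
  have : fld K V y - fld K V z = -((y - z) * K) - K * (y - z) + (y * (y - z) + (y - z) * z) := by
    simp only [fld, Matrix.mul_sub, Matrix.sub_mul]; abel
  rw [this]
  have h1 := norm_mul_le' (y - z) K
  have h2 := norm_mul_le' K (y - z)
  have h3 := norm_mul_le' y (y - z)
  have h4 := norm_mul_le' (y - z) z
  have h5 := norm_add_le (-((y - z) * K) - K * (y - z)) (y * (y - z) + (y - z) * z)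
  have h6 := norm_sub_le (-((y - z) * K)) (K * (y - z))
  have h7 := norm_add_le (y * (y - z)) ((y - z) * z)
  rw [norm_neg] at h6
  have h8 := norm_nonneg (y - z)
  nlinarith

/-- Parametrised Hermitian solutions of the capped Riccati equation. -/
theorem exists_riccati {P : Type*} [TopologicalSpace P] {K : P → Matrix n n ℂ}
    {V : P → ℝ → Matrix n n ℂ} (hK : Continuous K) (hKh : ∀ p, (K p).IsHermitian)
    (hV : Continuous fun q : P × ℝ => V q.1 q.2) (hVh : ∀ p x, (V p x).IsHermitian)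
    {ρ x₀ x₁ : ℝ} (hρ : 0 < ρ) (hx : x₀ ≤ x₁) :
    ∃ b : P → ℝ → Matrix n n ℂ, (∀ p x, (b p x).IsHermitian) ∧ (∀ p, b p x₀ = 0) ∧
      (∀ p, ∀ x ∈ Icc x₀ x₁, HasDerivAt (b p) (fld (K p) (V p x) (cap ρ (b p x))) x) ∧
      Continuous fun p => b p x₁ := by
  have : ProperSpace (Matrix n n ℂ) := FiniteDimensional.proper_real _
  obtain ⟨β, h0, hd, hc⟩ := exists_param_solution (E := Matrix n n ℂ)
    (fun p t c => fld (K p) (V p t) c) (fun y => cap ρ (hp y)) (ρ := ρ)
    (fun y => norm_cap_le hρ _)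
    (fun y z => (cap_lip hρ _ _).trans (by have := norm_hp_sub_le y z; linarith))
    (by
      have h1 : Continuous fun q : P × ℝ × Matrix n n ℂ => K q.1 := hK.comp continuous_fst
      have h2 : Continuous fun q : P × ℝ × Matrix n n ℂ => V q.1 q.2.1 :=
        hV.comp (continuous_fst.prodMk (continuous_fst.comp continuous_snd))
      have h3 : Continuous fun q : P × ℝ × Matrix n n ℂ => q.2.2 := continuous_snd.comp continuous_snd
      exact (((h3.matrix_mul h1).add (h1.matrix_mul h3)).neg.add (h3.matrix_mul h3)).add h2)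
    (fun p => ⟨2 * ‖K p‖ + 2 * ρ, by positivity, fun t y z hy hz => fld_lip _ _ y z hy hz⟩) hx
  refine ⟨fun p x => hp (β p x), fun p x => herm_hp _, fun p => by simp [h0, hp], fun p x hx => ?_,
    continuous_hp.comp hc⟩
  have h1 := ((hd p x hx).fun_add (HasDerivAt.ct (hd p x hx))).fun_const_smul (1 / 2 : ℝ)
  refine HasDerivAt.congr_deriv h1 ?_
  exact hp_of_herm (herm_fld (hKh p) (hVh p x) (herm_smul (herm_hp _) _))

theorem sqrt_mul_self_eq {A : Matrix n n ℂ} (hA : A.PosSemidef) :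
    cfc Real.sqrt A * cfc Real.sqrt A = A := by
  obtain ⟨U, a, ha⟩ := exists_isDiag hA.1
  exact isDiag_eq_of (isDiag_mul (isDiag_cfc ha _) (isDiag_cfc ha _)) ha fun i =>
    Real.mul_self_sqrt (ha.nonneg hA i)

theorem posDef_sqrt {A : Matrix n n ℂ} (hA : A.PosDef) : (cfc Real.sqrt A).PosDef := by
  obtain ⟨U, a, ha⟩ := exists_isDiag hA.1
  exact isDiag_posDef (isDiag_cfc ha _) fun i => Real.sqrt_pos.2 (isDiag_pos ha hA i)

theorem posDef_mul_self {A : Matrix n n ℂ} (hA : A.PosDef) : (A * A).PosDef := by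
  obtain ⟨U, a, ha⟩ := exists_isDiag hA.1
  exact isDiag_posDef (isDiag_mul ha ha) fun i => mul_pos (isDiag_pos ha hA i) (isDiag_pos ha hA i)

theorem riccati_S {K V b b' : Matrix n n ℂ} (h : b' = fld K V b) :
    -b' = K * K - (K - b) * (K - b) - V := by
  simp only [h, fld, Matrix.mul_sub, Matrix.sub_mul]; abel

/-- The shooting theorem. -/
theorem shoot {r : ℝ} (hr : 1 ≤ r) {Ψ Ψ' : ℝ → Matrix m n ℂ} {x₀ x₁ : ℝ} (hx : x₀ ≤ x₁)
    (hd : ∀ x, HasDerivAt Ψ (Ψ' x) x) (hc : Continuous Ψ')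
    (hs : ∀ x, x ≤ x₀ ∨ x₁ ≤ x → Ψ x = 0)
    (hon : ∀ P : Matrix n n ℂ, ∫ x in x₀..x₁, tr ((Ψ x)ᴴ * Ψ x * P) = tr P)
    {K₀ : Matrix n n ℂ} (hK₀ : K₀.PosDef) :
    ∃ (B K : Matrix n n ℂ) (S : ℝ → Matrix n n ℂ), B.PosSemidef ∧ K.PosDef ∧
      (K * K - K₀ * K₀).PosSemidef ∧ B * (K * K - K₀ * K₀) = 0 ∧ (∀ x, Sand K (S x)) ∧
      (∀ x, HasDerivAt S (K * K - S x * S x - (1 + r) • pw r ((Ψ x * B)ᴴ * (Ψ x * B))) x) ∧
      (∀ x, x ≤ x₀ → S x = K) ∧ (∀ x, x₁ ≤ x → S x = -K) := by
  have : ProperSpace (Matrix n n ℂ) := FiniteDimensional.proper_real _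
  have hΨ : Continuous Ψ := continuous_of_hasDerivAt hd
  have e₀ := hs x₀ (Or.inl le_rfl)
  have e₁ := hs x₁ (Or.inr le_rfl)
  -- constants
  set c : ℝ := ‖K₀ * K₀‖ + 1 with hcdef
  have hc1 : 1 ≤ c := by have := norm_nonneg (K₀ * K₀); linarith
  set T := (∫ x in x₀..x₁, ‖Ψ' x‖ ^ 2) + c with hT
  have hT0 : 0 ≤ T := add_nonneg (intervalIntegral.integral_nonneg hx fun x _ => by positivity)
    (by linarith)
  set R₁ : ℝ := 4 * Fintype.card n * (x₁ - x₀) * T with hR₁
  have hR₁0 : 0 ≤ R₁ := by have := sub_nonneg.2 hx; positivity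
  set R₂ : ℝ := ((1 + r) * ((x₁ - x₀) * Fintype.card n + T * R₁)) ^ 2 with hR₂
  set R : ℝ := √R₁ + R₂ + 1 with hR
  have hR0 : 0 < R := by positivity
  -- the parametrised data
  let s : Matrix n n ℂ → ℝ := fun H => max 0 (min 1 (‖hp H‖ / R - 1))
  have hs0 : ∀ H, 0 ≤ s H := fun H => le_max_left _ _
  have hs1 : ∀ H, s H ≤ 1 := fun H => max_le zero_le_one (min_le_left _ _)
  have hsc : Continuous s :=
    continuous_const.max (continuous_const.min ((continuous_hp.norm.div_const R).sub continuous_const))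
  let K2 : Matrix n n ℂ → Matrix n n ℂ := fun H =>
    (1 - s H) • (K₀ * K₀) + s H • (1 : Matrix n n ℂ) + negP (hp H)
  have hK2 : ∀ H, (K2 H).PosSemidef := fun H =>
    ((psd_smul (psd_mul_self hK₀.1) (by linarith [hs1 H])).add (psd_smul_one (hs0 H))).add
      (psd_negP _)
  have hK2c : Continuous K2 :=
    (((continuous_const.sub hsc).smul continuous_const).add (hsc.smul continuous_const)).add
      (continuous_cfc' (by fun_prop) continuous_hp herm_hp)
  let Kt : Matrix n n ℂ → Matrix n n ℂ := fun H => cfc Real.sqrt (K2 H)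
  have hKt : ∀ H, (Kt H).PosSemidef := fun H => psd_cfc Real.sqrt_nonneg _
  have hKt2 : ∀ H, Kt H * Kt H = K2 H := fun H => sqrt_mul_self_eq (hK2 H)
  have hKtc : Continuous Kt := continuous_cfc' Real.continuous_sqrt hK2c fun H => (hK2 H).1
  let A : Matrix n n ℂ → ℝ → Matrix n n ℂ := fun H x =>
    (Ψ x * posP (hp H))ᴴ * (Ψ x * posP (hp H))
  have hA : ∀ H x, (A H x).PosSemidef := fun H x => posSemidef_conjTranspose_mul_self _
  have hAc : Continuous fun q : Matrix n n ℂ × ℝ => A q.1 q.2 := by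
    have h1 : Continuous fun q : Matrix n n ℂ × ℝ => Ψ q.2 * posP (hp q.1) :=
      (hΨ.comp continuous_snd).matrix_mul
        (continuous_cfc' (by fun_prop) (continuous_hp.comp continuous_fst) fun q => herm_hp _)
    exact h1.matrix_conjTranspose.matrix_mul h1
  let V : Matrix n n ℂ → ℝ → Matrix n n ℂ := fun H x => (1 + r) • pw r (A H x)
  have hV : ∀ H x, (V H x).PosSemidef := fun H x => psd_smul (psd_pw (hA H x) r) (by linarith)
  have hVc : Continuous fun q : Matrix n n ℂ × ℝ => V q.1 q.2 :=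
    (continuous_pw (q := r) (by linarith) hAc fun q => (hA q.1 q.2).1).const_smul (1 + r)
  obtain ⟨ρ₀, hρ₀⟩ := (isCompact_closedBall (0 : Matrix n n ℂ) (2 * R)).exists_bound_of_continuousOn
    (f := fun H => 2 * tr (Kt H) + Fintype.card n)
    ((continuous_const.mul (Continuous.tr' hKtc)).add continuous_const).continuousOn
  set ρ := max ρ₀ 1 with hρdef
  have hρ : 0 < ρ := lt_max_of_lt_right one_pos
  have hρK : ∀ H, ‖H‖ ≤ 2 * R → 2 * tr (Kt H) + Fintype.card n ≤ ρ := fun H hH =>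
    ((le_abs_self _).trans (hρ₀ H (by simpa using hH))).trans (le_max_left _ _)
  obtain ⟨b, hbh, hb0, hbd, hbc⟩ := exists_riccati hKtc (fun H => (hKt H).1) hVc
    (fun H x => (hV H x).1) hρ hx
  have hbp : ∀ H, ∀ x ∈ Icc x₀ x₁, (b H x).PosSemidef := fun H =>
    riccati_psd (hKt H) (hV H) (hbh H) hρ (hbd H) (hb0 H)
  let F : Matrix n n ℂ → Matrix n n ℂ := fun H => (2 : ℝ) • Kt H - b H x₁
  have hFc : Continuous F := (hKtc.const_smul (2 : ℝ)).sub hbc
  have hFh : ∀ H, (F H).IsHermitian := fun H => (herm_smul (hKt H).1 _).sub (hbh H x₁)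
  -- consequences of `F H ≥ 0`
  have hgood : ∀ H, ‖H‖ ≤ 2 * R → (F H).PosSemidef →
      (∀ x ∈ Icc x₀ x₁, Sand (Kt H) (Kt H - b H x) ∧
        HasDerivAt (b H) (fld (Kt H) (V H x) (b H x)) x) ∧
      ‖posP (hp H)‖ ^ 2 ≤ R₁ ∧ ∫ x in x₀..x₁, tr (pw (1 + r) (A H x)) ≤ T * R₁ := by
    intro H hH hF
    have h1 := riccati_back (hKt H) (hV H) (hbh H) hρ (hρK H hH) (hbd H) (hbp H) hF
    have h2 : ∀ x ∈ Icc x₀ x₁, HasDerivAt (b H) (fld (Kt H) (V H x) (b H x)) x := fun x hx => by
      have := hbd H x hx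
      rwa [(h1 x hx).2] at this
    have h3 := apriori_B hr hx hd hc e₀ e₁ hon (B := posP (hp H)) (K2 := K2 H) (psd_posP _).1 hc1
      (S := fun x => Kt H - b H x) ?_ (fun x hx => ?_) (fun x _ => (hKt H).1.sub (hbh H x))
    · rw [← hT, ← hR₁] at h3
      refine ⟨fun x hx => ⟨⟨hKt H, (hKt H).1.sub (hbh H x), ?_, ?_⟩, h2 x hx⟩, h3.1, ?_⟩
      · rw [sub_sub_cancel]; exact hbp H x hx
      · have := (h1 x hx).1
        rwa [two_smul, add_sub_assoc] at this
      · simp only [A]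
        exact h3.2.trans (mul_le_mul_of_nonneg_left h3.1 hT0)
    · have h4 : tr (posP (hp H) * (K₀ * K₀) * posP (hp H)) ≤ ‖K₀ * K₀‖ * ‖posP (hp H)‖ ^ 2 := by
        refine (tr_mul_le _ _).trans ?_
        have := mul_le_mul_of_nonneg_right (norm_mul_le' (posP (hp H)) (K₀ * K₀))
          (norm_nonneg (posP (hp H)))
        nlinarith only [this]
      simp only [K2, Matrix.mul_add, Matrix.add_mul, Matrix.mul_smul, Matrix.smul_mul, tr_add,
        tr_smul, posP_mul_negP (herm_hp H), Matrix.zero_mul, tr_zero, Matrix.mul_one,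
        tr_mul_self_herm (psd_posP (hp H)).1]
      have h5 : 0 ≤ ‖K₀ * K₀‖ * ‖posP (hp H)‖ ^ 2 := by positivity
      have h6 := hs0 H
      have h7 := hs1 H
      have h8 := sq_nonneg ‖posP (hp H)‖
      rw [hcdef]
      nlinarith only [h4, h5, h6, h7, h8, mul_le_mul_of_nonneg_left h4 (sub_nonneg.2 h7),
        mul_nonneg h6 h5, mul_nonneg (sub_nonneg.2 h7) h8]
    · have := (h2 x hx).const_sub (Kt H)
      rwa [riccati_S rfl, hKt2] at this
  -- a zero of `F`
  have hzero : ∃ H, ‖H‖ ≤ 2 * R ∧ F H = 0 := by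
    by_contra hne
    push Not at hne
    have hne' : ∀ u ∈ closedBall (0 : Matrix n n ℂ) 1, F ((2 * R) • u) ≠ 0 := fun u hu => hne _ (by
      rw [norm_smul, Real.norm_eq_abs, abs_of_pos (by positivity)]
      exact mul_le_of_le_one_right (by positivity) (by simpa using hu))
    have hG : Continuous fun u : Matrix n n ℂ => F ((2 * R) • u) :=
      hFc.comp (continuous_id.const_smul (2 * R))
    obtain ⟨u, hu, hfix⟩ := Lib.Brouwer.exists_fixedPoint_closedBall
      (fun u : Matrix n n ℂ => ‖F ((2 * R) • u)‖⁻¹ • F ((2 * R) • u))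
      ((hG.norm.continuousOn.inv₀ fun u hu => norm_ne_zero_iff.2 (hne' u hu)).smul hG.continuousOn)
      (fun u hu => by
        rw [mem_closedBall_zero_iff, norm_smul, norm_inv, norm_norm,
          inv_mul_cancel₀ (norm_ne_zero_iff.2 (hne' u hu))])
    obtain ⟨H, μ, hHn, hHh, hμ, hFH⟩ : ∃ (H : Matrix n n ℂ) (μ : ℝ), ‖H‖ = 2 * R ∧ H.IsHermitian ∧
        0 < μ ∧ F H = μ • H := by
      have hF0 : 0 < ‖F ((2 * R) • u)‖ := norm_pos_iff.2 (hne' u hu)
      have hFh' := hFh ((2 * R) • u)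
      refine ⟨(2 * R) • u, ‖F ((2 * R) • u)‖ / (2 * R), ?_⟩
      generalize F ((2 * R) • u) = G at hF0 hfix hFh'
      have hu1 : ‖u‖ = 1 := by
        rw [← hfix, norm_smul, norm_inv, norm_norm, inv_mul_cancel₀ hF0.ne']
      have huh : u.IsHermitian := by rw [← hfix]; exact herm_smul hFh' _
      refine ⟨?_, herm_smul huh _, by positivity, ?_⟩
      · rw [norm_smul, hu1, Real.norm_eq_abs, abs_of_pos (by positivity), mul_one]
      · rw [smul_smul, div_mul_cancel₀ _ (by positivity), ← hfix, smul_smul,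
          mul_inv_cancel₀ hF0.ne', one_smul]
    have hsH : s H = 1 := by
      simp only [s, hp_of_herm hHh, hHn]
      rw [mul_div_assoc, div_self hR0.ne']; norm_num
    obtain ⟨U, l, hl⟩ := exists_isDiag hHh
    have hN : IsDiag (negP H) U fun i => max (-l i) 0 := isDiag_cfc hl _
    have hKd : IsDiag (Kt H) U fun i => √(1 + max (-l i) 0) := by
      have : K2 H = (1 : ℝ) • (1 : Matrix n n ℂ) + negP H := by
        simp only [K2, hsH, hp_of_herm hHh]; simp
      simp only [Kt, this]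
      exact isDiag_cfc (isDiag_add (isDiag_smul_one hl.uni 1) hN) _
    have hker := riccati_kernel (psd_negP H)
      (isDiag_psd (isDiag_mul hN hKd) fun i => mul_nonneg (le_max_right _ _) (Real.sqrt_nonneg _))
      (isDiag_eq_of (isDiag_mul hN hKd) (isDiag_mul hKd hN) fun i => mul_comm _ _)
      (V := V H) (fun x => by
        simp only [V, Matrix.mul_smul]
        rw [mul_pw_eq_zero (hA H x).1 _ (by linarith), smul_zero]
        simp only [A, hp_of_herm hHh, conjTranspose_mul, (psd_posP H).1.eq]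
        rw [← Matrix.mul_assoc, ← Matrix.mul_assoc, ← Matrix.mul_assoc, negP_mul_posP hHh]
        simp) hρ (hbd H) (hbp H) (hb0 H) x₁ ⟨hx, le_rfl⟩
    have h1 : 0 ≤ tr (negP H * F H) := by
      simp only [F, Matrix.mul_sub, Matrix.mul_smul, tr_sub, tr_smul]
      have := tr_mul_nonneg (psd_negP H) (hKt H)
      linarith
    have h2 : tr (negP H * H) = - ‖negP H‖ ^ 2 := by
      conv_lhs => arg 1; arg 2; rw [← posP_sub_negP hHh]
      rw [Matrix.mul_sub, negP_mul_posP hHh, zero_sub, tr_neg, tr_mul_self_herm (psd_negP H).1]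
    rw [hFH, Matrix.mul_smul, tr_smul, h2] at h1
    have h3 : negP H = 0 := by
      have h5 : ‖negP H‖ ^ 2 ≤ 0 := neg_nonneg.1 ((mul_nonneg_iff_of_pos_left hμ).1 h1)
      exact norm_eq_zero.1 (pow_eq_zero_iff two_ne_zero |>.1 (le_antisymm h5 (sq_nonneg _)))
    have h4 : posP H = H := by simpa [h3] using posP_sub_negP hHh
    have h5 : (F H).PosSemidef := by
      have h6 : H.PosSemidef := by rw [← h4]; exact psd_posP H
      rw [hFH]; exact psd_smul h6 hμ.le
    have h6 := (hgood H hHn.le h5).2.1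
    rw [hp_of_herm hHh, h4, hHn] at h6
    have h7 : 2 * R ≤ √R₁ := Real.le_sqrt_of_sq_le h6
    have h8 : 0 ≤ R₂ := sq_nonneg _
    linarith only [h7, h8, hR, Real.sqrt_nonneg R₁]
  obtain ⟨H, hH, hF⟩ := hzero
  obtain ⟨g1, g2, g3⟩ := hgood H hH (by rw [hF]; exact PosSemidef.zero)
  have hb1 : b H x₁ = (2 : ℝ) • Kt H := (sub_eq_zero.1 hF).symm
  have hAx : Continuous (A H) := by
    have h1 : Continuous fun x => Ψ x * posP (hp H) := hΨ.matrix_mul continuous_const
    exact h1.matrix_conjTranspose.matrix_mul h1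
  have hK := apriori_K (r := r) (by linarith) hx hAx (hA H) (K := Kt H) (S := fun x => Kt H - b H x)
    (fun x hx => by
      have := (g1 x hx).2.const_sub (Kt H)
      rwa [riccati_S rfl] at this) (fun x hx => (g1 x hx).1) (by simp [hb0])
    (by rw [hb1, two_smul]; abel)
  have hs0' : s H = 0 := by
    have h1 : ‖negP (hp H)‖ ≤ R₂ := by
      have h2 : tr (negP (hp H)) ≤ tr (K2 H) := by
        simp only [K2, tr_add]
        have := tr_nonneg (psd_smul (psd_mul_self hK₀.1) (show 0 ≤ 1 - s H by linarith [hs1 H]))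
        have := tr_nonneg (psd_smul_one (n := n) (hs0 H))
        linarith
      rw [← hKt2, tr_mul_self_herm (hKt H).1] at h2
      rw [hR₂]
      refine (norm_le_tr (psd_negP _)).trans (h2.trans (pow_le_pow_left₀ (norm_nonneg _) ?_ 2))
      have h3 := norm_le_tr (hKt H)
      have h4 := tr_nonneg (hKt H)
      have h5 := mul_le_mul_of_nonneg_left (add_le_add_right g3 ((x₁ - x₀) * Fintype.card n))
        (show 0 ≤ 1 + r by linarith)
      linarith
    have h2 : ‖posP (hp H)‖ ≤ √R₁ := Real.le_sqrt_of_sq_le g2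
    have h3 : ‖hp H‖ ≤ R := by
      conv_lhs => rw [← posP_sub_negP (herm_hp H)]
      have := norm_sub_le (posP (hp H)) (negP (hp H))
      linarith
    have h4 : ‖hp H‖ / R - 1 ≤ 0 := by
      rw [sub_nonpos, div_le_one hR0]
      exact h3
    simp only [s]
    exact max_eq_left ((min_le_right _ _).trans h4)
  have hK2H : K2 H = K₀ * K₀ + negP (hp H) := by simp [K2, hs0']
  have hcl : ∀ t, max x₀ (min t x₁) ∈ Icc x₀ x₁ := fun t =>
    ⟨le_max_left _ _, max_le hx (min_le_right _ _)⟩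
  have hΨcl : ∀ t, Ψ (max x₀ (min t x₁)) = Ψ t := by
    intro t
    rcases le_total t x₀ with h1 | h1
    · rw [max_eq_left ((min_le_left _ _).trans h1), e₀, hs t (Or.inl h1)]
    rcases le_total x₁ t with h2 | h2
    · rw [min_eq_right h2, max_eq_right hx, e₁, hs t (Or.inr h2)]
    · rw [min_eq_left h2, max_eq_right h1]
  have hV0 : ∀ x, Ψ x = 0 → V H x = 0 := fun x h => by
    simp only [V, A, h, Matrix.zero_mul, Matrix.mul_zero]
    rw [pw_zero (by linarith), smul_zero]
  have hpd : (K2 H).PosDef := by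
    rw [hK2H]; exact (posDef_mul_self hK₀).add_posSemidef (psd_negP _)
  have hpd' : (Kt H).PosDef := posDef_sqrt (A := K2 H) hpd
  refine ⟨posP (hp H), Kt H, fun t => Kt H - b H (max x₀ (min t x₁)), psd_posP _, hpd', ?_, ?_,
    fun t => (g1 (max x₀ (min t x₁)) (hcl t)).1, fun t => ?_, fun t ht => ?_, fun t ht => ?_⟩
  · rw [hKt2, hK2H, add_sub_cancel_left]; exact psd_negP _
  · rw [hKt2, hK2H, add_sub_cancel_left]; exact posP_mul_negP (herm_hp H)
  · have h1 := (hasDerivAt_clamp (β := b H) (β' := fun x => fld (Kt H) (V H x) (b H x)) hx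
      (fun x hx => (g1 x hx).2) (by simp [fld, hb0, hV0 x₀ e₀])
      (by simp only [fld, hb1, hV0 x₁ e₁, two_smul, Matrix.add_mul, Matrix.mul_add]; abel)
      t).const_sub (Kt H)
    rw [riccati_S rfl] at h1
    simp only [V, A, hΨcl] at h1
    exact h1
  · simp only [max_eq_left ((min_le_left t x₁).trans ht), hb0, sub_zero]
  · simp only [min_eq_right ht, max_eq_right hx, hb1, two_smul]; abel

end Crest.Agent.R332
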