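import Crest.Agent.R332.Scalar

/-!
Row 332: sums of solitons are extremal (the easy direction of S0516).
-/

set_option autoImplicit false

namespace Crest.Agent.R332

open Matrix Crest.Agent.Lib.QEnt Filter Topology MeasureTheory Set Crest.MathPhysics.LiebThirring
open scoped ComplexOrder ContDiff

/-- The ground state `ψ` of the one-soliton potential and its logarithmic derivative `s`. -/
theorem sol_ground {r : ℝ} (hr : 0 < r) (a c : ℝ) :
    ∃ ψ s s' : ℝ → ℝ, ContDiff ℝ ∞ ψ ∧ Continuous s ∧ Continuous s' ∧ (∀ x, 0 < ψ x) ∧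
      (∀ x, ψ x ≤ 1) ∧ (∀ x, HasDerivAt ψ (s x * ψ x) x) ∧ (∀ x, HasDerivAt s (s' x) x) ∧
      ∀ x, s' x + s x ^ 2 = a ^ 2 - soliton r a c x := by
  have hc : ∀ y : ℝ, Real.cosh y ≠ 0 := fun y => (Real.cosh_pos y).ne'
  have hlin : ∀ x : ℝ, HasDerivAt (fun x => r * a * (x - c)) (r * a) x := fun x => by
    simpa using ((hasDerivAt_id x).sub_const c).const_mul (r * a)
  refine ⟨fun x => Real.exp (-r⁻¹ * Real.log (Real.cosh (r * a * (x - c)))),
    fun x => -a * (Real.sinh (r * a * (x - c)) / Real.cosh (r * a * (x - c))),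
    fun x => -(r * a ^ 2) / Real.cosh (r * a * (x - c)) ^ 2, ?_, ?_, ?_, fun x => Real.exp_pos _,
    fun x => ?_, fun x => ?_, fun x => ?_, fun x => ?_⟩
  · refine Real.contDiff_exp.comp (contDiff_const.mul (ContDiff.log ?_ fun x => hc _))
    exact Real.contDiff_cosh.comp (contDiff_const.mul (contDiff_id.sub contDiff_const))
  · exact continuous_const.mul (Continuous.div (by fun_prop) (by fun_prop) fun x => hc _)
  · exact Continuous.div (by fun_prop) (by fun_prop) fun x => pow_ne_zero _ (hc _)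
  · rw [Real.exp_le_one_iff]
    have := Real.log_nonneg (Real.one_le_cosh (r * a * (x - c)))
    have h2 : 0 < r⁻¹ := inv_pos.2 hr
    nlinarith
  · have h1 := (((hlin x).cosh.log (hc _)).const_mul (-r⁻¹)).exp
    convert h1 using 1
    field_simp
  · have h1 := (((hlin x).sinh.fun_div (hlin x).cosh (hc _))).const_mul (-a)
    refine h1.congr_deriv ?_
    have h3 := hc (r * a * (x - c))
    field_simp
    rw [Real.cosh_sq]; ring
  · unfold soliton
    have h2 := Real.cosh_sq (r * a * (x - c))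
    have h3 := hc (r * a * (x - c))
    field_simp
    rw [h2]; ring

theorem sol_continuous_soliton (r a c : ℝ) : Continuous (soliton r a c) := by
  unfold soliton
  exact Continuous.div (by fun_prop) (by fun_prop) fun x => pow_ne_zero _ (Real.cosh_pos _).ne'

theorem sol_hcs_sq {φ : ℝ → ℝ} (h : HasCompactSupport φ) : HasCompactSupport fun x => φ x ^ 2 :=
  h.comp_left (g := fun t : ℝ => t ^ 2) (by simp)

/-- the ground state representation of the energy -/
theorem sol_energy {V s s' φ φ' : ℝ → ℝ} {a : ℝ} (hs : Continuous s) (hs' : Continuous s')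
    (hsd : ∀ x, HasDerivAt s (s' x) x) (hV : ∀ x, s' x + s x ^ 2 = a ^ 2 - V x)
    (hφ : ∀ x, HasDerivAt φ (φ' x) x) (hφ' : Continuous φ') (hc : HasCompactSupport φ)
    (hc' : HasCompactSupport φ') :
    ∫ x, (φ' x ^ 2 - V x * φ x ^ 2) = -a ^ 2 * (∫ x, φ x ^ 2) + ∫ x, (φ' x - s x * φ x) ^ 2 := by
  have hφc : Continuous φ := continuous_iff_continuousAt.2 fun x => (hφ x).continuousAt
  have hc2 : HasCompactSupport fun x => φ x ^ 2 := sol_hcs_sq hc
  have i1 : Integrable fun x => φ x ^ 2 := (hφc.pow 2).integrable_of_hasCompactSupport hc2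
  have i2 : Integrable fun x => (φ' x - s x * φ x) ^ 2 := by
    refine ((hφ'.sub (hs.mul hφc)).pow 2).integrable_of_hasCompactSupport ?_
    have h1 : HasCompactSupport fun x => φ' x - s x * φ x := hc'.sub (hc.mul_left (f := s))
    exact sol_hcs_sq h1
  have i3 : Integrable fun x => s' x * φ x ^ 2 + s x * (2 * φ x * φ' x) := by
    refine (by fun_prop : Continuous fun x => s' x * φ x ^ 2 + s x * (2 * φ x * φ' x)
      ).integrable_of_hasCompactSupport ?_
    exact (hc2.mul_left (f := s')).add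
      ((hc'.mul_left (f := fun x => 2 * φ x)).mul_left (f := s))
  have i4 : Integrable fun x => s x * φ x ^ 2 :=
    (hs.mul (hφc.pow 2)).integrable_of_hasCompactSupport (hc2.mul_left (f := s))
  have h0 : ∫ x, (s' x * φ x ^ 2 + s x * (2 * φ x * φ' x)) = 0 := by
    refine integral_eq_zero_of_hasDerivAt_of_integrable (f := fun x => s x * φ x ^ 2)
      (fun x => ?_) i3 i4
    refine ((hsd x).fun_mul ((hφ x).fun_pow 2)).congr_deriv ?_
    simp
  have h1 : ∀ x, φ' x ^ 2 - V x * φ x ^ 2 = (-a ^ 2 * φ x ^ 2 + (φ' x - s x * φ x) ^ 2) +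
      (s' x * φ x ^ 2 + s x * (2 * φ x * φ' x)) := by
    intro x
    have : V x = a ^ 2 - s' x - s x ^ 2 := by linarith [hV x]
    rw [this]; ring
  simp_rw [h1]
  have i5 : Integrable fun x => -a ^ 2 * φ x ^ 2 := i1.const_mul _
  have i6 : Integrable fun x => -a ^ 2 * φ x ^ 2 + (φ' x - s x * φ x) ^ 2 := i5.add i2
  rw [integral_add i6 i3, h0, integral_add i5 i2, integral_const_mul, add_zero]

/-- smooth cut-offs with small derivative -/
theorem sol_exists_cutoff {δ : ℝ} (hδ : 0 < δ) :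
    ∃ χ : ℝ → ℝ, ContDiff ℝ ∞ χ ∧ HasCompactSupport χ ∧ (∀ x ∈ Ioc (-1 : ℝ) 1, χ x = 1) ∧
      ∫ x, deriv χ x ^ 2 ≤ δ := by
  let b : ContDiffBump (0 : ℝ) := ⟨1, 2, one_pos, one_lt_two⟩
  have hb : ContDiff ℝ ∞ b := b.contDiff
  set C := ∫ x, deriv b x ^ 2 with hC
  have hC0 : 0 ≤ C := integral_nonneg fun x => sq_nonneg _
  set t := min 1 (δ / (C + 1)) with ht
  have ht0 : 0 < t := lt_min one_pos (by positivity)
  have ht1 : t ≤ 1 := min_le_left _ _
  have ht2 : t ≤ δ / (C + 1) := min_le_right _ _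
  refine ⟨fun x => b (t * x), hb.comp (contDiff_const.mul contDiff_id), ?_, fun x hx => ?_, ?_⟩
  · exact b.hasCompactSupport.comp_homeomorph (Homeomorph.mulLeft₀ t ht0.ne')
  · apply b.one_of_mem_closedBall
    rw [mem_closedBall_zero_iff, Real.norm_eq_abs, abs_mul, abs_of_pos ht0]
    have : |x| ≤ 1 := abs_le.2 ⟨hx.1.le, hx.2⟩
    change t * |x| ≤ 1
    nlinarith [abs_nonneg x]
  · have h1 : ∀ x, deriv (fun x => b (t * x)) x ^ 2 = t ^ 2 * (fun y => deriv b y ^ 2) (t * x) := by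
      intro x
      rw [deriv_comp_mul_left t b x, smul_eq_mul, mul_pow]
    simp_rw [h1]
    rw [integral_const_mul, Measure.integral_comp_mul_left (fun y => deriv b y ^ 2) t, ← hC,
      smul_eq_mul, abs_of_pos (inv_pos.2 ht0)]
    have h2 : t ^ 2 * (t⁻¹ * C) = t * C := by field_simp
    rw [h2]
    rw [le_div_iff₀ (by positivity)] at ht2
    nlinarith

/-- normalised trial functions with almost the ground state energy -/
theorem sol_exists_trial {r : ℝ} (hr : 0 < r) (a c : ℝ) {δ : ℝ} (hδ : 0 < δ) :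
    ∃ g : ℝ → ℝ, ContDiff ℝ ∞ g ∧ HasCompactSupport g ∧ ∫ x, g x ^ 2 = 1 ∧
      ∫ x, (deriv g x ^ 2 - soliton r a c x * g x ^ 2) ≤ -a ^ 2 + δ := by
  obtain ⟨ψ, s, s', hψ, hs, hs', hpos, hle, hψd, hsd, hV⟩ := sol_ground hr a c
  have hψc : Continuous ψ := hψ.continuous
  set μ := ∫ x in (-1 : ℝ)..1, ψ x ^ 2 with hμ
  have hμ0 : 0 < μ := intervalIntegral.intervalIntegral_pos_of_pos
    ((hψc.pow 2).intervalIntegrable _ _) (fun x => pow_pos (hpos x) 2) (by norm_num)
  obtain ⟨χ, hχ, hχc, hχ1, hχd⟩ := sol_exists_cutoff (mul_pos hδ hμ0)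
  have hχdiff : ∀ x, HasDerivAt χ (deriv χ x) x := fun x =>
    (hχ.differentiable (by simp) x).hasDerivAt
  have hχ'c : Continuous (deriv χ) := hχ.continuous_deriv (by simp)
  set φ : ℝ → ℝ := fun x => χ x * ψ x with hφ
  set φ' : ℝ → ℝ := fun x => deriv χ x * ψ x + χ x * (s x * ψ x) with hφ'
  have hφd : ∀ x, HasDerivAt φ (φ' x) x := fun x => (hχdiff x).fun_mul (hψd x)
  have hφs : ContDiff ℝ ∞ φ := hχ.mul hψ
  have hφc : HasCompactSupport φ := hχc.mul_right
  have hχcont : Continuous χ := hχ.continuous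
  have hφ'c : Continuous φ' := by rw [hφ']; fun_prop
  have hφ's : HasCompactSupport φ' := hχc.deriv.mul_right.add hχc.mul_right
  have hE := sol_energy hs hs' hsd hV hφd hφ'c hφc hφ's
  set N := ∫ x, φ x ^ 2 with hN
  have i1 : Integrable fun x => φ x ^ 2 :=
    (hφs.continuous.pow 2).integrable_of_hasCompactSupport (sol_hcs_sq hφc)
  have hμN : μ ≤ N := by
    rw [hμ, intervalIntegral.integral_of_le (by norm_num)]
    have h1 : ∫ x in Ioc (-1 : ℝ) 1, ψ x ^ 2 = ∫ x in Ioc (-1 : ℝ) 1, φ x ^ 2 := by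
      refine setIntegral_congr_fun measurableSet_Ioc fun x hx => ?_
      simp only [hφ, hχ1 x hx, one_mul]
    rw [h1]
    exact setIntegral_le_integral i1 (Eventually.of_forall fun x => sq_nonneg _)
  have hN0 : 0 < N := hμ0.trans_le hμN
  have herr : ∫ x, (φ' x - s x * φ x) ^ 2 ≤ δ * μ := by
    refine le_trans (integral_mono_of_nonneg (Eventually.of_forall fun x => sq_nonneg _)
      ((hχ'c.pow 2).integrable_of_hasCompactSupport (sol_hcs_sq hχc.deriv))
      (Eventually.of_forall fun x => ?_)) hχd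
    have h1 : φ' x - s x * φ x = deriv χ x * ψ x := by simp only [hφ, hφ']; ring
    change (φ' x - s x * φ x) ^ 2 ≤ deriv χ x ^ 2
    rw [h1, mul_pow]
    exact mul_le_of_le_one_right (sq_nonneg _) (pow_le_one₀ (hpos x).le (hle x))
  set k := (√N)⁻¹ with hk
  have hk2 : k ^ 2 = N⁻¹ := by rw [hk, inv_pow, Real.sq_sqrt hN0.le]
  refine ⟨fun x => k * φ x, contDiff_const.mul hφs, hφc.mul_left, ?_, ?_⟩
  · simp_rw [mul_pow]
    rw [integral_const_mul, hk2, ← hN, inv_mul_cancel₀ hN0.ne']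
  · have h1 : ∀ x, deriv (fun x => k * φ x) x ^ 2 - soliton r a c x * (k * φ x) ^ 2 =
        N⁻¹ * (φ' x ^ 2 - soliton r a c x * φ x ^ 2) := by
      intro x
      rw [((hφd x).const_mul k).deriv, ← hk2]; ring
    simp_rw [h1]
    rw [integral_const_mul, hE, inv_mul_le_iff₀ hN0]
    nlinarith

theorem sol_exists_trial' {r γ : ℝ} (hr : 0 < r) (hγ : 0 < γ) (a c : ℝ) {ε : ℝ} (hε : 0 < ε) :
    ∃ g : ℝ → ℝ, ContDiff ℝ ∞ g ∧ HasCompactSupport g ∧ ∫ x, g x ^ 2 = 1 ∧
      (a ^ 2) ^ γ - ε ≤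
        (max (-∫ x, (deriv g x ^ 2 - soliton r a c x * g x ^ 2)) 0) ^ γ := by
  have hcont : Continuous fun δ : ℝ => (max (a ^ 2 - δ) 0) ^ γ :=
    (Real.continuous_rpow_const hγ.le).comp (by fun_prop)
  have h0 : (a ^ 2) ^ γ - ε < (fun δ : ℝ => (max (a ^ 2 - δ) 0) ^ γ) 0 := by
    simp only [sub_zero, max_eq_left (sq_nonneg a)]; linarith
  have h1 : ∀ᶠ δ in 𝓝[>] (0 : ℝ), (a ^ 2) ^ γ - ε < (max (a ^ 2 - δ) 0) ^ γ :=
    nhdsWithin_le_nhds (hcont.continuousAt.eventually (lt_mem_nhds h0))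
  obtain ⟨δ, hδ1, hδ⟩ := (h1.and self_mem_nhdsWithin).exists
  obtain ⟨g, h2, h3, h4, h5⟩ := sol_exists_trial hr a c hδ
  refine ⟨g, h2, h3, h4, hδ1.le.trans ?_⟩
  exact Real.rpow_le_rpow (le_max_right _ _) (max_le_max_right _ (by linarith)) hγ.le

/-- the Lieb-Thirring integral of one soliton -/
theorem sol_soliton_integral {γ : ℝ} (hγ : 1 / 2 < γ) {a : ℝ} (ha : 0 ≤ a) (c : ℝ) :
    Integrable (fun x => soliton (γ - 1 / 2)⁻¹ a c x ^ (γ + 1 / 2)) ∧
      sharpConst γ * ∫ x, soliton (γ - 1 / 2)⁻¹ a c x ^ (γ + 1 / 2) = (a ^ 2) ^ γ := by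
  have hθ : 0 < γ - 1 / 2 := by linarith
  rcases ha.eq_or_lt with rfl | ha
  · have h1 : ∀ x, soliton (γ - 1 / 2)⁻¹ 0 c x ^ (γ + 1 / 2) = 0 := by
      intro x
      have : soliton (γ - 1 / 2)⁻¹ 0 c x = 0 := by simp [soliton]
      rw [this, Real.zero_rpow (by linarith)]
    simp_rw [h1]
    refine ⟨integrable_zero _ _ _, ?_⟩
    rw [integral_zero, mul_zero, zero_pow two_ne_zero, Real.zero_rpow (by linarith)]
  set r := (γ - 1 / 2)⁻¹ with hr
  have hr0 : 0 < r := inv_pos.2 hθ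
  obtain ⟨hi, hI⟩ := integral_sech hθ
  have hp : 1 + (γ - 1 / 2) = γ + 1 / 2 := by ring
  rw [hp] at hi hI
  set f : ℝ → ℝ := fun y => ((Real.cosh y ^ 2)⁻¹) ^ (γ + 1 / 2) with hf
  have h1 : ∀ x, soliton r a c x ^ (γ + 1 / 2) =
      ((r + 1) * a ^ 2) ^ (γ + 1 / 2) * (fun y => f (r * a * y)) (x - c) := by
    intro x
    unfold soliton
    rw [div_eq_mul_inv, Real.mul_rpow (by positivity) (by positivity)]
  simp_rw [h1]
  have hra : r * a ≠ 0 := (mul_pos hr0 ha).ne'
  refine ⟨((hi.comp_mul_left' hra).comp_sub_right c).const_mul _, ?_⟩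
  rw [integral_const_mul, integral_sub_right_eq_self (fun y => f (r * a * y)) c,
    Measure.integral_comp_mul_left f (r * a), hI, smul_eq_mul,
    abs_of_pos (inv_pos.2 (mul_pos hr0 ha))]
  have h2 := sharpConst_mul_Bc hγ
  rw [← hr] at h2
  have h3 : ((r + 1) * a ^ 2) ^ (γ + 1 / 2) * ((1 + r)⁻¹) ^ (γ + 1 / 2) = (a ^ 2) ^ γ * a := by
    rw [← Real.mul_rpow (by positivity) (by positivity)]
    have : (r + 1) * a ^ 2 * (1 + r)⁻¹ = a ^ 2 := by field_simp; ring
    rw [this, Real.rpow_add (by positivity), ← Real.sqrt_eq_rpow, Real.sqrt_sq ha.le]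
  calc _ = ((r + 1) * a ^ 2) ^ (γ + 1 / 2) * (r * a)⁻¹ * (sharpConst γ * Bc (γ - 1 / 2)) := by ring
    _ = ((r + 1) * a ^ 2) ^ (γ + 1 / 2) * ((1 + r)⁻¹) ^ (γ + 1 / 2) * ((r * a)⁻¹ * r) := by
        rw [h2]; ring
    _ = _ := by rw [h3]; field_simp

/-- Recipe. θ = γ - 1/2, r = θ⁻¹. For R ≥ 1 take n = m and φ_k x = (χ(x/R) ψ_k x / N_k) • U e_k, where χ
is a smooth bump (`ContDiffBump`, = 1 on [-1,1], support in [-2,2]), ψ_k x = cosh(r a_k (x - c_k))^(-θ)
(smooth since cosh > 0; 0 < ψ ≤ 1; ψ = 1 when a_k = 0), N_k² = ∫ (χ(x/R) ψ_k)² ≥ ∫_{-1}^{1} ψ_k² > 0.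
The columns of U are orthonormal, so the family is orthonormal and the energy matrix is diagonal
(W x * U e_k = soliton_k x • U e_k a.e.). With s = ψ'/ψ = -a tanh(r a (x-c)), s' + s² = a² - soliton,
the derivative of s φ² integrates to 0, so for φ = χ_R ψ:
∫ (φ'² - soliton φ²) = -a² ∫ φ² + ∫ (φ' - sφ)² = -a² ∫ φ² + ∫ (χ_R')² ψ², and ∫ (χ_R')² ψ² ≤ C/R.
Hence the diagonal entries tend to -a_k², and negMoment (`tr_cfc (isDiag_diagonal _)`) tends to
Σ a_k^(2γ). On the other side tracePow (W x) p = Σ soliton_k(x)^p a.e. (`tr_cfc` with an `IsDiag`),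
∫ soliton^p = (r+1)^p a^(2p) (r a)⁻¹ Bc θ (`integral_sech`, scaling; 0 if a = 0) and
`sharpConst_mul_Bc` give sharpConst γ * ∫ tracePow = Σ a_k^(2γ). -/
theorem soliton_extremal (γ : ℝ) (hγ : 1 / 2 < γ) (m : ℕ)
    (W : ℝ → Matrix (Fin m) (Fin m) ℂ) (U : Matrix.unitaryGroup (Fin m) ℂ) (a c : Fin m → ℝ)
    (ha : ∀ i, 0 ≤ a i)
    (hW : ∀ᵐ x : ℝ, W x = (U : Matrix (Fin m) (Fin m) ℂ) *
          Matrix.diagonal (fun i => ((soliton (γ - 1 / 2)⁻¹ (a i) (c i) x : ℝ) : ℂ)) *
            star (U : Matrix (Fin m) (Fin m) ℂ)) (ε : ℝ) (hε : 0 < ε) :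
    ∃ (n : ℕ) (φ : Fin n → ℝ → Vec m), IsTrialFamily φ ∧
      sharpConst γ * (∫ x, tracePow (W x) (γ + 1 / 2)) - ε < negMoment (energyMatrix W φ) γ := by
  have hθ : 0 < γ - 1 / 2 := by linarith
  set r := (γ - 1 / 2)⁻¹ with hr
  have hr0 : 0 < r := inv_pos.2 hθ
  have hε' : 0 < ε / (m + 1) := by positivity
  choose g hg1 hg2 hg3 hg4 using fun k : Fin m =>
    sol_exists_trial' (γ := γ) hr0 (by linarith) (a k) (c k) hε'
  set u : Fin m → Vec m := fun k => WithLp.toLp 2 fun i => (U : Matrix (Fin m) (Fin m) ℂ) i k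
    with hu
  have hUU : (U : Matrix (Fin m) (Fin m) ℂ)ᴴ * (U : Matrix (Fin m) (Fin m) ℂ) = 1 := by
    have := Matrix.mem_unitaryGroup_iff'.1 U.2
    rwa [star_eq_conjTranspose] at this
  have huu : ∀ k l, inner ℂ (u k) (u l) = if k = l then (1 : ℂ) else 0 := by
    intro k l
    have := congrFun (congrFun hUU k) l
    rw [Matrix.mul_apply, Matrix.one_apply] at this
    rw [← this, PiLp.inner_apply]
    refine Finset.sum_congr rfl fun i _ => ?_
    simp [hu, mul_comm]
  have hin : ∀ (p q : ℝ) (k l : Fin m), inner ℂ (p • u k) (q • u l) =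
      if k = l then ((p * q : ℝ) : ℂ) else 0 := by
    intro p q k l
    rw [← Complex.coe_smul, ← Complex.coe_smul, inner_smul_left, inner_smul_right, huu]
    split_ifs <;> simp
  refine ⟨m, fun k x => g k x • u k, ⟨fun k => (hg1 k).smul contDiff_const,
    fun k => (hg2 k).smul_right, fun k l => ?_⟩, ?_⟩
  · simp_rw [hin]
    split_ifs with hkl
    · subst hkl
      rw [integral_complex_ofReal]
      have := hg3 k
      simp_rw [sq] at this
      rw [this]; simp
    · simp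
  set e : Fin m → ℝ := fun k => ∫ x, (deriv (g k) x ^ 2 - soliton r (a k) (c k) x * g k x ^ 2)
    with he
  have hEn : energyMatrix W (fun k x => g k x • u k) = diagonal fun k => (e k : ℂ) := by
    ext k l
    have hd : ∀ (j : Fin m) (x : ℝ), deriv (fun x => g j x • u j) x = deriv (g j) x • u j :=
      fun j x => deriv_smul_const ((hg1 j).differentiable (by simp) x) _
    have h1 : ∀ᵐ x : ℝ, inner ℂ (deriv (fun x => g k x • u k) x) (deriv (fun x => g l x • u l) x) -
        inner ℂ (g k x • u k) (Matrix.toEuclideanLin (W x) (g l x • u l)) =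
        if k = l then ((deriv (g k) x ^ 2 - soliton r (a k) (c k) x * g k x ^ 2 : ℝ) : ℂ)
          else 0 := by
      filter_upwards [hW] with x hx
      have h2 : W x * (U : Matrix (Fin m) (Fin m) ℂ) = (U : Matrix (Fin m) (Fin m) ℂ) *
          Matrix.diagonal (fun i => ((soliton r (a i) (c i) x : ℝ) : ℂ)) := by
        rw [hx, star_eq_conjTranspose, Matrix.mul_assoc, hUU, Matrix.mul_one]
      have h3 : Matrix.toEuclideanLin (W x) (g l x • u l) =
          (g l x * soliton r (a l) (c l) x) • u l := by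
        rw [← Complex.coe_smul, map_smul, mul_smul, Complex.coe_smul]
        congr 1
        ext i
        have := congrFun (congrFun h2 i) l
        rw [mul_diagonal, Matrix.mul_apply] at this
        simp [hu, Matrix.toEuclideanLin, Matrix.toLpLin_apply, Matrix.mulVec, dotProduct, this,
          mul_comm]
      rw [hd, hd, h3, hin, hin]
      split_ifs with hkl
      · subst hkl; push_cast; ring
      · simp
    unfold energyMatrix
    rw [Matrix.of_apply, integral_congr_ae h1, diagonal_apply]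
    split_ifs with hkl
    · rw [integral_complex_ofReal]
    · simp
  have hneg : negMoment (energyMatrix W fun k x => g k x • u k) γ =
      ∑ k, (max (-e k) 0) ^ γ := by
    rw [hEn]
    exact tr_cfc (isDiag_diagonal e) _
  have htr : ∀ᵐ x : ℝ, tracePow (W x) (γ + 1 / 2) =
      ∑ k, soliton r (a k) (c k) x ^ (γ + 1 / 2) := by
    filter_upwards [hW] with x hx
    have h1 : IsDiag (W x) U fun k => soliton r (a k) (c k) x :=
      ⟨hUU, by rw [hx, star_eq_conjTranspose]⟩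
    exact tr_cfc h1 _
  rw [hneg, integral_congr_ae htr,
    integral_finsetSum _ fun k _ => (sol_soliton_integral hγ (ha k) (c k)).1, Finset.mul_sum,
    Finset.sum_congr rfl fun k _ => (sol_soliton_integral hγ (ha k) (c k)).2]
  have h1 : ∑ k, ((a k ^ 2) ^ γ - ε / (m + 1)) ≤ ∑ k, (max (-e k) 0) ^ γ :=
    Finset.sum_le_sum fun k _ => hg4 k
  rw [Finset.sum_sub_distrib, Finset.sum_const, Finset.card_univ, Fintype.card_fin,
    nsmul_eq_mul] at h1
  have h2 : (m : ℝ) * (ε / (m + 1)) < ε := by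
    rw [← mul_div_assoc, div_lt_iff₀ (by positivity)]
    linarith
  linarith

end Crest.Agent.R332
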