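import Crest.Agent.R332.Defs

/-!
Row 332: completing the square, and a sup bound.
-/

set_option autoImplicit false
set_option linter.unusedSectionVars false

namespace Crest.Agent.R332

open Matrix Crest.Agent.Lib.QEnt Filter Topology MeasureTheory Set
open scoped ComplexOrder Matrix.Norms.Frobenius

variable {k m n : Type} [Fintype k] [Fintype m] [Fintype n] [DecidableEq m] [DecidableEq n]

theorem continuous_of_hasDerivAt {E : Type*} [NormedAddCommGroup E] [NormedSpace ℝ E]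
    {F F' : ℝ → E} (h : ∀ x, HasDerivAt F (F' x) x) : Continuous F :=
  continuous_iff_continuousAt.2 fun x => (h x).continuousAt

theorem contOn_matmul {X : Type*} [TopologicalSpace X] {A : X → Matrix m n ℂ}
    {B : X → Matrix n k ℂ} {s : Set X} (hA : ContinuousOn A s) (hB : ContinuousOn B s) :
    ContinuousOn (fun x => A x * B x) s := by
  rw [continuousOn_iff_continuous_domRestrict] at hA hB ⊢
  exact hA.matrix_mul hB

theorem square_identity {Φ Φ' : ℝ → Matrix m n ℂ} {S S' : ℝ → Matrix n n ℂ} {x₀ x₁ : ℝ}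
    (hx : x₀ ≤ x₁) (hΦ : ∀ x, HasDerivAt Φ (Φ' x) x) (hΦ' : Continuous Φ')
    (hS : ∀ x ∈ Icc x₀ x₁, HasDerivAt S (S' x) x) (hS' : ContinuousOn S' (Icc x₀ x₁))
    (hh : ∀ x ∈ Icc x₀ x₁, (S x).IsHermitian) (e₀ : Φ x₀ = 0) (e₁ : Φ x₁ = 0) :
    (∫ x in x₀..x₁, ‖Φ' x‖ ^ 2) + ∫ x in x₀..x₁, tr ((Φ x)ᴴ * Φ x * (S' x + S x * S x)) =
      ∫ x in x₀..x₁, ‖Φ' x - Φ x * S x‖ ^ 2 := by
  have hc : Continuous Φ := continuous_of_hasDerivAt hΦ
  have hSc : ContinuousOn S (Icc x₀ x₁) := fun x hx => (hS x hx).continuousAt.continuousWithinAt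
  have hA : Continuous fun x => (Φ x)ᴴ * Φ x := hc.matrix_conjTranspose.matrix_mul hc
  have i1 : IntervalIntegrable (fun x => ‖Φ' x‖ ^ 2) volume x₀ x₁ :=
    (hΦ'.norm.pow 2).intervalIntegrable _ _
  have i2 : IntervalIntegrable (fun x => tr ((Φ x)ᴴ * Φ x * (S' x + S x * S x))) volume x₀ x₁ := by
    refine ContinuousOn.intervalIntegrable_of_Icc hx (ContinuousOn.tr' ?_)
    exact contOn_matmul hA.continuousOn (hS'.add (contOn_matmul hSc hSc))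
  have i3 : IntervalIntegrable (fun x => ‖Φ' x - Φ x * S x‖ ^ 2) volume x₀ x₁ := by
    refine ContinuousOn.intervalIntegrable_of_Icc hx (ContinuousOn.pow (ContinuousOn.norm ?_) 2)
    exact hΦ'.continuousOn.sub (contOn_matmul hc.continuousOn hSc)
  rw [← sub_eq_zero, ← intervalIntegral.integral_add i1 i2,
    ← intervalIntegral.integral_sub (i1.add i2) i3]
  have := intervalIntegral.integral_eq_sub_of_hasDerivAt (a := x₀) (b := x₁)
    (f := fun x => tr ((Φ x)ᴴ * Φ x * S x))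
    (f' := fun x => ‖Φ' x‖ ^ 2 + tr ((Φ x)ᴴ * Φ x * (S' x + S x * S x)) - ‖Φ' x - Φ x * S x‖ ^ 2)
    (fun x hx' => ?_) ((i1.add i2).sub i3)
  · rw [this, e₀, e₁]; simp
  rw [uIcc_of_le hx] at hx'
  have h1 := HasDerivAt.tr' (HasDerivAt.matmul (HasDerivAt.matmul (HasDerivAt.ct (hΦ x)) (hΦ x))
    (hS x hx'))
  refine h1.congr_deriv (Eq.symm ?_)
  have h2 : tr ((Φ x)ᴴ * Φ' x * S x) = tr ((Φ' x)ᴴ * (Φ x * S x)) := by
    rw [← tr_conjTranspose, conjTranspose_mul, conjTranspose_mul, conjTranspose_conjTranspose,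
      (hh x hx').eq, tr_mul_comm, Matrix.mul_assoc]
  have h3 : ‖Φ x * S x‖ ^ 2 = tr ((Φ x)ᴴ * Φ x * (S x * S x)) := by
    rw [← tr_ct_mul_self, conjTranspose_mul, (hh x hx').eq, Matrix.mul_assoc, tr_mul_comm]
    simp only [Matrix.mul_assoc]
  rw [norm_sub_sq_eq, h3]
  simp only [Matrix.add_mul, Matrix.mul_add, tr_add, Matrix.mul_assoc]
  rw [← Matrix.mul_assoc (Φ x)ᴴ (Φ' x), h2]
  ring

theorem tr_mul_pw {A : Matrix n n ℂ} (hA : A.PosSemidef) {r : ℝ} (hr : 0 ≤ r) :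
    A * pw r A = pw (1 + r) A := by
  obtain ⟨U, a, ha⟩ := exists_isDiag hA.1
  refine isDiag_eq_of (isDiag_mul ha (isDiag_pw ha r)) (isDiag_pw ha _) fun i => ?_
  rw [Real.rpow_one_add' (ha.nonneg hA i) (by linarith)]

theorem energy_identity {Φ Φ' : ℝ → Matrix m n ℂ} {S : ℝ → Matrix n n ℂ} {K2 : Matrix n n ℂ}
    {x₀ x₁ r : ℝ} (hr : 0 ≤ r) (hx : x₀ ≤ x₁) (hΦ : ∀ x, HasDerivAt Φ (Φ' x) x)
    (hΦ' : Continuous Φ')
    (hS : ∀ x ∈ Icc x₀ x₁, HasDerivAt S (K2 - S x * S x - (1 + r) • pw r ((Φ x)ᴴ * Φ x)) x)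
    (hh : ∀ x ∈ Icc x₀ x₁, (S x).IsHermitian) (e₀ : Φ x₀ = 0) (e₁ : Φ x₁ = 0) :
    (∫ x in x₀..x₁, ‖Φ' x‖ ^ 2) + ∫ x in x₀..x₁, tr ((Φ x)ᴴ * Φ x * K2) =
      (∫ x in x₀..x₁, ‖Φ' x - Φ x * S x‖ ^ 2) +
        (1 + r) * ∫ x in x₀..x₁, tr (pw (1 + r) ((Φ x)ᴴ * Φ x)) := by
  have hc : Continuous Φ := continuous_of_hasDerivAt hΦ
  have hSc : ContinuousOn S (Icc x₀ x₁) := fun x hx => (hS x hx).continuousAt.continuousWithinAt
  have hA : Continuous fun x => (Φ x)ᴴ * Φ x := hc.matrix_conjTranspose.matrix_mul hc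
  have hAh : ∀ x, ((Φ x)ᴴ * Φ x).PosSemidef := fun x => posSemidef_conjTranspose_mul_self _
  have hP : ∀ q, 0 ≤ q → Continuous fun x => pw q ((Φ x)ᴴ * Φ x) := fun q hq =>
    continuous_pw hq hA fun x => (hAh x).1
  have h := square_identity hx hΦ hΦ' hS
    ((continuousOn_const.sub (contOn_matmul hSc hSc)).sub
      ((hP r hr).const_smul (1 + r)).continuousOn) hh e₀ e₁
  have h2 : ∫ x in x₀..x₁, tr ((Φ x)ᴴ * Φ x *
      (K2 - S x * S x - (1 + r) • pw r ((Φ x)ᴴ * Φ x) + S x * S x)) =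
      (∫ x in x₀..x₁, tr ((Φ x)ᴴ * Φ x * K2)) -
        (1 + r) * ∫ x in x₀..x₁, tr (pw (1 + r) ((Φ x)ᴴ * Φ x)) := by
    rw [← intervalIntegral.integral_const_mul, ← intervalIntegral.integral_sub]
    · refine intervalIntegral.integral_congr fun x _ => ?_
      simp only [Matrix.mul_add, Matrix.mul_sub, Matrix.mul_smul, tr_add, tr_sub, tr_smul,
        tr_mul_pw (hAh x) hr]
      ring
    · exact (Continuous.tr' (hA.matrix_mul continuous_const)).intervalIntegrable _ _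
    · exact (continuous_const.mul (Continuous.tr' (hP _ (by linarith)))).intervalIntegrable _ _
  rw [h2] at h
  linarith

theorem sup_bound {Φ Φ' : ℝ → Matrix m n ℂ} {x₀ x₁ q : ℝ} (hq : 1 ≤ q) (hx : x₀ ≤ x₁)
    (hΦ : ∀ x, HasDerivAt Φ (Φ' x) x) (hΦ' : Continuous Φ')
    (hs : ∀ x, x ≤ x₀ ∨ x₁ ≤ x → Φ x = 0) (x : ℝ) :
    (‖Φ x‖ ^ 2) ^ ((q + 1) / 2) ≤
      (q + 1) / 2 * ∫ x in x₀..x₁, ((‖Φ x‖ ^ 2) ^ q + ‖Φ' x‖ ^ 2) := by
  have hc : Continuous Φ := continuous_of_hasDerivAt hΦ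
  have hg : Continuous fun x => (‖Φ x‖ ^ 2) ^ q + ‖Φ' x‖ ^ 2 :=
    ((hc.norm.pow 2).rpow_const fun _ => Or.inr (by linarith)).add (hΦ'.norm.pow 2)
  have hg0 : ∀ x, 0 ≤ (‖Φ x‖ ^ 2) ^ q + ‖Φ' x‖ ^ 2 := fun x => by positivity
  have hp : 1 ≤ (q + 1) / 2 := by linarith
  by_cases hx' : x ≤ x₀ ∨ x₁ ≤ x
  · rw [hs x hx', norm_zero, sq, mul_zero, Real.zero_rpow (by linarith)]
    exact mul_nonneg (by linarith) (intervalIntegral.integral_nonneg hx fun x _ => hg0 x)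
  push Not at hx'
  have hd : ∀ y, HasDerivAt (fun y => (‖Φ y‖ ^ 2) ^ ((q + 1) / 2))
      (2 * tr ((Φ y)ᴴ * Φ' y) * ((q + 1) / 2) * (‖Φ y‖ ^ 2) ^ ((q + 1) / 2 - 1)) y := fun y =>
    (HasDerivAt.norm_sq' (hΦ y)).rpow_const (Or.inr hp)
  have h1 := intervalIntegral.sub_le_integral_of_hasDeriv_right_of_le hx'.1.le
    (g := fun y => (‖Φ y‖ ^ 2) ^ ((q + 1) / 2))
    (φ := fun y => (q + 1) / 2 * ((‖Φ y‖ ^ 2) ^ q + ‖Φ' y‖ ^ 2))
    (continuous_of_hasDerivAt hd).continuousOn (fun y _ => (hd y).hasDerivWithinAt)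
    ((continuous_const.mul hg).continuousOn.integrableOn_Icc) (fun y _ => ?_)
  · simp only [hs x₀ (Or.inl le_rfl), norm_zero] at h1
    rw [sq (0 : ℝ), mul_zero, Real.zero_rpow (by linarith), sub_zero,
      intervalIntegral.integral_const_mul] at h1
    refine h1.trans (mul_le_mul_of_nonneg_left ?_ (by linarith))
    exact intervalIntegral.integral_mono_interval le_rfl hx'.1.le hx'.2.le
      (Eventually.of_forall hg0) (hg.intervalIntegrable _ _)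
  have h2 : tr ((Φ y)ᴴ * Φ' y) ≤ ‖Φ y‖ * ‖Φ' y‖ := by simpa [norm_ct] using tr_mul_le (Φ y)ᴴ (Φ' y)
  set z := (‖Φ y‖ ^ 2) ^ ((q + 1) / 2 - 1) with hz
  have hz0 : 0 ≤ z := by positivity
  have h3 : (‖Φ y‖ * z) ^ 2 = (‖Φ y‖ ^ 2) ^ q := by
    rw [mul_pow, hz, ← Real.rpow_natCast (_ ^ _) 2, ← Real.rpow_mul (by positivity),
      ← Real.rpow_one_add' (by positivity) (by push_cast; linarith)]
    congr 1; push_cast; ring
  have h4 : 2 * tr ((Φ y)ᴴ * Φ' y) * z ≤ (‖Φ y‖ ^ 2) ^ q + ‖Φ' y‖ ^ 2 := by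
    rw [← h3]
    nlinarith [sq_nonneg (‖Φ y‖ * z - ‖Φ' y‖), mul_le_mul_of_nonneg_right h2 hz0]
  nlinarith

theorem norm_sq_rpow_le (Φ : Matrix m n ℂ) {q : ℝ} (hq : 1 ≤ q) :
    (‖Φ‖ ^ 2) ^ q ≤ (Fintype.card m : ℝ) ^ (q - 1) * tr (pw q (Φ * Φᴴ)) := by
  have h := posSemidef_self_mul_conjTranspose Φ
  obtain ⟨U, a, ha⟩ := exists_isDiag h.1
  rw [← tr_mul_ct_self, isDiag_tr ha, isDiag_tr (isDiag_pw ha q)]
  exact Real.rpow_sum_le_const_mul_sum_rpow_of_nonneg Finset.univ hq fun i _ => ha.nonneg h i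

theorem tr_pw_swap (Φ : Matrix m n ℂ) {r : ℝ} (hr : 0 ≤ r) :
    tr (pw (1 + r) (Φᴴ * Φ)) = tr (pw (1 + r) (Φ * Φᴴ)) := by
  have h1 := posSemidef_conjTranspose_mul_self Φ
  have h2 := posSemidef_self_mul_conjTranspose Φ
  rw [← tr_mul_pw h1 hr, ← tr_mul_pw h2 hr]
  have h3 : pw r (Φ * Φᴴ) * Φ = Φ * pw r (Φᴴ * Φ) :=
    cfc_intertwine h2.1 h1.1 (X := Φ) (by simp only [Matrix.mul_assoc]) _
  rw [Matrix.mul_assoc, ← h3, ← Matrix.mul_assoc, tr_mul_cycle]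

end Crest.Agent.R332
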